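import Crest.Agent.R89.Defs

/-!
# R89: algebra of the Fock space
-/

set_option autoImplicit false
open scoped InnerProductSpace BigOperators

namespace Crest.Agent.R89

variable {I : Type}

theorem eps_mul (ξ η : T I) : eps (ξ * η) = eps ξ * eps η := by
  induction ξ using T_ind with
  | zero => simp
  | add a b ha hb => simp only [add_mul, map_add, ha, hb]
  | smul c a ha => simp only [smul_mul_assoc, map_smul, ha, smul_eq_mul, mul_assoc]
  | word w =>
    cases w with
    | nil => simp
    | cons i w =>
      rw [eps_wd_cons, zero_mul]
      induction η using T_ind with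
      | zero => simp
      | add a b ha hb => simp only [mul_add, map_add, ha, hb, add_zero]
      | smul c a ha => simp only [mul_smul_comm, map_smul, ha, smul_zero]
      | word w' => rw [← wd_append, List.cons_append, eps_wd_cons]

theorem eps_hm {J : Type} (g : I → J) (ξ : T I) : eps (hm g ξ) = eps ξ := by
  induction ξ using T_ind with
  | zero => simp
  | add a b ha hb => simp only [map_add, ha, hb]
  | smul c a ha => simp only [map_smul, ha]
  | word w => cases w <;> simp

/-- The general splitting formula: if each `Y k` commutes with right multiplication by `c * ζ`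
up to the term `Δ k ξ ζ`, then a word in the `Y k` does so up to a sum over all splittings. -/
theorem prod_apply_mul {κ : Type*} (Y : κ → Module.End ℂ (T I)) (c : T I)
    (Δ : κ → T I → T I → T I) (h : ∀ k ξ ζ, Y k (ξ * c * ζ) = Y k ξ * c * ζ + Δ k ξ ζ)
    (u : List κ) (ξ ζ : T I) :
    (u.map Y).prod (ξ * c * ζ) = (u.map Y).prod ξ * c * ζ +
      splits u fun x k z => (x.map Y).prod (Δ k ((z.map Y).prod ξ) ζ) := by
  induction u with
  | nil => simp
  | cons k u ih =>
    simp only [List.map_cons, List.prod_cons, Module.End.mul_apply, ih, map_add, h, splits_cons,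
      List.map_nil, List.prod_nil, Module.End.one_apply, map_splits, add_assoc]

variable [DecidableEq I]

theorem ann_lt_mul (i j : I) (η : T I) : ann i (lt j * η) = if j = i then η else 0 := by
  induction η using T_ind with
  | zero => simp
  | add a b ha hb => simp only [mul_add, map_add, ha, hb]; split_ifs <;> simp
  | smul c a ha => simp only [mul_smul_comm, map_smul, ha]; split_ifs <;> simp
  | word w => rw [← wd_cons, ann_wd_cons]

/-- Twisted Leibniz rule. -/
theorem ann_mul (i : I) (ξ η : T I) : ann i (ξ * η) = ann i ξ * η + eps ξ • ann i η := by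
  induction ξ using T_ind with
  | zero => simp
  | add a b ha hb => simp only [add_mul, map_add, ha, hb, add_smul]; abel
  | smul c a ha => simp only [smul_mul_assoc, map_smul, ha, smul_eq_mul, mul_smul, smul_add]
  | word w =>
    cases w with
    | nil => simp
    | cons j w =>
      rw [eps_wd_cons, zero_smul, add_zero, ann_wd_cons, wd_cons, mul_assoc, ann_lt_mul]
      split_ifs <;> simp

theorem sT_mul (i : I) (ξ η : T I) : sT i (ξ * η) = sT i ξ * η + eps ξ • ann i η := by
  rw [sT_apply, sT_apply, ann_mul, add_mul, mul_assoc, add_assoc]

theorem act_wd (w : List I) : act (wd w) = (w.map sT).prod := evA_wd _ _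

@[simp] theorem sT_one (i : I) : sT i 1 = lt i := by simp [sT_apply]

theorem eps_sT (i : I) (ξ : T I) : eps (sT i ξ) = eps (ann i ξ) := by
  simp [sT_apply, eps_mul]

/-- If no letter of `w` can annihilate `η`, then `act (wd w)` commutes with `· * η`. -/
theorem act_wd_mul_of_ann (w : List I) (η : T I) (h : ∀ i ∈ w, ann i η = 0) (ξ : T I) :
    act (wd w) (ξ * η) = act (wd w) ξ * η := by
  induction w with
  | nil => simp
  | cons i w ih =>
    rw [act_wd_cons, act_wd_cons, ih fun j hj => h j (List.mem_cons_of_mem _ hj), sT_mul,
      h i List.mem_cons_self, smul_zero, add_zero]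

/-- Splitting formula for a word in the letters. -/
theorem act_wd_mul_lt (w : List I) (j : I) (ξ ζ : T I) :
    act (wd w) (ξ * lt j * ζ) = act (wd w) ξ * lt j * ζ +
      splits w fun x a z => if a = j then eps (act (wd z) ξ) • act (wd x) ζ else 0 := by
  rw [act_wd, prod_apply_mul sT (lt j) (fun i ξ ζ => if i = j then eps ξ • ζ else 0)]
  · congr 1
    refine splits_congr _ fun x a z _ => ?_
    split_ifs <;> simp [act_wd]
  · intro k ξ ζ
    rw [mul_assoc, sT_mul, ann_lt_mul, mul_assoc]
    congr 1
    by_cases h : k = j
    · simp [h]
    · simp [h, Ne.symm h]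

/-! ### Right operators and the trace property -/

/-- Right annihilation operator. -/
noncomputable def annR (i : I) : T I →ₗ[ℂ] T I := linW fun w =>
  if w.getLast? = some i then wd w.dropLast else 0

theorem annR_one (i : I) : annR i (1 : T I) = 0 := by
  rw [← wd_nil, annR, linW_wd]; simp

theorem annR_lt_mul (i j : I) (η : T I) :
    annR i (lt j * η) = lt j * annR i η + eps η • (if j = i then 1 else 0) := by
  induction η using T_ind with
  | zero => simp
  | add a b ha hb => simp only [mul_add, map_add, ha, hb, add_smul]; abel
  | smul c a ha => simp only [mul_smul_comm, map_smul, ha, smul_eq_mul, mul_smul, smul_add]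
  | word w =>
    rw [← wd_cons]
    cases w with
    | nil => rw [wd_nil, annR_one]; simp [annR]
    | cons k w =>
      simp only [annR, linW_wd, List.getLast?_cons_cons, List.dropLast_cons_cons, eps_wd_cons,
        zero_smul, add_zero]
      split_ifs
      · rw [wd_cons]
      · simp

theorem ann_annR (i j : I) (η : T I) : ann i (annR j η) = annR j (ann i η) := by
  induction η using T_ind with
  | zero => simp
  | add a b ha hb => simp only [map_add, ha, hb]
  | smul c a ha => simp only [map_smul, ha]
  | word w =>
    cases w with
    | nil => simp [annR_one]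
    | cons k w =>
      cases w with
      | nil =>
        simp only [annR, linW_wd, ann_wd_cons]
        split_ifs <;> simp_all [← annR.eq_1, annR_one]
      | cons l w =>
        simp only [annR, linW_wd, List.getLast?_cons_cons, List.dropLast_cons_cons, ann_wd_cons]
        split_ifs <;> simp_all [ann_wd_cons]

/-- The right semicircular operator. -/
noncomputable def dT (i : I) : Module.End ℂ (T I) := LinearMap.mulRight ℂ (lt i) + annR i

theorem dT_apply (i : I) (ξ : T I) : dT i ξ = ξ * lt i + annR i ξ := rfl

theorem sT_dT (i j : I) (ξ : T I) : sT i (dT j ξ) = dT j (sT i ξ) := by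
  rw [dT_apply, map_add, sT_mul, dT_apply, sT_apply i (annR j ξ), sT_apply i ξ, map_add,
    annR_lt_mul, ann_annR, ann_lt]
  simp only [eq_comm (a := j) (b := i)]
  abel

theorem act_dT (Q : T I) (j : I) (ξ : T I) : act Q (dT j ξ) = dT j (act Q ξ) := by
  induction Q using T_ind with
  | zero => simp
  | add a b ha hb => simp only [map_add, LinearMap.add_apply, ha, hb]
  | smul c a ha => simp only [map_smul, LinearMap.smul_apply, ha]
  | word w =>
    induction w with
    | nil => simp
    | cons i w ih => rw [act_wd_cons, act_wd_cons, ih, sT_dT]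

theorem eps_dT (i : I) (ξ : T I) : eps (dT i ξ) = eps (sT i ξ) := by
  rw [eps_sT, dT_apply, map_add, eps_mul, eps_lt, mul_zero, zero_add]
  induction ξ using T_ind with
  | zero => simp
  | add a b ha hb => simp only [map_add, ha, hb]
  | smul c a ha => simp only [map_smul, ha]
  | word w =>
    cases w with
    | nil => simp [annR_one]
    | cons k w =>
      cases w with
      | nil => simp [annR, ann_wd_cons]
      | cons l w =>
        simp only [annR, linW_wd, List.getLast?_cons_cons, List.dropLast_cons_cons, ann_wd_cons]
        split_ifs <;> simp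

theorem tau0_lt_mul (i : I) (Q : T I) : tau0 (lt i * Q) = tau0 (Q * lt i) := by
  have : dT i 1 = lt i := by simp [dT_apply, annR_one]
  rw [tau0_apply, tau0_apply, map_mul, map_mul, Module.End.mul_apply, Module.End.mul_apply, act_lt,
    sT_one, ← this, act_dT, eps_dT]

/-- The vacuum state is a trace. -/
theorem tau0_comm (P Q : T I) : tau0 (P * Q) = tau0 (Q * P) := by
  induction P using T_ind with
  | zero => simp
  | add a b ha hb => simp only [add_mul, mul_add, map_add, ha, hb]
  | smul c a ha => simp only [smul_mul_assoc, mul_smul_comm, map_smul, ha]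
  | word w =>
    induction w generalizing Q with
    | nil => simp
    | cons i w ih => rw [wd_cons, mul_assoc, tau0_lt_mul, mul_assoc, ih, mul_assoc]

theorem eps_act_comm (P Q : T I) : eps (act P (act Q 1)) = eps (act Q (act P 1)) := by
  have := tau0_comm P Q
  simpa only [tau0_apply, map_mul, Module.End.mul_apply] using this

@[simp] theorem tau0_one : tau0 (1 : T I) = 1 := by simp [tau0_apply]

/-- Schwinger–Dyson equation. -/
theorem tau0_wd_cons (i : I) (w : List I) :
    tau0 (wd (i :: w)) = splits w fun x a z => if a = i then tau0 (wd x) * tau0 (wd z) else 0 := by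
  have h := act_wd_mul_lt w i 1 1
  rw [one_mul, mul_one, mul_one] at h
  rw [wd_cons, tau0_lt_mul, tau0_apply, map_mul, Module.End.mul_apply, act_lt, sT_one, h, map_add,
    eps_mul, eps_lt, mul_zero, zero_add, map_splits]
  refine splits_congr _ fun x a z _ => ?_
  split_ifs <;> simp [tau0_apply, mul_comm]

/-- The vacuum vector is cyclic. -/
theorem act_one_surjective (ξ : T I) : ∃ Q : T I, act Q 1 = ξ := by
  induction ξ using T_ind with
  | zero => exact ⟨0, by simp⟩
  | add a b ha hb =>
    obtain ⟨P, rfl⟩ := ha
    obtain ⟨Q, rfl⟩ := hb
    exact ⟨P + Q, by simp⟩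
  | smul c a ha =>
    obtain ⟨P, rfl⟩ := ha
    exact ⟨c • P, by simp⟩
  | word w =>
    induction hn : w.length using Nat.strong_induction_on generalizing w with
    | _ n ih =>
      cases w with
      | nil => exact ⟨1, by simp⟩
      | cons i w =>
        obtain ⟨P, hP⟩ := ih w.length (by simp [← hn]) w rfl
        have : ∃ Q : T I, act Q 1 = ann i (wd w) := by
          cases w with
          | nil => exact ⟨0, by simp⟩
          | cons j w =>
            rw [ann_wd_cons]
            split_ifs
            · exact ih w.length (by simp [← hn]) w rfl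
            · exact ⟨0, by simp⟩
        obtain ⟨Q, hQ⟩ := this
        refine ⟨lt i * P - Q, ?_⟩
        rw [map_sub, map_mul, LinearMap.sub_apply, Module.End.mul_apply, hP, hQ, act_lt, sT_apply,
          wd_cons, add_sub_cancel_right]

/-! ### Change of alphabet -/

theorem ann_hm {J : Type} [DecidableEq J] {g : I → J} (hg : Function.Injective g) (i : I)
    (ξ : T I) : ann (g i) (hm g ξ) = hm g (ann i ξ) := by
  induction ξ using T_ind with
  | zero => simp
  | add a b ha hb => simp only [map_add, ha, hb]
  | smul c a ha => simp only [map_smul, ha]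
  | word w =>
    cases w with
    | nil => simp
    | cons j w =>
      rw [hm_wd, List.map_cons, ann_wd_cons, ann_wd_cons]
      simp only [hg.eq_iff]
      split_ifs <;> simp

omit [DecidableEq I] in
theorem ann_hm_of_not_mem {J : Type} [DecidableEq J] {g : I → J} {j : J} (hj : ∀ i, g i ≠ j)
    (ξ : T I) : ann j (hm g ξ) = 0 := by
  induction ξ using T_ind with
  | zero => simp
  | add a b ha hb => simp only [map_add, ha, hb, add_zero]
  | smul c a ha => simp only [map_smul, ha, smul_zero]
  | word w =>
    cases w with
    | nil => simp
    | cons i w => rw [hm_wd, List.map_cons, ann_wd_cons, if_neg (hj i)]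

theorem act_wd_map_hm {J : Type} [DecidableEq J] {g : I → J} (hg : Function.Injective g)
    (w : List I) (ξ : T I) : act (wd (w.map g)) (hm g ξ) = hm g (act (wd w) ξ) := by
  induction w with
  | nil => simp
  | cons i w ih =>
    rw [List.map_cons, act_wd_cons, act_wd_cons, ih, sT_apply, sT_apply, ann_hm hg, map_add,
      map_mul, lt, lt, hm_wd]
    rfl

/-! ### Semicircular moments -/

theorem tau0_lt_pow_succ (i : I) (k : ℕ) :
    tau0 (lt i ^ (k + 1)) = ∑ j ∈ Finset.range k, tau0 (lt i ^ j) * tau0 (lt i ^ (k - (j + 1))) := by
  have hw : ∀ m : ℕ, lt i ^ m = wd (List.replicate m i) := by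
    intro m
    induction m with
    | zero => simp
    | succ m ih => rw [pow_succ', ih, List.replicate_succ, wd_cons]
  simp only [hw]
  rw [List.replicate_succ, tau0_wd_cons, splits_eq_sum_range i _
    fun x z => tau0 (wd x) * tau0 (wd z), List.length_replicate]
  refine Finset.sum_congr rfl fun j hj => ?_
  have hj' := Finset.mem_range.1 hj
  rw [if_pos (by simp [hj']), List.take_replicate, List.drop_replicate,
    min_eq_left hj'.le]

theorem tau0_lt_pow (i : I) (k : ℕ) :
    tau0 (lt i ^ (2 * k)) = (catalan k : ℂ) ∧ tau0 (lt i ^ (2 * k + 1)) = 0 := by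
  induction k using Nat.strong_induction_on with
  | _ k ih =>
    have hsplit : ∀ (f : ℕ → ℂ) (m : ℕ), ∑ j ∈ Finset.range (2 * m), f j =
        ∑ j ∈ Finset.range m, (f (2 * j) + f (2 * j + 1)) := by
      intro f m
      induction m with
      | zero => simp
      | succ m ih =>
        rw [show 2 * (m + 1) = 2 * m + 1 + 1 by ring, Finset.sum_range_succ, Finset.sum_range_succ,
          ih, Finset.sum_range_succ, add_assoc]
    constructor
    · cases k with
      | zero => simp
      | succ k =>
        rw [show 2 * (k + 1) = (2 * k + 1) + 1 by ring, tau0_lt_pow_succ, Finset.sum_range_succ,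
          hsplit, catalan_succ, Fin.sum_univ_eq_sum_range (fun j => catalan j * catalan (k - j)),
          Finset.sum_range_succ]
        push_cast
        congr 1
        · refine Finset.sum_congr rfl fun j hj => ?_
          have hj' := Finset.mem_range.1 hj
          rw [(ih j (by omega)).1, (ih j (by omega)).2, zero_mul, add_zero,
            show 2 * k - 2 * j = 2 * (k - j) by omega, (ih (k - j) (by omega)).1]
        · rw [(ih k (by omega)).1]
          simp
    · rw [tau0_lt_pow_succ, hsplit]
      refine Finset.sum_eq_zero fun j hj => ?_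
      have hj' := Finset.mem_range.1 hj
      rw [(ih j hj').2, zero_mul, add_zero,
        show 2 * k - (2 * j + 1) = 2 * (k - j - 1) + 1 by omega, (ih (k - j - 1) (by omega)).2,
        mul_zero]

end Crest.Agent.R89
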