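import Crest.Agent.R89.Alg

/-!
# R89: inner products on the algebraic Fock space
-/

set_option autoImplicit false
open scoped InnerProductSpace BigOperators

namespace Crest.Agent.R89

variable {I : Type} [DecidableEq I]

theorem inner_emb_wd (a b : List I) : ⟪emb (wd a), emb (wd b)⟫_ℂ = if a = b then 1 else 0 := by
  rw [emb_wd, emb_wd, lp.inner_single_left, lp.single_apply]
  split_ifs with h
  · simp [h]
  · simp [Pi.single_eq_of_ne h]

theorem norm_emb_wd (a : List I) : ‖emb (wd a)‖ = 1 := by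
  rw [emb_wd, lp.norm_single (by norm_num), norm_one]

theorem norm_emb_lt (i : I) : ‖emb (lt i)‖ = 1 := norm_emb_wd _

theorem norm_emb_one : ‖emb (1 : T I)‖ = 1 := norm_emb_wd []

theorem inner_emb_lt (i j : I) : ⟪emb (lt i), emb (lt j)⟫_ℂ = if i = j then 1 else 0 := by
  simp [lt, inner_emb_wd]

omit [DecidableEq I] in
/-- Two sesquilinear expressions agreeing on words agree. -/
theorem sesq_ext {f g : T I → T I → ℂ}
    (hf1 : ∀ a b c, f (a + b) c = f a c + f b c) (hg1 : ∀ a b c, g (a + b) c = g a c + g b c)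
    (hf2 : ∀ a b c, f a (b + c) = f a b + f a c) (hg2 : ∀ a b c, g a (b + c) = g a b + g a c)
    (hf3 : ∀ (r : ℂ) a b, f (r • a) b = starRingEnd ℂ r * f a b)
    (hg3 : ∀ (r : ℂ) a b, g (r • a) b = starRingEnd ℂ r * g a b)
    (hf4 : ∀ (r : ℂ) a b, f a (r • b) = r * f a b) (hg4 : ∀ (r : ℂ) a b, g a (r • b) = r * g a b)
    (h : ∀ a b, f (wd a) (wd b) = g (wd a) (wd b)) (ξ η : T I) : f ξ η = g ξ η := by
  induction ξ using T_ind with
  | zero =>
    have h1 := hf3 0 0 η
    have h2 := hg3 0 0 η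
    simp only [zero_smul, map_zero, zero_mul] at h1 h2
    rw [h1, h2]
  | add a b ha hb => rw [hf1, hg1, ha, hb]
  | smul c a ha => rw [hf3, hg3, ha]
  | word w =>
    induction η using T_ind with
    | zero =>
      have h1 := hf4 0 (wd w) 0
      have h2 := hg4 0 (wd w) 0
      simp only [zero_smul, zero_mul] at h1 h2
      rw [h1, h2]
    | add a b ha hb => rw [hf2, hg2, ha, hb]
    | smul c a ha => rw [hf4, hg4, ha]
    | word w' => exact h w w'

theorem inner_emb_one (η : T I) : ⟪emb (1 : T I), emb η⟫_ℂ = eps η := by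
  induction η using T_ind with
  | zero => simp
  | add a b ha hb => simp only [map_add, inner_add_right, ha, hb]
  | smul c a ha => simp only [map_smul, inner_smul_right, ha, smul_eq_mul]
  | word w =>
    rw [← wd_nil, inner_emb_wd]
    cases w <;> simp

theorem inner_lt_mul (i : I) (ξ η : T I) :
    ⟪emb (lt i * ξ), emb η⟫_ℂ = ⟪emb ξ, emb (ann i η)⟫_ℂ := by
  refine sesq_ext (f := fun ξ η => ⟪emb (lt i * ξ), emb η⟫_ℂ)
    (g := fun ξ η => ⟪emb ξ, emb (ann i η)⟫_ℂ) ?_ ?_ ?_ ?_ ?_ ?_ ?_ ?_ ?_ ξ η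
  any_goals intros; simp only [mul_add, map_add, inner_add_left, inner_add_right, mul_smul_comm,
    map_smul, inner_smul_left, inner_smul_right]
  intro a b
  rw [← wd_cons, inner_emb_wd]
  cases b with
  | nil => simp
  | cons j b =>
    rw [ann_wd_cons]
    by_cases h : j = i
    · simp [h, inner_emb_wd]
    · simp [h, Ne.symm h]

theorem isSym_sT (i : I) : IsSym (sT i) := by
  intro ξ η
  rw [sT_apply, sT_apply, map_add, map_add, inner_add_left, inner_add_right, inner_lt_mul,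
    ← inner_conj_symm (emb ξ) (emb (lt i * η)), inner_lt_mul, inner_conj_symm, add_comm]

theorem IsSym.add {V W : Module.End ℂ (T I)} (hV : IsSym V) (hW : IsSym W) : IsSym (V + W) := by
  intro ξ η
  simp only [LinearMap.add_apply, map_add, inner_add_left, inner_add_right, hV ξ η, hW ξ η]

theorem IsSym.smul {V : Module.End ℂ (T I)} (hV : IsSym V) (r : ℝ) : IsSym ((r : ℂ) • V) := by
  intro ξ η
  simp only [LinearMap.smul_apply, map_smul, inner_smul_left, inner_smul_right, hV ξ η,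
    Complex.conj_ofReal]

theorem IsSym.sub {V W : Module.End ℂ (T I)} (hV : IsSym V) (hW : IsSym W) : IsSym (V - W) := by
  intro ξ η
  simp only [LinearMap.sub_apply, map_sub, inner_sub_left, inner_sub_right, hV ξ η, hW ξ η]

/-- The adjoint of a product of symmetric operators is the reversed product. -/
theorem inner_prod_apply {κ : Type*} (Y : κ → Module.End ℂ (T I)) (hY : ∀ k, IsSym (Y k))
    (u : List κ) (ξ η : T I) :
    ⟪emb ((u.map Y).prod ξ), emb η⟫_ℂ = ⟪emb ξ, emb ((u.reverse.map Y).prod η)⟫_ℂ := by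
  induction u generalizing η with
  | nil => simp
  | cons k u ih =>
    rw [List.map_cons, List.prod_cons, Module.End.mul_apply, hY k, ih, List.reverse_cons,
      List.map_append, List.prod_append]
    simp

theorem isSym_prod {κ : Type*} (Y : κ → Module.End ℂ (T I)) (hY : ∀ k, IsSym (Y k))
    {u : List κ} (hu : u.reverse = u) : IsSym (u.map Y).prod := fun ξ η => by
  rw [inner_prod_apply Y hY, hu]

theorem isSym_act_wd {w : List I} (hw : w.reverse = w) : IsSym (act (wd w)) := by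
  rw [act_wd]
  exact isSym_prod _ isSym_sT hw

theorem tau0_wd_reverse (w : List I) : tau0 (wd w.reverse) = starRingEnd ℂ (tau0 (wd w)) := by
  rw [tau0_apply, tau0_apply, ← inner_emb_one, ← inner_emb_one, inner_conj_symm, act_wd, act_wd,
    inner_prod_apply _ isSym_sT]

/-- For symmetric `act P`: `ε(P ξ) = ⟪P Ω, ξ⟫`. -/
theorem IsSym.eps_apply {W : Module.End ℂ (T I)} (hW : IsSym W) (ξ : T I) :
    eps (W ξ) = ⟪emb (W 1), emb ξ⟫_ℂ := by
  rw [hW, inner_emb_one]

theorem tau0_mul_self {P : T I} (hP : IsSym (act P)) :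
    tau0 (P * P) = ((‖emb (act P 1)‖ ^ 2 : ℝ) : ℂ) := by
  rw [tau0_apply, map_mul, Module.End.mul_apply, hP.eps_apply, inner_self_eq_norm_sq_to_K]
  simp

/-! ### Homogeneous elements -/

omit [DecidableEq I] in
theorem wd_mem_hom (w : List I) : wd w ∈ hom I w.length := Submodule.subset_span ⟨w, rfl, rfl⟩

omit [DecidableEq I] in
theorem lt_mem_hom (i : I) : lt i ∈ hom I 1 := wd_mem_hom [i]

omit [DecidableEq I] in
theorem one_mem_hom : (1 : T I) ∈ hom I 0 := wd_mem_hom []

omit [DecidableEq I] in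
@[elab_as_elim]
theorem hom_ind {a : ℕ} {p : T I → Prop} {ξ : T I} (h : ξ ∈ hom I a) (zero : p 0)
    (word : ∀ w : List I, w.length = a → p (wd w))
    (add : ∀ a b, p a → p b → p (a + b)) (smul : ∀ (c : ℂ) a, p a → p (c • a)) : p ξ := by
  induction h using Submodule.span_induction with
  | mem x hx => obtain ⟨w, hw, rfl⟩ := hx; exact word w hw
  | zero => exact zero
  | add x y _ _ hx hy => exact add x y hx hy
  | smul c x _ hx => exact smul c x hx

omit [DecidableEq I] in
theorem mul_mem_hom {a b : ℕ} {ξ η : T I} (hξ : ξ ∈ hom I a) (hη : η ∈ hom I b) :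
    ξ * η ∈ hom I (a + b) := by
  refine hom_ind hξ (by simp) (fun w hw => ?_) (fun x y hx hy => ?_) (fun c x hx => ?_)
  · refine hom_ind hη (by simp) (fun w' hw' => ?_) (fun x y hx hy => ?_) (fun c x hx => ?_)
    · rw [← wd_append, ← hw, ← hw', ← List.length_append]; exact wd_mem_hom _
    · rw [mul_add]; exact add_mem hx hy
    · rw [mul_smul_comm]; exact Submodule.smul_mem _ _ hx
  · rw [add_mul]; exact add_mem hx hy
  · rw [smul_mul_assoc]; exact Submodule.smul_mem _ _ hx

theorem inner_eq_zero_of_hom {a b : ℕ} (hab : a ≠ b) {ξ η : T I} (hξ : ξ ∈ hom I a)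
    (hη : η ∈ hom I b) : ⟪emb ξ, emb η⟫_ℂ = 0 := by
  refine hom_ind hξ (by simp) (fun w hw => ?_) (fun x y hx hy => ?_) (fun c x hx => ?_)
  · refine hom_ind hη (by simp) (fun w' hw' => ?_) (fun x y hx hy => ?_) (fun c x hx => ?_)
    · rw [inner_emb_wd, if_neg]
      rintro rfl
      exact hab (hw.symm.trans hw')
    · rw [map_add, inner_add_right, hx, hy, add_zero]
    · rw [map_smul, inner_smul_right, hx, mul_zero]
  · rw [map_add, inner_add_left, hx, hy, add_zero]
  · rw [map_smul, inner_smul_left, hx, mul_zero]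

theorem inner_mul_of_hom {a : ℕ} {ξ ξ' : T I} (hξ : ξ ∈ hom I a) (hξ' : ξ' ∈ hom I a)
    (η η' : T I) :
    ⟪emb (ξ * η), emb (ξ' * η')⟫_ℂ = ⟪emb ξ, emb ξ'⟫_ℂ * ⟪emb η, emb η'⟫_ℂ := by
  refine hom_ind hξ (by simp) (fun w hw => ?_) (fun x y hx hy => ?_) (fun c x hx => ?_)
  · refine hom_ind hξ' (by simp) (fun w' hw' => ?_) (fun x y hx hy => ?_) (fun c x hx => ?_)
    · refine sesq_ext (f := fun η η' => ⟪emb (wd w * η), emb (wd w' * η')⟫_ℂ)
        (g := fun η η' => ⟪emb (wd w), emb (wd w')⟫_ℂ * ⟪emb η, emb η'⟫_ℂ)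
        ?_ ?_ ?_ ?_ ?_ ?_ ?_ ?_ ?_ η η'
      any_goals intros; simp only [mul_add, map_add, inner_add_left, inner_add_right,
        mul_smul_comm, map_smul, inner_smul_left, inner_smul_right, mul_left_comm]
      intro x y
      rw [← wd_append, ← wd_append, inner_emb_wd, inner_emb_wd, inner_emb_wd]
      by_cases h : w ++ x = w' ++ y
      · obtain ⟨h1, h2⟩ := List.append_inj h (hw.trans hw'.symm)
        simp [h1, h2]
      · rw [if_neg h]
        split_ifs with h1 h2
        · exact absurd (by rw [h1, h2]) h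
        all_goals simp
    · simp only [add_mul, map_add, inner_add_right, hx, hy]
    · simp only [smul_mul_assoc, map_smul, inner_smul_right, hx, mul_assoc]
  · simp only [add_mul, map_add, inner_add_left, hx, hy]
  · simp only [smul_mul_assoc, map_smul, inner_smul_left, hx, mul_assoc]

theorem norm_mul_of_hom {a : ℕ} {ξ : T I} (hξ : ξ ∈ hom I a) (η : T I) :
    ‖emb (ξ * η)‖ = ‖emb ξ‖ * ‖emb η‖ := by
  have h := inner_mul_of_hom hξ hξ η η
  simp only [inner_self_eq_norm_sq_to_K] at h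
  have h2 : ‖emb (ξ * η)‖ ^ 2 = (‖emb ξ‖ * ‖emb η‖) ^ 2 := by
    rw [mul_pow]
    exact_mod_cast h
  exact (pow_left_inj₀ (norm_nonneg _) (by positivity) two_ne_zero).1 h2

/-- Orthogonality of the terms `ξ_k v_k ζ_k`. -/
theorem norm_sum_mul_le {κ : Type*} (s : Finset κ) {a : ℕ} (ξ v ζ : κ → T I)
    (hξ : ∀ k ∈ s, ξ k ∈ hom I a) (hv : ∀ k ∈ s, v k ∈ hom I 1)
    (horth : ∀ k ∈ s, ∀ l ∈ s, k ≠ l → ⟪emb (v k), emb (v l)⟫_ℂ = 0) {C : ℝ} (hC : 0 ≤ C)
    (hb : ∀ k ∈ s, ‖emb (ξ k)‖ * ‖emb (v k)‖ * ‖emb (ζ k)‖ ≤ C) :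
    ‖emb (∑ k ∈ s, ξ k * v k * ζ k)‖ ≤ √s.card * C := by
  classical
  have key : ‖emb (∑ k ∈ s, ξ k * v k * ζ k)‖ ^ 2 ≤ s.card * C ^ 2 := by
    rw [← inner_self_eq_norm_sq (𝕜 := ℂ), map_sum, sum_inner, map_sum]
    rw [← nsmul_eq_mul]
    refine Finset.sum_le_card_nsmul _ _ _ fun k hk => ?_
    rw [inner_sum, Finset.sum_eq_single_of_mem k hk, inner_self_eq_norm_sq, mul_assoc,
      norm_mul_of_hom (hξ k hk), norm_mul_of_hom (hv k hk), ← mul_assoc]
    · exact pow_le_pow_left₀ (by positivity) (hb k hk) 2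
    · intro l hl hlk
      rw [mul_assoc, mul_assoc, inner_mul_of_hom (hξ k hk) (hξ l hl),
        inner_mul_of_hom (hv k hk) (hv l hl), horth k hk l hl hlk.symm, zero_mul, mul_zero]
  rw [← Real.sqrt_sq hC, ← Real.sqrt_mul (Nat.cast_nonneg _)]
  exact Real.le_sqrt_of_sq_le key

end Crest.Agent.R89
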