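import Crest.Agent.R89.Stein
import Crest.Agent.R89.Inner

/-!
# R89: convergence in probability; bounded densities
-/

set_option autoImplicit false
open scoped InnerProductSpace BigOperators
open MeasureTheory Filter Topology Crest.OpAlg

namespace Crest.Agent.R89

section ConvAux
variable {I : Type} [Fintype I] [DecidableEq I]

omit [Fintype I] [DecidableEq I] in
lemma Conv_conj (d : ℕ) (w : List I) (g : I × (Fin d × Fin d) → ℝ) :
    starRingEnd ℂ (trProd d [w] g) = trProd d [w.reverse] g := by
  simp only [trProd, List.map_cons, List.map_nil, List.prod_cons, List.prod_nil, mul_one, map_mul,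
    map_inv₀, Complex.conj_natCast]
  congr 1
  rw [← RCLike.star_def, ← Matrix.trace_conjTranspose, Matrix.conjTranspose_list_prod,
    List.map_map, ← List.map_reverse]
  congr 2
  exact List.map_congr_left fun k _ => gue_isHermitian g k

omit [Fintype I] [DecidableEq I] in
lemma Conv_norm_sq (d : ℕ) (w : List I) (g : I × (Fin d × Fin d) → ℝ) (t : ℂ) :
    ((‖trProd d [w] g - t‖ ^ 2 : ℝ) : ℂ) = trProd d [w, w.reverse] g
      - starRingEnd ℂ t * trProd d [w] g - t * trProd d [w.reverse] g + t * starRingEnd ℂ t := by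
  have h : trProd d [w, w.reverse] g = trProd d [w] g * trProd d [w.reverse] g := by
    simp [trProd]
  rw [← Complex.normSq_eq_norm_sq, ← Complex.mul_conj, map_sub, Conv_conj, h]
  ring

lemma Conv_integrable (d : ℕ) (w : List I) (t : ℂ) :
    Integrable (fun g => ((‖trProd d [w] g - t‖ ^ 2 : ℝ) : ℂ)) (gauss (I × (Fin d × Fin d))) := by
  simp only [Conv_norm_sq]
  exact (((integrable_trProd d _).sub ((integrable_trProd d _).const_mul _)).sub
    ((integrable_trProd d _).const_mul _)).add (integrable_const _)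

lemma Conv_tendsto_var (w : List I) :
    Tendsto (fun d : ℕ => ∫ g, ‖trProd d [w] g - tau0 (wd w)‖ ^ 2 ∂gauss (I × (Fin d × Fin d)))
      atTop (𝓝 0) := by
  set t := tau0 (wd w) with ht
  have h1 : ∀ d : ℕ, ((∫ g, ‖trProd d [w] g - t‖ ^ 2 ∂gauss (I × (Fin d × Fin d)) : ℝ) : ℂ) =
      ∫ g, trProd d [w, w.reverse] g ∂gauss (I × (Fin d × Fin d))
        - starRingEnd ℂ t * ∫ g, trProd d [w] g ∂gauss (I × (Fin d × Fin d))
        - t * ∫ g, trProd d [w.reverse] g ∂gauss (I × (Fin d × Fin d)) + t * starRingEnd ℂ t := by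
    intro d
    rw [← integral_complex_ofReal]
    simp only [Conv_norm_sq]
    have i1 := integrable_trProd d [w, w.reverse]
    have i2 := (integrable_trProd d [w]).const_mul (starRingEnd ℂ t)
    have i3 := (integrable_trProd d [w.reverse]).const_mul t
    have i4 : Integrable (fun g => trProd d [w, w.reverse] g - starRingEnd ℂ t * trProd d [w] g)
      (gauss (I × (Fin d × Fin d))) := i1.sub i2
    have i5 : Integrable (fun g => trProd d [w, w.reverse] g - starRingEnd ℂ t * trProd d [w] g
      - t * trProd d [w.reverse] g) (gauss (I × (Fin d × Fin d))) := i4.sub i3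
    rw [integral_add i5 (integrable_const _), integral_sub i4 i3,
      integral_sub i1 i2, integral_const_mul, integral_const_mul]
    simp
  have h2 := (((tendsto_trProd [w, w.reverse]).sub
    ((tendsto_trProd [w]).const_mul (starRingEnd ℂ t))).sub
    ((tendsto_trProd [w.reverse]).const_mul t)).add_const (t * starRingEnd ℂ t)
  simp only [← h1, List.map_cons, List.map_nil, List.prod_cons, List.prod_nil, mul_one,
    tau0_wd_reverse, ← ht] at h2
  have h3 : t * starRingEnd ℂ t - starRingEnd ℂ t * t - t * starRingEnd ℂ t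
      + t * starRingEnd ℂ t = ((0 : ℝ) : ℂ) := by
    push_cast; ring
  rw [h3] at h2
  exact (Complex.continuous_re.tendsto _).comp h2

lemma Conv_word (w : List I) {ε : ℝ} (hε : 0 < ε) :
    Tendsto (fun d : ℕ => gauss (I × (Fin d × Fin d))
      {g | ε ≤ ‖trProd d [w] g - tau0 (wd w)‖}) atTop (𝓝 0) := by
  have h1 : Tendsto (fun d : ℕ => ENNReal.ofReal ((ε ^ 2)⁻¹ *
      ∫ g, ‖trProd d [w] g - tau0 (wd w)‖ ^ 2 ∂gauss (I × (Fin d × Fin d)))) atTop (𝓝 0) := by
    have := ENNReal.tendsto_ofReal ((Conv_tendsto_var w).const_mul (ε ^ 2)⁻¹)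
    simpa using this
  refine tendsto_of_tendsto_of_tendsto_of_le_of_le tendsto_const_nhds h1 (fun _ => zero_le)
    fun d => ?_
  have hi : Integrable (fun g => ‖trProd d [w] g - tau0 (wd w)‖ ^ 2)
      (gauss (I × (Fin d × Fin d))) := by
    have := (Conv_integrable d w (tau0 (wd w))).re
    simpa only [RCLike.re_to_complex, Complex.ofReal_re] using this
  have h2 := mul_meas_ge_le_integral_of_nonneg (ae_of_all _ fun g => by positivity) hi (ε ^ 2)
  have h3 : {g | ε ≤ ‖trProd d [w] g - tau0 (wd w)‖} =
      {g | ε ^ 2 ≤ ‖trProd d [w] g - tau0 (wd w)‖ ^ 2} := by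
    ext g
    simp only [Set.mem_ofPred_eq]
    exact (pow_le_pow_iff_left₀ hε.le (norm_nonneg _) two_ne_zero).symm
  simp only
  rw [h3, ← ENNReal.ofReal_toReal (measure_ne_top _ _)]
  refine ENNReal.ofReal_le_ofReal ?_
  rw [le_inv_mul_iff₀ (by positivity)]
  exact h2

end ConvAux

/-- Convergence in probability of normalised traces.

Proof.  For a word `Q = wd w` (`evA_wd`): with `z = trProd d [w]`, `conj z = trProd d [w.reverse]`
(`gue_isHermitian`), `‖z - τ‖² = (z - τ) conj (z - τ)` has expectation
`𝔼 trProd [w, w.reverse] - conj τ 𝔼 z - τ 𝔼 conj z + τ conj τ → 0` (`tendsto_trProd`,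
`tau0_wd_reverse`); Markov's inequality.  The set of `Q` for which the statement holds for all
`ε` is closed under sums and scalar multiples (union bound), `T_ind`. -/
theorem gue_conv {I : Type} [Fintype I] [DecidableEq I] (Q : T I) {ε : ℝ} (hε : 0 < ε) :
    Tendsto (fun d : ℕ => gauss (I × (Fin d × Fin d))
      {g | ε ≤ ‖(d : ℂ)⁻¹ * Matrix.trace (evA (gue d g) Q) - tau0 Q‖}) atTop (𝓝 0) := by
  induction Q using T_ind generalizing ε with
  | zero => simp [not_le.2 hε]
  | word w =>
    have := Conv_word w hε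
    simpa only [trProd, List.map_cons, List.map_nil, List.prod_cons, List.prod_nil, mul_one,
      evA_wd] using this
  | add a b ha hb =>
    have h := (ha (half_pos hε)).add (hb (half_pos hε))
    rw [add_zero] at h
    refine tendsto_of_tendsto_of_tendsto_of_le_of_le tendsto_const_nhds h (fun _ => zero_le)
      fun d => (measure_mono fun g hg => ?_).trans (measure_union_le _ _)
    simp only [Set.mem_ofPred_eq, Set.mem_union, map_add, Matrix.trace_add] at hg ⊢
    by_contra hc
    push Not at hc
    have h1 := norm_add_le ((d : ℂ)⁻¹ * Matrix.trace (evA (gue d g) a) - tau0 a)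
      ((d : ℂ)⁻¹ * Matrix.trace (evA (gue d g) b) - tau0 b)
    have h2 : (d : ℂ)⁻¹ * Matrix.trace (evA (gue d g) a) - tau0 a +
        ((d : ℂ)⁻¹ * Matrix.trace (evA (gue d g) b) - tau0 b) =
        (d : ℂ)⁻¹ * (Matrix.trace (evA (gue d g) a) + Matrix.trace (evA (gue d g) b)) -
          (tau0 a + tau0 b) := by ring
    rw [h2] at h1
    linarith [hc.1, hc.2]
  | smul c a ha =>
    have hc : 0 < ‖c‖ + 1 := by positivity
    have h := ha (div_pos hε hc)
    refine tendsto_of_tendsto_of_tendsto_of_le_of_le tendsto_const_nhds h (fun _ => zero_le)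
      fun d => measure_mono fun g hg => ?_
    simp only [Set.mem_ofPred_eq, map_smul, Matrix.trace_smul, smul_eq_mul] at hg ⊢
    have h2 : (d : ℂ)⁻¹ * (c * Matrix.trace (evA (gue d g) a)) - c * tau0 a =
        c * ((d : ℂ)⁻¹ * Matrix.trace (evA (gue d g) a) - tau0 a) := by ring
    rw [h2, norm_mul] at hg
    rw [div_le_iff₀ hc]
    nlinarith [norm_nonneg ((d : ℂ)⁻¹ * Matrix.trace (evA (gue d g) a) - tau0 a)]

lemma Conv_gaussianReal_le (s : Set ℝ) : ProbabilityTheory.gaussianReal 0 1 s ≤ volume s := by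
  rw [ProbabilityTheory.gaussianReal_apply _ one_ne_zero]
  calc ∫⁻ x in s, ProbabilityTheory.gaussianPDF 0 1 x ≤ ∫⁻ _ in s, 1 := by
        refine lintegral_mono fun x => ?_
        rw [ProbabilityTheory.gaussianPDF, ProbabilityTheory.gaussianPDFReal]
        refine ENNReal.ofReal_le_one.2 (mul_le_one₀ ?_ (Real.exp_pos _).le ?_)
        · refine inv_le_one_of_one_le₀ (Real.one_le_sqrt.2 ?_)
          simp only [NNReal.coe_one, mul_one]
          linarith [Real.pi_gt_three]
        · refine Real.exp_le_one_iff.2 ?_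
          simp only [NNReal.coe_one, mul_one, sub_zero]
          have := sq_nonneg x
          linarith [neg_div 2 (x ^ 2)]
    _ = volume s := by simp

lemma Conv_gauss_le {α : Type} [Fintype α] (s : Set (α → ℝ)) : gauss α s ≤ volume s := by
  have h : (gauss α).toOuterMeasure ≤
      OuterMeasure.pi fun _ : α => (volume : Measure ℝ).toOuterMeasure := by
    rw [OuterMeasure.le_pi]
    intro t _
    simp only [Measure.coe_toOuterMeasure]
    rw [Measure.pi_pi]
    exact Finset.prod_le_prod' fun i _ => Conv_gaussianReal_le _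
  refine (h s).trans ?_
  rw [volume_pi, Measure.pi_def]
  exact le_toMeasure_apply _ _ _

lemma Conv_affine_le {α : Type} [Fintype α] (r : α → ℝ) (hr : ∀ a, 0 < r a) (y : α → ℝ)
    (Γ : Set (α → ℝ)) :
    gauss α {x | (fun a => r a * x a + y a) ∈ Γ} ≤ ENNReal.ofReal (∏ a, (r a)⁻¹) * volume Γ := by
  classical
  refine (Conv_gauss_le _).trans (le_of_eq ?_)
  have hdet : LinearMap.det (Matrix.toLin' (Matrix.diagonal r)) = ∏ a, r a := by
    rw [LinearMap.det_toLin', Matrix.det_diagonal]
  have hpos : 0 < ∏ a, r a := Finset.prod_pos fun a _ => hr a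
  have h1 : {x : α → ℝ | (fun a => r a * x a + y a) ∈ Γ} =
      Matrix.toLin' (Matrix.diagonal r) ⁻¹' ((fun x => x + y) ⁻¹' Γ) := by
    ext x
    simp only [Set.mem_ofPred_eq, Set.mem_preimage, Matrix.toLin'_apply]
    have : (fun a => r a * x a + y a) = (Matrix.diagonal r).mulVec x + y := by
      ext a
      simp [Matrix.mulVec_diagonal]
    rw [this]
  rw [h1, Measure.addHaar_preimage_linearMap _ (by rw [hdet]; exact hpos.ne'), hdet,
    measure_preimage_add_right, abs_of_pos (inv_pos.2 hpos), Finset.prod_inv_distrib]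

/-- Adding independent Gaussian noise produces a bounded density.

Proof.  `measurePreserving_sumPiEquivProdPi` and Fubini (`Measure.prod_apply_symm`): for a fixed
value of the second block it suffices to show
`gauss α {x | (fun a => r a * x a + y a) ∈ Γ} ≤ ∏ (r a)⁻¹ * volume Γ`.  `gauss α ≤ volume`
(`gaussianReal 0 1 ≤ volume` since the density is `≤ 1/√(2π) ≤ 1`; pass to products by induction /
`Measure.pi` of `withDensity`, or compare on boxes via `stdGaussian` density), and
`x ↦ r • x + y` scales Lebesgue measure by `∏ r a` (`Real.volume_preimage_mul_left`-type lemma for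
`Matrix.diagonal`/`Measure.addHaar_preimage_linearMap`, translation invariance). -/
theorem gauss_shift_le {α β : Type} [Fintype α] [Fintype β] (r : α → ℝ) (hr : ∀ a, 0 < r a)
    (h : (β → ℝ) → α → ℝ) (hh : Measurable h) (Γ : Set (α → ℝ)) (hΓ : MeasurableSet Γ) :
    gauss (α ⊕ β) {g | (fun a => r a * g (.inl a) + h (fun b => g (.inr b)) a) ∈ Γ} ≤
      ENNReal.ofReal (∏ a, (r a)⁻¹) * volume Γ := by
  have hmp := measurePreserving_sumPiEquivProdPi (X := fun _ : α ⊕ β => ℝ)
    fun _ => ProbabilityTheory.gaussianReal 0 1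
  set S : Set ((α → ℝ) × (β → ℝ)) := {p | (fun a => r a * p.1 a + h p.2 a) ∈ Γ} with hS
  have hSm : MeasurableSet S := by
    have : Measurable fun p : (α → ℝ) × (β → ℝ) => fun a => r a * p.1 a + h p.2 a := by
      refine measurable_pi_lambda _ fun a => ?_
      exact ((measurable_pi_apply a).comp measurable_fst |>.const_mul _).add
        ((measurable_pi_apply a).comp (hh.comp measurable_snd))
    exact this hΓ
  have h1 : {g : α ⊕ β → ℝ | (fun a => r a * g (.inl a) + h (fun b => g (.inr b)) a) ∈ Γ} =
      MeasurableEquiv.sumPiEquivProdPi (fun _ : α ⊕ β => ℝ) ⁻¹' S := rfl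
  rw [h1, hmp.measure_preimage hSm.nullMeasurableSet, Measure.prod_apply_symm hSm]
  calc _ ≤ ∫⁻ _, ENNReal.ofReal (∏ a, (r a)⁻¹) * volume Γ ∂gauss β :=
        lintegral_mono fun y => Conv_affine_le r hr (h y) Γ
    _ = _ := by simp

end Crest.Agent.R89
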