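import Mathlib
import Crest.Prelude.Def_CStarRep
import Crest.Prelude.Def_FreeEntropy

/-!
# R89 (S0118, `χ < χ*`): definitions

`T I` is the tensor algebra on the alphabet `I`.  It is used in two roles: as the algebra of
non-commutative polynomials in the letters and as the algebraic full Fock space.
`act Q` is the action of the polynomial `Q` on the Fock space (letters act by the
semicircular operators `sT i = ℓ_i + ℓ_i*`), `tau0 Q = ⟨Ω, Q Ω⟩` with `Ω = 1`.
-/

set_option autoImplicit false
open scoped InnerProductSpace BigOperators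

namespace Crest.Agent.R89

/-! ### Splitting a word at a letter -/

/-- `splits w f = ∑_{w = x ++ a :: z} f x a z`. -/
def splits {α M : Type*} [AddCommMonoid M] : List α → (List α → α → List α → M) → M
  | [], _ => 0
  | c :: w, f => f [] c w + splits w fun x a z => f (c :: x) a z

section splits
variable {α M : Type*} [AddCommMonoid M]

@[simp] theorem splits_nil (f : List α → α → List α → M) : splits [] f = 0 := rfl

theorem splits_cons (c : α) (w : List α) (f : List α → α → List α → M) :
    splits (c :: w) f = f [] c w + splits w fun x a z => f (c :: x) a z := rfl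

theorem splits_congr (w : List α) {f g : List α → α → List α → M}
    (h : ∀ x a z, w = x ++ a :: z → f x a z = g x a z) : splits w f = splits w g := by
  induction w generalizing f g with
  | nil => rfl
  | cons c w ih =>
    rw [splits_cons, splits_cons, h [] c w rfl, ih fun x a z hw => h (c :: x) a z (by simp [hw])]

@[simp] theorem splits_zero (w : List α) : splits w (fun _ _ _ => (0 : M)) = 0 := by
  induction w with
  | nil => rfl
  | cons c w ih => simp [splits_cons, ih]

theorem splits_add (w : List α) (f g : List α → α → List α → M) :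
    splits w (fun x a z => f x a z + g x a z) = splits w f + splits w g := by
  induction w generalizing f g with
  | nil => simp
  | cons c w ih => rw [splits_cons, splits_cons, splits_cons, ih]; abel

theorem map_splits {N F : Type*} [AddCommMonoid N] [FunLike F M N] [AddMonoidHomClass F M N]
    (φ : F) (w : List α) (f : List α → α → List α → M) :
    φ (splits w f) = splits w fun x a z => φ (f x a z) := by
  induction w generalizing f with
  | nil => simp
  | cons c w ih => rw [splits_cons, splits_cons, map_add, ih]

theorem splits_sum {ι : Type*} (s : Finset ι) (w : List α) (f : ι → List α → α → List α → M) :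
    splits w (fun x a z => ∑ i ∈ s, f i x a z) = ∑ i ∈ s, splits w (f i) := by
  induction w generalizing f with
  | nil => simp
  | cons c w ih => simp only [splits_cons, Finset.sum_add_distrib, ih]

theorem splits_map {β : Type*} (g : α → β) (w : List α) (f : List β → β → List β → M) :
    splits (w.map g) f = splits w fun x a z => f (x.map g) (g a) (z.map g) := by
  induction w generalizing f with
  | nil => rfl
  | cons c w ih => rw [List.map_cons, splits_cons, splits_cons, ih]; rfl

/-- The form used in the Prelude (`splitPairing`). -/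
theorem splits_eq_sum_range [DecidableEq α] (i : α) (w : List α) (f : List α → List α → M) :
    (splits w fun x a z => if a = i then f x z else 0) =
      ∑ k ∈ Finset.range w.length,
        if w[k]? = some i then f (w.take k) (w.drop (k + 1)) else 0 := by
  induction w generalizing f with
  | nil => simp
  | cons c w ih =>
    rw [splits_cons, List.length_cons, Finset.sum_range_succ', ih fun x z => f (c :: x) z, add_comm]
    simp

end splits

/-! ### The algebraic Fock space -/

/-- Tensor algebra on the alphabet `I`. -/
abbrev T (I : Type) : Type := MonoidAlgebra ℂ (FreeMonoid I)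

section Fock
variable {I : Type}

/-- The basis vector (or monomial) of a word. -/
noncomputable def wd (l : List I) : T I := MonoidAlgebra.single (FreeMonoid.ofList l) 1

/-- The basis vector (or variable) of a letter. -/
noncomputable def lt (i : I) : T I := wd [i]

theorem wd_append (a b : List I) : wd (a ++ b) = wd a * wd b := by
  simp [wd, MonoidAlgebra.single_mul_single, FreeMonoid.ofList_append]

@[simp] theorem wd_nil : wd ([] : List I) = 1 := rfl

theorem wd_cons (i : I) (w : List I) : wd (i :: w) = lt i * wd w := wd_append [i] w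

/-- The linear map with prescribed values on words. -/
noncomputable def linW {M : Type*} [AddCommGroup M] [Module ℂ M] (f : List I → M) :
    T I →ₗ[ℂ] M :=
  (MonoidAlgebra.basis (FreeMonoid I) ℂ).constr ℂ fun w => f (FreeMonoid.toList w)

@[simp] theorem linW_wd {M : Type*} [AddCommGroup M] [Module ℂ M] (f : List I → M) (w : List I) :
    linW f (wd w) = f w := by
  have := (MonoidAlgebra.basis (FreeMonoid I) ℂ).constr_basis ℂ
    (fun w => f (FreeMonoid.toList w)) (FreeMonoid.ofList w)
  rwa [MonoidAlgebra.basis_apply] at this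

/-- Linear maps agreeing on words are equal. -/
theorem lin_ext {M : Type*} [AddCommGroup M] [Module ℂ M] {f g : T I →ₗ[ℂ] M}
    (h : ∀ w, f (wd w) = g (wd w)) : f = g :=
  (MonoidAlgebra.basis (FreeMonoid I) ℂ).ext fun w => by
    rw [MonoidAlgebra.basis_apply]; exact h (FreeMonoid.toList w)

/-- Induction on elements of `T I`. -/
@[elab_as_elim]
theorem T_ind {p : T I → Prop} (ξ : T I) (zero : p 0) (word : ∀ w, p (wd w))
    (add : ∀ a b, p a → p b → p (a + b)) (smul : ∀ (c : ℂ) a, p a → p (c • a)) : p ξ := by
  induction ξ using MonoidAlgebra.induction_linear with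
  | zero => exact zero
  | add a b ha hb => exact add a b ha hb
  | single w c =>
    have := smul c _ (word (FreeMonoid.toList w))
    simpa [wd] using this

/-- Coefficient of the empty word. -/
noncomputable def eps : T I →ₗ[ℂ] ℂ := linW fun w => match w with
  | [] => 1
  | _ :: _ => 0

@[simp] theorem eps_one : eps (1 : T I) = 1 := linW_wd _ []
@[simp] theorem eps_wd_cons (i : I) (w : List I) : eps (wd (i :: w)) = 0 := linW_wd _ _
@[simp] theorem eps_lt (i : I) : eps (lt i) = 0 := linW_wd _ _

/-- Homogeneous elements of degree `a`. -/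
noncomputable def hom (I : Type) (a : ℕ) : Submodule ℂ (T I) :=
  Submodule.span ℂ {ξ | ∃ w : List I, w.length = a ∧ wd w = ξ}

/-- The algebra map induced by a map of alphabets. -/
noncomputable def hm {J : Type} (g : I → J) : T I →ₐ[ℂ] T J :=
  MonoidAlgebra.mapDomainAlgHom ℂ ℂ (FreeMonoid.map g)

@[simp] theorem hm_wd {J : Type} (g : I → J) (w : List I) : hm g (wd w) = wd (w.map g) := by
  simp [hm, wd, MonoidAlgebra.mapDomainAlgHom]
  rfl

/-- Evaluation of a polynomial in the letters. -/
noncomputable def evA {A : Type*} [Semiring A] [Algebra ℂ A] (G : I → A) : T I →ₐ[ℂ] A :=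
  MonoidAlgebra.lift ℂ A (FreeMonoid I) (FreeMonoid.lift G)

theorem evA_wd {A : Type*} [Semiring A] [Algebra ℂ A] (G : I → A) (w : List I) :
    evA G (wd w) = (w.map G).prod := by
  simp [evA, wd, FreeMonoid.lift_ofList]

@[simp] theorem evA_lt {A : Type*} [Semiring A] [Algebra ℂ A] (G : I → A) (i : I) :
    evA G (lt i) = G i := by
  simp [lt, evA_wd]

variable [DecidableEq I]

/-- Left annihilation operator. -/
noncomputable def ann (i : I) : T I →ₗ[ℂ] T I := linW fun w => match w with
  | [] => 0
  | j :: w' => if j = i then wd w' else 0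

@[simp] theorem ann_one (i : I) : ann i (1 : T I) = 0 := linW_wd _ []
theorem ann_wd_cons (i j : I) (w : List I) : ann i (wd (j :: w)) = if j = i then wd w else 0 :=
  linW_wd _ _
theorem ann_lt (i j : I) : ann i (lt j) = if j = i then 1 else 0 := linW_wd _ _

/-- The semicircular operator `ℓ_i + ℓ_i*`. -/
noncomputable def sT (i : I) : Module.End ℂ (T I) := LinearMap.mulLeft ℂ (lt i) + ann i

theorem sT_apply (i : I) (ξ : T I) : sT i ξ = lt i * ξ + ann i ξ := rfl

/-- Action of polynomials on the Fock space. -/
noncomputable def act : T I →ₐ[ℂ] Module.End ℂ (T I) := evA sT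

@[simp] theorem act_lt (i : I) : act (lt i) = sT i := evA_lt _ _

theorem act_wd_cons (i : I) (w : List I) (ξ : T I) :
    act (wd (i :: w)) ξ = sT i (act (wd w) ξ) := by
  rw [wd_cons, map_mul, act_lt]; rfl

/-- The vacuum state. -/
noncomputable def tau0 : T I →ₗ[ℂ] ℂ :=
  eps ∘ₗ (LinearMap.applyₗ (1 : T I)) ∘ₗ (act (I := I)).toLinearMap

theorem tau0_apply (Q : T I) : tau0 Q = eps (act Q 1) := rfl

/-- The completed Fock space. -/
abbrev Hil (I : Type) : Type := lp (fun _ : List I => ℂ) 2

/-- The embedding of the algebraic Fock space into `ℓ²`; all norms and inner products of Fock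
vectors are computed through it. -/
noncomputable def emb : T I →ₗ[ℂ] Hil I := linW fun w => lp.single 2 w (1 : ℂ)

theorem emb_wd (w : List I) : emb (wd w) = lp.single 2 w (1 : ℂ) := linW_wd _ _

/-- Symmetric operators on the algebraic Fock space. -/
def IsSym (W : Module.End ℂ (T I)) : Prop :=
  ∀ ξ η, ⟪emb (W ξ), emb η⟫_ℂ = ⟪emb ξ, emb (W η)⟫_ℂ

end Fock

/-! ### The tuples -/

/-- The alphabet: built-in noise, hidden letters, heat-flow noise. -/
abbrev Lt (n : ℕ) : Type := Fin n ⊕ (Fin n ⊕ Fin n)

section tuples
variable {n : ℕ}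

/-- Built-in noise letter. -/
def nz (k : Fin n) : Lt n := .inl k
/-- Hidden letter. -/
def hd (k : Fin n) : Lt n := .inr (.inl k)
/-- Heat-flow noise letter. -/
def sv (k : Fin n) : Lt n := .inr (.inr k)

/-- `X_k = (word F k in hidden letters) + c_k · noise_k`. -/
noncomputable def Xt (F : Fin n → List (Fin n)) (c : Fin n → ℝ) : Fin n → T (Lt n) :=
  fun k => wd ((F k).map hd) + (c k : ℂ) • lt (nz k)

/-- The standard semicircular tuple. -/
noncomputable def St : Fin n → T (Lt n) := fun k => lt (sv k)

/-- The total noise vector of coordinate `k` at time `s`. -/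
noncomputable def vv (c : Fin n → ℝ) (s : ℝ) (k : Fin n) : T (Lt n) :=
  (c k : ℂ) • lt (nz k) + (Real.sqrt s : ℂ) • lt (sv k)

theorem heatTuple_Xt (F : Fin n → List (Fin n)) (c : Fin n → ℝ) (s : ℝ) (k : Fin n) :
    Crest.OpAlg.heatTuple (Xt F c) St s k = wd ((F k).map hd) + vv c s k := by
  simp [Crest.OpAlg.heatTuple, Xt, St, vv, add_assoc]

end tuples

/-- Index set of the example: `A_p`, `B_q`, and `A_p B_q A_p`. -/
abbrev Kx (m : ℕ) : Type := (Fin m ⊕ Fin m) ⊕ (Fin m × Fin m)

section example_
variable {m n : ℕ} (e : Kx m ≃ Fin n)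

/-- Index of `A_p`. -/
def ia (p : Fin m) : Fin n := e (.inl (.inl p))
/-- Index of `B_q`. -/
def ib (q : Fin m) : Fin n := e (.inl (.inr q))
/-- Index of `A_p B_q A_p`. -/
def ic (p q : Fin m) : Fin n := e (.inr (p, q))

/-- The hidden words. -/
def Fx (k : Fin n) : List (Fin n) := match e.symm k with
  | .inl _ => [k]
  | .inr (p, q) => [ia e p, ib e q, ia e p]

/-- The built-in noise levels. -/
noncomputable def cx (L : ℝ) (k : Fin n) : ℝ := match e.symm k with
  | .inl _ => 1 / 16
  | .inr _ => L

@[simp] theorem Fx_inl (b : Fin m ⊕ Fin m) : Fx e (e (.inl b)) = [e (.inl b)] := by simp [Fx]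
@[simp] theorem Fx_inr (p q : Fin m) : Fx e (e (.inr (p, q))) = [ia e p, ib e q, ia e p] := by
  simp [Fx]
@[simp] theorem cx_inl (L : ℝ) (b : Fin m ⊕ Fin m) : cx e L (e (.inl b)) = 1 / 16 := by simp [cx]
@[simp] theorem cx_inr (L : ℝ) (x : Fin m × Fin m) : cx e L (e (.inr x)) = L := by simp [cx]

end example_

/-! ### Matrix models -/

/-- Standard Gaussian measure on `σ → ℝ`. -/
noncomputable abbrev gauss (σ : Type) [Fintype σ] : MeasureTheory.Measure (σ → ℝ) :=
  MeasureTheory.Measure.pi fun _ : σ => ProbabilityTheory.gaussianReal 0 1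

/-- Independent normalised GUE matrices. -/
noncomputable def gue {I : Type} (d : ℕ) (g : I × (Fin d × Fin d) → ℝ) (i : I) :
    Matrix (Fin d) (Fin d) ℂ :=
  (((Real.sqrt d)⁻¹ : ℝ) : ℂ) • Crest.OpAlg.hermitianOfCoords (WithLp.toLp 2 fun p => g (i, p))

/-- The real coordinates of a Hermitian matrix (inverse of `hermitianOfCoords`). -/
noncomputable def coordsOf {d : ℕ} (M : Matrix (Fin d) (Fin d) ℂ) : Fin d × Fin d → ℝ :=
  fun p => if p.1 = p.2 then (M p.1 p.1).re
    else if p.1 < p.2 then Real.sqrt 2 * (M p.1 p.2).re else Real.sqrt 2 * (M p.2 p.1).im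

/-- The orthonormal basis of Hermitian matrices. -/
noncomputable def Eb {d : ℕ} (α : Fin d × Fin d) : Matrix (Fin d) (Fin d) ℂ :=
  Crest.OpAlg.hermitianOfCoords (WithLp.toLp 2 (Pi.single α 1))

end Crest.Agent.R89
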