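import Crest.Agent.R89.Inner

/-!
# R89: free Fisher information and `χ*`
-/

set_option autoImplicit false
open scoped InnerProductSpace BigOperators
open MeasureTheory Filter Topology Crest.OpAlg

namespace Crest.Agent.R89

section aux
variable {A : Type*} [Ring A] [Algebra ℂ A] {n : ℕ}

omit [Algebra ℂ A] in
theorem Fisher_wordEval (Z : Fin n → A) (w : FreeMonoid (Fin n)) :
    wordEval Z w = ((FreeMonoid.toList w).map Z).prod := FreeMonoid.lift_apply Z w

omit [Algebra ℂ A] in
theorem Fisher_wordEval_symm (Z : Fin n → A) (l : List (Fin n)) :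
    wordEval Z (FreeMonoid.toList.symm l) = (l.map Z).prod := by
  rw [Fisher_wordEval, Equiv.apply_symm_apply]

theorem Fisher_polyEval (Z : Fin n → A) (P : NCPoly n) :
    polyEval Z P = ∑ w ∈ P.coeff.support, P.coeff w • ((FreeMonoid.toList w).map Z).prod := by
  rw [polyEval, MonoidAlgebra.lift_apply, Finsupp.sum]
  exact Finset.sum_congr rfl fun w _ => by rw [FreeMonoid.lift_apply]

theorem Fisher_polyEval_star (Z : Fin n → A) (P : NCPoly n) :
    polyEval Z (polyStar P) = ∑ w ∈ P.coeff.support,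
      starRingEnd ℂ (P.coeff w) • ((FreeMonoid.toList w).reverse.map Z).prod := by
  rw [polyEval, polyStar, Finsupp.sum, map_sum]
  refine Finset.sum_congr rfl fun w _ => ?_
  rw [MonoidAlgebra.lift_single, FreeMonoid.lift_apply, Equiv.apply_symm_apply]

theorem Fisher_splitPairing (τ : A →ₗ[ℂ] ℂ) (Z : Fin n → A) (k : Fin n) (P : NCPoly n) :
    splitPairing τ Z k P = ∑ w ∈ P.coeff.support, P.coeff w *
      splits (FreeMonoid.toList w) fun x a z =>
        if a = k then τ (x.map Z).prod * τ (z.map Z).prod else 0 := by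
  rw [splitPairing, Finsupp.sum]
  refine Finset.sum_congr rfl fun w _ => ?_
  rw [splits_eq_sum_range k _ fun x z => τ (x.map Z).prod * τ (z.map Z).prod]
  simp only [Fisher_wordEval_symm]

theorem Fisher_continuous_word (τ : A →ₗ[ℂ] ℂ) (X S : Fin n → A) (l : List (Fin n)) (Q : A) :
    Continuous fun s : ℝ => τ (Q * (l.map (heatTuple X S s)).prod) := by
  induction l generalizing Q with
  | nil => simpa using continuous_const
  | cons k l ih =>
    have : (fun s : ℝ => τ (Q * ((k :: l).map (heatTuple X S s)).prod)) = fun s : ℝ =>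
        τ (Q * X k * (l.map (heatTuple X S s)).prod) +
          (Real.sqrt s : ℂ) * τ (Q * S k * (l.map (heatTuple X S s)).prod) := by
      funext s
      rw [List.map_cons, List.prod_cons]
      generalize (l.map (heatTuple X S s)).prod = W
      simp only [heatTuple, add_mul, mul_add, smul_mul_assoc, mul_smul_comm, mul_assoc, map_add,
        map_smul, smul_eq_mul]
    rw [this]
    exact (ih _).add ((Complex.continuous_ofReal.comp Real.continuous_sqrt).mul (ih _))

theorem Fisher_continuous_word' (τ : A →ₗ[ℂ] ℂ) (X S : Fin n → A) (l : List (Fin n)) :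
    Continuous fun s : ℝ => τ (l.map (heatTuple X S s)).prod := by
  simpa using Fisher_continuous_word τ X S l 1

theorem Fisher_int_sq {σ t : ℝ} (N : ℝ) (h : 0 < σ + t) :
    IntegrableOn (fun s : ℝ => N / (σ + s) ^ 2) (Set.Ioi t) ∧
      ∫ s in Set.Ioi t, N / (σ + s) ^ 2 = N / (σ + t) := by
  have hd : ∀ x ∈ Set.Ici t, HasDerivAt (fun s : ℝ => -(σ + s)⁻¹) (1 / (σ + x) ^ 2) x := by
    intro x hx
    have hx1 : t ≤ x := hx
    have hx' : σ + x ≠ 0 := (by linarith : 0 < σ + x).ne'
    have := (((hasDerivAt_id' x).const_add σ).fun_inv hx').fun_neg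
    exact this.congr_deriv (by ring)
  have hl : Tendsto (fun s : ℝ => -(σ + s)⁻¹) atTop (𝓝 0) := by
    simpa using (tendsto_inv_atTop_zero.comp (tendsto_atTop_add_const_left _ σ tendsto_id)).neg
  have hi : IntegrableOn (fun s : ℝ => 1 / (σ + s) ^ 2) (Set.Ioi t) :=
    integrableOn_Ioi_deriv_of_nonneg' hd (fun x _ => by positivity) hl
  have hv := integral_Ioi_of_hasDerivAt_of_tendsto' hd hi hl
  have he : (fun s : ℝ => N / (σ + s) ^ 2) = fun s => N * (1 / (σ + s) ^ 2) := by
    funext s; ring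
  rw [he]
  refine ⟨hi.const_mul N, ?_⟩
  rw [integral_const_mul, hv]
  ring

theorem Fisher_int_log {a : ℝ} (ha : 0 < a) :
    IntegrableOn (fun s : ℝ => 1 / (1 + s) - 1 / (a + s)) (Set.Ioi 0) ∧
      ∫ s in Set.Ioi (0 : ℝ), (1 / (1 + s) - 1 / (a + s)) = Real.log a := by
  have hd : ∀ x ∈ Set.Ici (0 : ℝ), HasDerivAt (fun s : ℝ => Real.log (1 + s) - Real.log (a + s))
      (1 / (1 + x) - 1 / (a + x)) x := by
    intro x hx
    have hx0 : 0 ≤ x := hx
    exact (((hasDerivAt_id x).const_add 1).log (by positivity : (1 + x) ≠ 0)).sub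
      (((hasDerivAt_id x).const_add a).log (by positivity : (a + x) ≠ 0))
  have hl : Tendsto (fun s : ℝ => Real.log (1 + s) - Real.log (a + s)) atTop (𝓝 0) := by
    have h1 : Tendsto (fun s : ℝ => 1 + (1 - a) * (a + s)⁻¹) atTop (𝓝 (1 + (1 - a) * 0)) :=
      ((tendsto_inv_atTop_zero.comp (tendsto_atTop_add_const_left _ a tendsto_id)).const_mul
        (1 - a)).const_add 1
    rw [mul_zero, add_zero] at h1
    have h2 := h1.log one_ne_zero
    rw [Real.log_one] at h2
    refine h2.congr' ?_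
    filter_upwards [eventually_gt_atTop 0] with s hs
    rw [← Real.log_div (by positivity) (by positivity)]
    congr 1
    field_simp
    ring
  have hi : IntegrableOn (fun s : ℝ => 1 / (1 + s) - 1 / (a + s)) (Set.Ioi 0) := by
    rcases le_total 1 a with h | h
    · refine integrableOn_Ioi_deriv_of_nonneg' hd (fun x hx => ?_) hl
      have hx0 : 0 < x := hx
      exact sub_nonneg.2 (one_div_le_one_div_of_le (by positivity) (by linarith))
    · refine integrableOn_Ioi_deriv_of_nonpos' hd (fun x hx => ?_) hl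
      have hx0 : 0 < x := hx
      exact sub_nonpos.2 (one_div_le_one_div_of_le (by positivity) (by linarith))
  refine ⟨hi, ?_⟩
  rw [integral_Ioi_of_hasDerivAt_of_tendsto' hd hi hl]
  simp

end aux

/-- Upper bound for `Φ*` from approximate conjugate vectors.

Proof.  Fix formally self-adjoint `P`, let `M` bound the lengths of the words in the supports of
the `P k` and take `ξ k` from `h M k`.  With `W = act (polyEval Z (P k))`:
`splitPairing tau0 Z k (P k) = eps (W (ξ k))` (`splits_eq_sum_range`, linearity;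
`wordEval Z w = (w.toList.map Z).prod`, `act` is multiplicative), `W` is symmetric
(`inner_prod_apply`: the adjoint of `act (polyEval Z P)` is `act (polyEval Z (polyStar P))`), so
`eps (W ξ) = ⟪emb (W 1), emb ξ⟫` (`IsSym.eps_apply`), `tau0 (P(Z) P(Z)) = ‖emb (W 1)‖²`
(`tau0_mul_self`), and `2 Re ⟪x, y⟫ - ‖x‖² ≤ ‖y‖²`. -/
theorem freeFisher_le {I : Type} [DecidableEq I] {n : ℕ} (Z : Fin n → T I)
    (hZ : ∀ k, IsSym (act (Z k))) (β : Fin n → ℝ)
    (h : ∀ (M : ℕ) (k : Fin n), ∃ ξ : T I, ‖emb ξ‖ ^ 2 ≤ β k ∧ ∀ u : List (Fin n), u.length ≤ M →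
      (splits u fun x a z => if a = k then tau0 (x.map Z).prod * tau0 (z.map Z).prod else 0) =
        eps (act (u.map Z).prod ξ)) :
    freeFisher tau0 Z ≤ ENNReal.ofReal (∑ k, β k) := by
  refine iSup_le fun P => iSup_le fun hP => ENNReal.ofReal_le_ofReal ?_
  rw [Complex.re_sum]
  refine Finset.sum_le_sum fun k _ => ?_
  obtain ⟨ξ, hξ, hξ'⟩ := h ((P k).coeff.support.sup fun w => (FreeMonoid.toList w).length) k
  have hact : ∀ l : List (Fin n), act (l.map Z).prod = (l.map fun j => act (Z j)).prod := by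
    intro l
    rw [map_list_prod, List.map_map]
    rfl
  have hsym : IsSym (act (polyEval Z (P k))) := by
    intro η ζ
    conv_rhs => rw [← hP k]
    rw [Fisher_polyEval, Fisher_polyEval_star]
    simp only [map_sum, map_smul, LinearMap.sum_apply, LinearMap.smul_apply, sum_inner, inner_sum,
      inner_smul_left, inner_smul_right, hact]
    exact Finset.sum_congr rfl fun w _ => by rw [inner_prod_apply _ hZ]
  have hsp : splitPairing tau0 Z k (P k) = eps (act (polyEval Z (P k)) ξ) := by
    rw [Fisher_splitPairing, Fisher_polyEval]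
    simp only [map_sum, map_smul, LinearMap.sum_apply, LinearMap.smul_apply, smul_eq_mul]
    refine Finset.sum_congr rfl fun w hw => ?_
    rw [hξ' _ (Finset.le_sup (f := fun w => (FreeMonoid.toList w).length) hw)]
  rw [hsp, hsym.eps_apply, tau0_mul_self hsym]
  set x := emb (act (polyEval Z (P k)) 1)
  set y := emb ξ
  have h1 : (⟪x, y⟫_ℂ).re ≤ ‖x‖ * ‖y‖ := (Complex.re_le_norm _).trans (norm_inner_le_norm _ _)
  have h2 : (2 * ⟪x, y⟫_ℂ - ((‖x‖ ^ 2 : ℝ) : ℂ)).re = 2 * (⟪x, y⟫_ℂ).re - ‖x‖ ^ 2 := by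
    rw [Complex.sub_re, Complex.ofReal_re]
    simp
  rw [h2]
  nlinarith [sq_nonneg (‖x‖ - ‖y‖)]

variable {A : Type*} [Ring A] [Algebra ℂ A] {n : ℕ}

/-- Test polynomials `P k = r • x_k`. -/
theorem le_freeFisher (τ : A →ₗ[ℂ] ℂ) (h1 : τ 1 = 1) (Z : Fin n → A) (r : ℝ) :
    ENNReal.ofReal (∑ k, (2 * r - r ^ 2 * (τ (Z k * Z k)).re)) ≤ freeFisher τ Z := by
  let P : Fin n → NCPoly n := fun k => MonoidAlgebra.single (FreeMonoid.of k) (r : ℂ)
  have hP : ∀ i, polyStar (P i) = P i := by
    intro i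
    rw [polyStar, MonoidAlgebra.coeff_single, Finsupp.sum_single_index (by simp)]
    simp only [Complex.conj_ofReal, P]
    rfl
  refine le_trans (le_of_eq ?_) (le_iSup₂_of_le (f := fun (P : Fin n → NCPoly n)
    (_ : ∀ i, polyStar (P i) = P i) => ENNReal.ofReal (∑ i, (2 * splitPairing τ Z i (P i) -
      τ (polyEval Z (P i) * polyEval Z (P i)))).re) P hP le_rfl)
  rw [Complex.re_sum]
  congr 1
  refine Finset.sum_congr rfl fun k _ => ?_
  have h2 : splitPairing τ Z k (P k) = r := by
    rw [splitPairing, MonoidAlgebra.coeff_single, Finsupp.sum_single_index (by simp)]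
    simp [wordEval, h1]
  have h3 : polyEval Z (P k) = (r : ℂ) • Z k := by
    rw [polyEval, MonoidAlgebra.lift_single, FreeMonoid.lift_eval_of]
  rw [h2, h3, smul_mul_smul_comm, map_smul, smul_eq_mul, ← Complex.ofReal_mul, Complex.sub_re,
    Complex.re_ofReal_mul]
  simp [sq]

/-- `s ↦ Φ*(X + √s S)` is a supremum of continuous functions, so lower semicontinuous
(`lowerSemicontinuous_iSup`, `LowerSemicontinuous.measurable`).  Continuity of
`s ↦ τ (Q * wordEval (heatTuple X S s) w)` for all `Q`: induction on `w`, using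
`Q * (X k + √s • S k) * W = (Q * X k) * W + √s • ((Q * S k) * W)`; and
`polyEval Z P * polyEval Z P = polyEval Z (P * P)` is a finite combination of words. -/
theorem measurable_freeFisher (τ : A →ₗ[ℂ] ℂ) (X S : Fin n → A) :
    Measurable fun s : ℝ => freeFisher τ (heatTuple X S s) := by
  refine LowerSemicontinuous.measurable ?_
  refine lowerSemicontinuous_iSup fun P => lowerSemicontinuous_iSup fun _ => ?_
  refine Continuous.lowerSemicontinuous (ENNReal.continuous_ofReal.comp
    (Complex.continuous_re.comp (continuous_finsetSum _ fun k _ => Continuous.sub ?_ ?_)))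
  · refine continuous_const.mul ?_
    simp only [splitPairing, Finsupp.sum, Fisher_wordEval_symm]
    refine continuous_finsetSum _ fun w _ => continuous_const.mul
      (continuous_finsetSum _ fun j _ => ?_)
    split_ifs
    · exact (Fisher_continuous_word' τ X S _).mul (Fisher_continuous_word' τ X S _)
    · exact continuous_const
  · have : ∀ s : ℝ, polyEval (heatTuple X S s) (P k) * polyEval (heatTuple X S s) (P k) =
        polyEval (heatTuple X S s) (P k * P k) := fun s => by
      simp only [polyEval, map_mul]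
    simp only [this]
    simp only [Fisher_polyEval, map_sum, map_smul, smul_eq_mul]
    exact continuous_finsetSum _ fun w _ => continuous_const.mul (Fisher_continuous_word' τ X S _)

/-- Lower bound for `χ*`.

Proof.  Write `U s` for the upper bound in `hU`, `φ s = (Φ* s).toReal ≤ U s`.  By `le_freeFisher`
with `r = 1/(1+s)` and `hV`, `φ s ≥ n/(1+s) - n (V-1)/(1+s)²`.  So `n/(1+s) - φ s` lies between
`∑ (1/(1+s) - 1/(a k + s))` and `n (V-1)/(1+s)²`, both integrable on `(0, ∞)`
(`1/(1+s) - 1/(a+s) = (a-1)/((1+s)(a+s))` is `O(1/(1+s)²)`), and it is measurable.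
`∫₀^∞ (1/(1+s) - 1/(a+s)) = log a` and `∫_{s₁}^∞ N/(σ+s)² = N/(σ+s₁)`
(`integral_Ioi_of_hasDerivAt_of_tendsto`, `integrableOn_Ioi_deriv_of_nonneg`...). -/
theorem chiStar_ge (τ : A →ₗ[ℂ] ℂ) (h1 : τ 1 = 1) (X S : Fin n → A) (a : Fin n → ℝ)
    (ha : ∀ k, 0 < a k) {N σ s₁ V : ℝ} (hN : 0 ≤ N) (hσ : 0 < σ) (hs₁ : 0 < s₁)
    (hV : ∀ s, 0 < s → ∀ k, (τ (heatTuple X S s k * heatTuple X S s k)).re ≤ V + s)
    (hU0 : ∀ s, 0 < s → 0 ≤ ∑ k, 1 / (a k + s) - if s₁ ≤ s then N / (σ + s) ^ 2 else 0)
    (hU : ∀ s, 0 < s → freeFisher τ (heatTuple X S s) ≤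
      ENNReal.ofReal (∑ k, 1 / (a k + s) - if s₁ ≤ s then N / (σ + s) ^ 2 else 0)) :
    IntegrableOn (fun s : ℝ => (n : ℝ) / (1 + s) - (freeFisher τ (heatTuple X S s)).toReal)
        (Set.Ioi 0) ∧
      (n : ℝ) / 2 * Real.log (2 * Real.pi * Real.exp 1) +
        1 / 2 * (∑ k, Real.log (a k) + N / (σ + s₁)) ≤ chiStar τ X S := by
  set f : ℝ → ℝ := fun s => (n : ℝ) / (1 + s) - (freeFisher τ (heatTuple X S s)).toReal with hf
  set g : ℝ → ℝ := fun s => ∑ k, (1 / (1 + s) - 1 / (a k + s)) +
    (Set.Ici s₁).indicator (fun s => N / (σ + s) ^ 2) s with hg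
  have hfm : Measurable f :=
    (measurable_const.div (measurable_const.add measurable_id)).sub
      (measurable_freeFisher τ X S).ennreal_toReal
  have hgf : ∀ s ∈ Set.Ioi (0 : ℝ), g s ≤ f s := by
    intro s hs
    have h1 := ENNReal.toReal_le_of_le_ofReal (hU0 s hs) (hU s hs)
    simp only [hf, hg, Finset.sum_sub_distrib, Finset.sum_const, Finset.card_univ,
      Fintype.card_fin, nsmul_eq_mul, Set.indicator_apply, Set.mem_Ici, mul_one_div]
    linarith
  have hfu : ∀ s ∈ Set.Ioi (0 : ℝ), f s ≤ n * (V - 1) / (1 + s) ^ 2 := by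
    intro s hs
    have hs0 : 0 < s := hs
    have hfin : freeFisher τ (heatTuple X S s) ≠ ⊤ := ne_top_of_le_ne_top ENNReal.ofReal_ne_top (hU s hs)
    have h2 := (ENNReal.ofReal_le_iff_le_toReal hfin).1
      (le_freeFisher τ h1 (heatTuple X S s) (1 / (1 + s)))
    have h3 : ∑ _k : Fin n, (2 * (1 / (1 + s)) - (1 / (1 + s)) ^ 2 * (V + s)) ≤
        ∑ k, (2 * (1 / (1 + s)) - (1 / (1 + s)) ^ 2 *
          (τ (heatTuple X S s k * heatTuple X S s k)).re) :=
      Finset.sum_le_sum fun k _ =>
        sub_le_sub_left (mul_le_mul_of_nonneg_left (hV s hs k) (sq_nonneg _)) _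
    rw [Finset.sum_const, Finset.card_univ, Fintype.card_fin, nsmul_eq_mul] at h3
    have h4 : (n : ℝ) * (2 * (1 / (1 + s)) - (1 / (1 + s)) ^ 2 * (V + s)) =
        n / (1 + s) - n * (V - 1) / (1 + s) ^ 2 := by
      field_simp
      ring
    simp only [hf]
    linarith
  have hI1 := Fisher_int_sq (σ := σ) (t := s₁) N (by linarith)
  have hI2 := Fisher_int_sq (σ := 1) (t := 0) (n * (V - 1)) (by linarith)
  have hinter : Set.Ioi (0 : ℝ) ∩ Set.Ici s₁ = Set.Ici s₁ :=
    Set.inter_eq_right.2 fun x hx => lt_of_lt_of_le hs₁ hx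
  have hind : IntegrableOn ((Set.Ici s₁).indicator fun s => N / (σ + s) ^ 2) (Set.Ioi 0) := by
    rw [integrableOn_indicator_iff measurableSet_Ici, Set.inter_comm, hinter,
      integrableOn_Ici_iff_integrableOn_Ioi]
    exact hI1.1
  have hsum : IntegrableOn (fun s : ℝ => ∑ k, (1 / (1 + s) - 1 / (a k + s))) (Set.Ioi 0) :=
    integrable_finsetSum _ fun k _ => (Fisher_int_log (ha k)).1
  have hgi : IntegrableOn g (Set.Ioi 0) := hsum.add hind
  have hfi : IntegrableOn f (Set.Ioi 0) :=
    integrable_of_le_of_le hfm.aestronglyMeasurable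
      ((ae_restrict_iff' measurableSet_Ioi).2 (Eventually.of_forall hgf))
      ((ae_restrict_iff' measurableSet_Ioi).2 (Eventually.of_forall hfu)) hgi hI2.1
  refine ⟨hfi, ?_⟩
  have hgv : ∫ s in Set.Ioi (0 : ℝ), g s = ∑ k, Real.log (a k) + N / (σ + s₁) := by
    rw [hg, integral_add hsum hind, integral_finsetSum _ fun k _ => (Fisher_int_log (ha k)).1,
      setIntegral_indicator measurableSet_Ici, hinter, integral_Ici_eq_integral_Ioi, hI1.2]
    congr 1
    exact Finset.sum_congr rfl fun k _ => (Fisher_int_log (ha k)).2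
  have hmono := setIntegral_mono_on hgi hfi measurableSet_Ioi hgf
  rw [hgv] at hmono
  unfold chiStar
  linarith

end Crest.Agent.R89
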