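import Crest.Agent.R89.Inner

/-!
# R89: freeness, and transfer along an algebra homomorphism
-/

set_option autoImplicit false
open scoped InnerProductSpace BigOperators
open MeasureTheory Filter Topology Crest.OpAlg

namespace Crest.Agent.R89

section aux
variable {I κ : Type} (cls : I → κ)

/-- Span of the words all of whose letters have class `t`. -/
noncomputable def FreeW (t : κ) : Submodule ℂ (T I) :=
  Submodule.span ℂ {ξ | ∃ w : List I, (∀ i ∈ w, cls i = t) ∧ wd w = ξ}

/-- Span of the non-empty words whose first letter has class `t`. -/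
noncomputable def FreeV (t : κ) : Submodule ℂ (T I) :=
  Submodule.span ℂ {ξ | ∃ (i : I) (w : List I), cls i = t ∧ wd (i :: w) = ξ}

variable {cls} {t : κ}

theorem FreeW_wd {w : List I} (hw : ∀ i ∈ w, cls i = t) : wd w ∈ FreeW cls t :=
  Submodule.subset_span ⟨w, hw, rfl⟩

theorem FreeV_wd {i : I} (hi : cls i = t) (w : List I) : wd (i :: w) ∈ FreeV cls t :=
  Submodule.subset_span ⟨i, w, hi, rfl⟩

@[elab_as_elim]
theorem FreeW_ind {p : T I → Prop} {ξ : T I} (h : ξ ∈ FreeW cls t) (zero : p 0)
    (word : ∀ w : List I, (∀ i ∈ w, cls i = t) → p (wd w))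
    (add : ∀ a b, p a → p b → p (a + b)) (smul : ∀ (c : ℂ) a, p a → p (c • a)) : p ξ := by
  induction h using Submodule.span_induction with
  | mem x hx => obtain ⟨w, hw, rfl⟩ := hx; exact word w hw
  | zero => exact zero
  | add x y _ _ hx hy => exact add x y hx hy
  | smul c x _ hx => exact smul c x hx

@[elab_as_elim]
theorem FreeV_ind {p : T I → Prop} {ξ : T I} (h : ξ ∈ FreeV cls t) (zero : p 0)
    (word : ∀ (i : I) (w : List I), cls i = t → p (wd (i :: w)))
    (add : ∀ a b, p a → p b → p (a + b)) (smul : ∀ (c : ℂ) a, p a → p (c • a)) : p ξ := by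
  induction h using Submodule.span_induction with
  | mem x hx => obtain ⟨i, w, hw, rfl⟩ := hx; exact word i w hw
  | zero => exact zero
  | add x y _ _ hx hy => exact add x y hx hy
  | smul c x _ hx => exact smul c x hx

theorem FreeW_one : (1 : T I) ∈ FreeW cls t := FreeW_wd (w := []) (by simp)

theorem FreeW_lt {i : I} (hi : cls i = t) : lt i ∈ FreeW cls t :=
  FreeW_wd (w := [i]) (by simpa using hi)

theorem FreeW_mul {ξ η : T I} (hξ : ξ ∈ FreeW cls t) (hη : η ∈ FreeW cls t) :
    ξ * η ∈ FreeW cls t := by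
  refine FreeW_ind hξ (by simp) (fun w hw => ?_) (fun x y hx hy => ?_) (fun c x hx => ?_)
  · refine FreeW_ind hη (by simp) (fun w' hw' => ?_) (fun x y hx hy => ?_) (fun c x hx => ?_)
    · rw [← wd_append]
      exact FreeW_wd fun i hi => (List.mem_append.1 hi).elim (hw i) (hw' i)
    · rw [mul_add]; exact add_mem hx hy
    · rw [mul_smul_comm]; exact Submodule.smul_mem _ _ hx
  · rw [add_mul]; exact add_mem hx hy
  · rw [smul_mul_assoc]; exact Submodule.smul_mem _ _ hx

theorem FreeW_polyEval {n : ℕ} {Z : Fin n → T I} (hZ : ∀ k, Z k ∈ FreeW cls t) (P : NCPoly n) :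
    polyEval Z P ∈ FreeW cls t := by
  rw [polyEval, MonoidAlgebra.lift_apply, Finsupp.sum]
  refine sum_mem fun w _ => Submodule.smul_mem _ _ ?_
  rw [FreeMonoid.lift_apply]
  generalize FreeMonoid.toList w = l
  induction l with
  | nil => exact FreeW_one
  | cons k l ih => rw [List.map_cons, List.prod_cons]; exact FreeW_mul (hZ k) ih

theorem FreeV_mul {ξ : T I} (hξ : ξ ∈ FreeV cls t) (η : T I) : ξ * η ∈ FreeV cls t := by
  refine FreeV_ind hξ (by simp) (fun i w hw => ?_) (fun x y hx hy => ?_) (fun c x hx => ?_)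
  · induction η using T_ind with
    | zero => simp
    | add a b ha hb => rw [mul_add]; exact add_mem ha hb
    | smul c a ha => rw [mul_smul_comm]; exact Submodule.smul_mem _ _ ha
    | word w' => rw [← wd_append]; exact FreeV_wd hw _
  · rw [add_mul]; exact add_mem hx hy
  · rw [smul_mul_assoc]; exact Submodule.smul_mem _ _ hx

theorem FreeV_eps {ξ : T I} (hξ : ξ ∈ FreeV cls t) : eps ξ = 0 := by
  refine FreeV_ind hξ (by simp) (fun i w _ => eps_wd_cons i w) (fun x y hx hy => ?_)
    (fun c x hx => ?_)
  · rw [map_add, hx, hy, add_zero]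
  · rw [map_smul, hx, smul_zero]

theorem FreeW_sub_mem {ξ : T I} (hξ : ξ ∈ FreeW cls t) : ξ - eps ξ • 1 ∈ FreeV cls t := by
  refine FreeW_ind hξ (by simp) (fun w hw => ?_) (fun x y hx hy => ?_) (fun c x hx => ?_)
  · cases w with
    | nil => simp
    | cons i w =>
      rw [eps_wd_cons, zero_smul, sub_zero]
      exact FreeV_wd (hw i List.mem_cons_self) w
  · have := add_mem hx hy
    rw [map_add, add_smul]
    convert this using 1
    abel
  · have := Submodule.smul_mem _ c hx
    rwa [smul_sub, smul_smul, ← smul_eq_mul, ← map_smul] at this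

variable [DecidableEq I]

theorem FreeV_ann {η : T I} (hη : η ∈ FreeV cls t) {i : I} (hi : cls i ≠ t) : ann i η = 0 := by
  refine FreeV_ind hη (by simp) (fun j w hj => ?_) (fun x y hx hy => ?_) (fun c x hx => ?_)
  · rw [ann_wd_cons, if_neg]
    rintro rfl
    exact hi hj
  · rw [map_add, hx, hy, add_zero]
  · rw [map_smul, hx, smul_zero]

theorem FreeW_ann {ξ : T I} (hξ : ξ ∈ FreeW cls t) (i : I) : ann i ξ ∈ FreeW cls t := by
  refine FreeW_ind hξ (by simp) (fun w hw => ?_) (fun x y hx hy => ?_) (fun c x hx => ?_)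
  · cases w with
    | nil => simp
    | cons j w =>
      rw [ann_wd_cons]
      split_ifs
      · exact FreeW_wd fun k hk => hw k (List.mem_cons_of_mem _ hk)
      · exact zero_mem _
  · rw [map_add]; exact add_mem hx hy
  · rw [map_smul]; exact Submodule.smul_mem _ _ hx

theorem FreeW_act {Q : T I} (hQ : Q ∈ FreeW cls t) : act Q 1 ∈ FreeW cls t := by
  refine FreeW_ind hQ (by simp) (fun w hw => ?_) (fun x y hx hy => ?_) (fun c x hx => ?_)
  · induction w with
    | nil => simpa using FreeW_one
    | cons i w ih =>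
      have := ih fun k hk => hw k (List.mem_cons_of_mem _ hk)
      rw [act_wd_cons, sT_apply]
      exact add_mem (FreeW_mul (FreeW_lt (hw i List.mem_cons_self)) this) (FreeW_ann this i)
  · rw [map_add, LinearMap.add_apply]; exact add_mem hx hy
  · rw [map_smul, LinearMap.smul_apply]; exact Submodule.smul_mem _ _ hx

theorem FreeW_act_mul {Q : T I} (hQ : Q ∈ FreeW cls t) {η : T I}
    (hη : ∀ i, cls i = t → ann i η = 0) : act Q η = act Q 1 * η := by
  refine FreeW_ind hQ (by simp) (fun w hw => ?_) (fun x y hx hy => ?_) (fun c x hx => ?_)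
  · have := act_wd_mul_of_ann w η (fun i hi => hη i (hw i hi)) 1
    rwa [one_mul] at this
  · rw [map_add, LinearMap.add_apply, LinearMap.add_apply, hx, hy, add_mul]
  · rw [map_smul, LinearMap.smul_apply, LinearMap.smul_apply, hx, smul_mul_assoc]

theorem Free_act_mem {α : Type} (c : α → κ) (q : α → T I) (a : α) (l : List α)
    (hc : (a :: l).IsChain fun a b => c a ≠ c b) (hq : ∀ e ∈ a :: l, q e ∈ FreeW cls (c e))
    (h0 : ∀ e ∈ a :: l, tau0 (q e) = 0) : act ((a :: l).map q).prod 1 ∈ FreeV cls (c a) := by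
  induction l generalizing a with
  | nil =>
    have h1 := FreeW_sub_mem (FreeW_act (hq a List.mem_cons_self))
    rw [← tau0_apply, h0 a List.mem_cons_self, zero_smul, sub_zero] at h1
    simpa using h1
  | cons b l ih =>
    have h1 := FreeW_sub_mem (FreeW_act (hq a List.mem_cons_self))
    rw [← tau0_apply, h0 a List.mem_cons_self, zero_smul, sub_zero] at h1
    rw [List.isChain_cons_cons] at hc
    have h2 := ih b hc.2 (fun e he => hq e (List.mem_cons_of_mem _ he))
      (fun e he => h0 e (List.mem_cons_of_mem _ he))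
    rw [List.map_cons, List.prod_cons, map_mul, Module.End.mul_apply,
      FreeW_act_mul (hq a List.mem_cons_self) fun i hi => FreeV_ann h2 (hi ▸ hc.1)]
    exact FreeV_mul h1 _

end aux

/-- `X, S₁, …, S_n` are free.

Proof.  Let `cls : Lt n → Option (Fin n)` send `nz k, hd k ↦ none`, `sv k ↦ some k`.
For `t : Option (Fin n)` let `W t` be the span of the words all of whose letters have class `t`
(a subalgebra; it contains the generators `withNoise (Xt F c) St t j`, hence `polyEval _ P`;
`sT i` maps `W t` to itself when `cls i = t`, so `act Q 1 ∈ W t` for `Q ∈ W t`).  Let `V t` be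
the span of the non-empty words whose first letter has class `t`.  If `η = 1` or `η ∈ V t'` with
`t' ≠ t`, then `ann i η = 0` for `cls i = t`, so `act Q η = act Q 1 * η` for `Q ∈ W t`
(`act_wd_mul_of_ann` with `ξ = 1`); if moreover `tau0 Q = eps (act Q 1) = 0`, then
`act Q 1 ∈ V t` (`ξ - eps ξ • 1 ∈ V t` for `ξ ∈ W t`) and `V t * T ⊆ V t`.  Induction on the list:
`act (product) 1 ∈ V (class of the first factor)`, and `eps` vanishes on `V t`. -/
theorem isFree_Xt {n : ℕ} (F : Fin n → List (Fin n)) (c : Fin n → ℝ) :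
    IsFreeFamily tau0 (withNoise (Xt F c) St) := by
  let cls : Lt n → Option (Fin n) := fun i => match i with
    | .inl _ => none
    | .inr (.inl _) => none
    | .inr (.inr k) => some k
  have hgen : ∀ t k, withNoise (Xt F c) St t k ∈ FreeW cls t := by
    intro t k
    cases t with
    | none =>
      refine add_mem (FreeW_wd fun i hi => ?_) (Submodule.smul_mem _ _ (FreeW_lt rfl))
      obtain ⟨j, -, rfl⟩ := List.mem_map.1 hi
      rfl
    | some j => exact FreeW_lt rfl
  intro l hl hc h0
  cases l with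
  | nil => exact absurd rfl hl
  | cons a l =>
    rw [tau0_apply]
    exact FreeV_eps (Free_act_mem (cls := cls) (fun e : Option (Fin n) × NCPoly n => e.1)
      (fun e => polyEval (withNoise (Xt F c) St e.1) e.2) a l hc
      (fun e _ => FreeW_polyEval (hgen e.1) e.2) h0)

section transfer
variable {A B : Type*} [Ring A] [Algebra ℂ A] [Ring B] [Algebra ℂ B] {n : ℕ}
  (ev : B →ₐ[ℂ] A) {τ : A →ₗ[ℂ] ℂ} {τ₀ : B →ₗ[ℂ] ℂ}

theorem wordEval_comp (X : Fin n → B) (w : FreeMonoid (Fin n)) :
    wordEval (fun k => ev (X k)) w = ev (wordEval X w) := by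
  rw [wordEval, wordEval, FreeMonoid.lift_apply, FreeMonoid.lift_apply, map_list_prod, List.map_map]
  rfl

theorem polyEval_comp (X : Fin n → B) (P : NCPoly n) :
    polyEval (fun k => ev (X k)) P = ev (polyEval X P) := by
  rw [polyEval, polyEval, MonoidAlgebra.lift_apply, MonoidAlgebra.lift_apply, Finsupp.sum,
    Finsupp.sum, map_sum]
  refine Finset.sum_congr rfl fun w _ => ?_
  rw [map_smul]
  exact congrArg _ (wordEval_comp ev X w)

theorem freeFisher_comp (h : ∀ Q, τ (ev Q) = τ₀ Q) (X S : Fin n → B) (s : ℝ) :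
    freeFisher τ (heatTuple (fun k => ev (X k)) (fun k => ev (S k)) s) =
      freeFisher τ₀ (heatTuple X S s) := by
  have hh : heatTuple (fun k => ev (X k)) (fun k => ev (S k)) s =
      fun k => ev (heatTuple X S s k) := by
    funext k
    simp only [heatTuple, map_add, map_smul]
  rw [hh]
  simp only [freeFisher, splitPairing, wordEval_comp, polyEval_comp, ← map_mul, h]

theorem chiStar_comp (h : ∀ Q, τ (ev Q) = τ₀ Q) (X S : Fin n → B) :
    chiStar τ (fun k => ev (X k)) (fun k => ev (S k)) = chiStar τ₀ X S := by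
  simp only [chiStar, freeFisher_comp ev h]

theorem chi_comp (h : ∀ Q, τ (ev Q) = τ₀ Q) (X : Fin n → B) :
    chi τ (fun k => ev (X k)) = chi τ₀ X := by
  simp only [chi, chiCutoff, microstates, wordEval_comp, h]

theorem isFreeFamily_comp (h : ∀ Q, τ (ev Q) = τ₀ Q) {X S : Fin n → B}
    (hf : IsFreeFamily τ₀ (withNoise X S)) :
    IsFreeFamily τ (withNoise (fun k => ev (X k)) (fun k => ev (S k))) := by
  have hw : ∀ t, withNoise (fun k => ev (X k)) (fun k => ev (S k)) t =
      fun k => ev (withNoise X S t k) := by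
    intro t
    cases t <;> rfl
  intro l hl hc h0
  simp only [hw, polyEval_comp, h] at h0 ⊢
  have := hf l hl hc h0
  rw [← h, map_list_prod, List.map_map] at this
  exact this

end transfer

end Crest.Agent.R89
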