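import Crest.Agent.R89.Rep

/-!
# R89: the representing vectors are small
-/

set_option autoImplicit false
open scoped InnerProductSpace BigOperators
open Crest.OpAlg

namespace Crest.Agent.R89

variable {m n : ℕ}

theorem bound_sum (c : Fin n → ℝ) {s : ℝ} (hs : 0 < s) {κ : Type} [Fintype κ] (g : κ → Fin n)
    (hg : Function.Injective g) (cond : κ → Prop) [DecidablePred cond] {N : ℝ}
    (hN : ((Finset.univ.filter cond).card : ℝ) ≤ N) {a : ℕ} (ξ ζ : κ → T (Lt n))
    (hξ : ∀ x, ξ x ∈ hom (Lt n) a) {r A B : ℝ} (hr : 0 < r) (hA : 0 ≤ A) (hB : 0 ≤ B)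
    (ht : ∀ x, r ^ 2 ≤ c (g x) ^ 2 + s)
    (h1 : ∀ x, ‖emb (ξ x)‖ ≤ A) (h2 : ∀ x, ‖emb (ζ x)‖ ≤ B) :
    ‖emb (∑ x, ((c (g x) ^ 2 + s : ℝ) : ℂ)⁻¹ •
      if cond x then ξ x * vv c s (g x) * ζ x else 0)‖ ≤ √N * (A * r⁻¹ * B) := by
  have e : (∑ x, ((c (g x) ^ 2 + s : ℝ) : ℂ)⁻¹ • if cond x then ξ x * vv c s (g x) * ζ x else 0) =
      ∑ x ∈ Finset.univ.filter cond,
        ξ x * (((c (g x) ^ 2 + s : ℝ) : ℂ)⁻¹ • vv c s (g x)) * ζ x := by
    rw [Finset.sum_filter]
    refine Finset.sum_congr rfl fun x _ => ?_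
    split_ifs
    · rw [mul_smul_comm, smul_mul_assoc]
    · rw [smul_zero]
  rw [e]
  refine (norm_sum_mul_le _ ξ _ ζ (fun x _ => hξ x)
    (fun x _ => Submodule.smul_mem _ _ (vv_mem_hom c s _)) (fun x _ y _ hxy => ?_)
    (C := A * r⁻¹ * B) (by positivity) (fun x _ => ?_)).trans ?_
  · rw [map_smul, map_smul, inner_smul_left, inner_smul_right, inner_vv c hs.le,
      if_neg (hg.ne hxy), mul_zero, mul_zero]
  · have hp : 0 < c (g x) ^ 2 + s := by positivity
    have : ‖emb (((c (g x) ^ 2 + s : ℝ) : ℂ)⁻¹ • vv c s (g x))‖ ≤ r⁻¹ := by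
      rw [map_smul, norm_smul, norm_inv, Complex.norm_real, Real.norm_of_nonneg hp.le,
        norm_vv c hs.le, inv_mul_eq_div, Real.sqrt_div_self']
      rw [one_div]
      exact inv_anti₀ hr (Real.le_sqrt_of_sq_le (ht x))
    have := h1 x
    have := h2 x
    gcongr
  · gcongr

section words
variable {J : Type} (Q : T (Fin n) →ₗ[ℂ] T J) [DecidableEq J] {β : ℝ}

theorem norm_ann_le (hβ : 0 ≤ β) (hQ : ∀ w, ‖emb (Q (wd w))‖ ≤ (1 / 512) ^ w.length * β)
    (j : Fin n) (b : List (Fin n)) :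
    ‖emb (Q (ann j (wd b)))‖ ≤ 512 * (1 / 512) ^ b.length * β := by
  cases b with
  | nil => simp [hβ]
  | cons k b =>
    rw [ann_wd_cons]
    split_ifs
    · refine (hQ b).trans (le_of_eq ?_)
      rw [List.length_cons, pow_succ]
      ring
    · simp only [map_zero, norm_zero]
      positivity

theorem norm_sT_ann_le (hβ : 0 ≤ β) (hQ : ∀ w, ‖emb (Q (wd w))‖ ≤ (1 / 512) ^ w.length * β)
    (i j : Fin n) (b : List (Fin n)) :
    ‖emb (Q (sT i (ann j (wd b))))‖ ≤ (1 + 512 ^ 2) * (1 / 512) ^ b.length * β := by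
  cases b with
  | nil => simp only [wd_nil, ann_one, map_zero, norm_zero]; positivity
  | cons k b =>
    rw [ann_wd_cons]
    split_ifs
    · rw [sT_apply, ← wd_cons, map_add, map_add]
      refine (norm_add_le _ _).trans ((add_le_add (hQ _) (norm_ann_le Q hβ hQ i b)).trans
        (le_of_eq ?_))
      simp only [List.length_cons, pow_succ]
      ring
    · simp only [map_zero, norm_zero]
      positivity

end words

theorem act_wd_nil {I : Type} [DecidableEq I] (ξ : T I) : act (wd []) ξ = ξ := by simp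

theorem ann_wd_eq_zero {I : Type} [DecidableEq I] {j : I} {b : List I} (h : b.head? ≠ some j) :
    ann j (wd b) = 0 := by
  cases b with
  | nil => simp
  | cons k b => rw [ann_wd_cons, if_neg]; simpa using h

variable (e : Kx m ≃ Fin n)

theorem ia_injective : Function.Injective (ia e) := fun _ _ h => by simpa [ia] using h
theorem ib_injective : Function.Injective (ib e) := fun _ _ h => by simpa [ib] using h
theorem ia_ne_ib (p q : Fin m) : ia e p ≠ ib e q := by simp [ia, ib]

theorem act_ba_one (p q : Fin m) : act (wd [ib e q, ia e p]) 1 = wd [ib e q, ia e p] := by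
  rw [act_wd_cons, act_wd_cons, act_wd_nil, sT_one, sT_apply, ann_lt,
    if_neg (ia_ne_ib e p q), add_zero, wd_cons]
  rfl

theorem act_aba_one (p q : Fin m) :
    act (wd [ia e p, ib e q, ia e p]) 1 = wd [ia e p, ib e q, ia e p] := by
  rw [act_wd_cons, act_ba_one, sT_apply, ann_wd_cons, if_neg (ia_ne_ib e p q).symm, add_zero,
    ← wd_cons]

/-- One step of the recursion. -/
theorem step_bound {L s : ℝ} (hL : 2 ^ 34 ≤ L) (hm : (m : ℝ) ≤ 256 * L ^ 2) (hs : 2 ^ 30 ≤ s)
    (P Q : T (Fin n) →ₗ[ℂ] T (Lt n)) {a : ℕ} (hPa : ∀ ξ, P ξ ∈ hom (Lt n) a) {α β : ℝ}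
    (hα : 0 ≤ α) (hβ : 0 ≤ β) (hP : ∀ w, ‖emb (P (wd w))‖ ≤ (1 / 512) ^ w.length * α)
    (hQ : ∀ w, ‖emb (Q (wd w))‖ ≤ (1 / 512) ^ w.length * β) (i : Fin n) (b : List (Fin n)) :
    ‖emb (∑ k, ((cx e L k ^ 2 + s : ℝ) : ℂ)⁻¹ • splits (Fx e k) fun x a' z =>
        if a' = i then P (act (wd z) 1) * vv (cx e L) s k * Q (act (wd x) (wd b)) else 0)‖ ≤
      (1 / 512) ^ (b.length + 1) * (1 / 8 * (α * β)) := by
  have hs0 : 0 < s := lt_of_lt_of_le (by positivity) hs
  have hL0 : 0 < L := lt_of_lt_of_le (by positivity) hL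
  set c := cx e L with hc
  set g₁ : Fin m ⊕ Fin m → Fin n := fun x => e (.inl x) with hg₁
  set g₂ : Fin m × Fin m → Fin n := fun x => e (.inr x) with hg₂
  have i₁ : Function.Injective g₁ := e.injective.comp Sum.inl_injective
  have i₂ : Function.Injective g₂ := e.injective.comp Sum.inr_injective
  have t₁ : ∀ x, ((2 : ℝ) ^ 15) ^ 2 ≤ c (g₁ x) ^ 2 + s := fun x => by
    have := sq_nonneg (c (g₁ x))
    linarith
  have t₂ : ∀ x, L ^ 2 ≤ c (g₂ x) ^ 2 + s := fun x => by
    simp only [hc, hg₂, cx_inr]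
    linarith
  have cardA : ∀ cond : Fin m × Fin m → Prop, ∀ _ : DecidablePred cond,
      (∀ x, cond x → ia e x.1 = i) → ((Finset.univ.filter cond).card : ℝ) ≤ (16 * L) ^ 2 := by
    intro cond _ h
    have : (Finset.univ.filter cond).card ≤ (Finset.univ : Finset (Fin m)).card := by
      refine Finset.card_le_card_of_injOn Prod.snd (by simp) fun x hx y hy hxy => ?_
      simp only [Finset.coe_filter, Finset.mem_univ, true_and, Set.mem_ofPred_eq] at hx hy
      exact Prod.ext (ia_injective e ((h x hx).trans (h y hy).symm)) hxy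
    simp only [Finset.card_univ, Fintype.card_fin] at this
    have : ((Finset.univ.filter cond).card : ℝ) ≤ m := by exact_mod_cast this
    linarith
  have cardB : ((Finset.univ.filter fun x : Fin m × Fin m => ib e x.2 = i).card : ℝ) ≤
      (16 * L) ^ 2 := by
    have : (Finset.univ.filter fun x : Fin m × Fin m => ib e x.2 = i).card ≤
        (Finset.univ : Finset (Fin m)).card := by
      refine Finset.card_le_card_of_injOn Prod.fst (by simp) fun x hx y hy hxy => ?_
      simp only [Finset.coe_filter, Finset.mem_univ, true_and, Set.mem_ofPred_eq] at hx hy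
      exact Prod.ext hxy (ib_injective e (hx.trans hy.symm))
    simp only [Finset.card_univ, Fintype.card_fin] at this
    have : ((Finset.univ.filter fun x : Fin m × Fin m => ib e x.2 = i).card : ℝ) ≤ m := by
      exact_mod_cast this
    linarith
  have card1 : ∀ {κ : Type} [Fintype κ] (cond : κ → Prop) [DecidablePred cond],
      (∀ x y, cond x → cond y → x = y) → ((Finset.univ.filter cond).card : ℝ) ≤ 1 := by
    intro κ _ cond _ h
    exact_mod_cast Finset.card_le_one.2 fun x hx y hy =>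
      h x y (Finset.mem_filter.1 hx).2 (Finset.mem_filter.1 hy).2
  have hP0 : ‖emb (P 1)‖ ≤ α := by simpa using hP []
  have B0 := bound_sum c hs0 g₁ i₁ (fun x => g₁ x = i)
    (card1 _ fun x y hx hy => i₁ (hx.trans hy.symm)) (fun _ => P 1) (fun _ => Q (wd b))
    (fun _ => hPa _) (by positivity) hα (by positivity) t₁ (fun _ => hP0) (fun _ => hQ b)
  have B1 := bound_sum c hs0 g₂ i₂ (fun x => ia e x.1 = i) (cardA _ _ fun _ h => h)
    (fun x => P (wd [ib e x.2, ia e x.1])) (fun _ => Q (wd b)) (A := (1 / 512) ^ (0 + 1 + 1) * α)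
    (fun _ => hPa _) hL0 (by positivity) (by positivity) t₂ (fun _ => hP _) (fun _ => hQ b)
  have B2 := bound_sum c hs0 g₂ i₂ (fun x => ib e x.2 = i) cardB
    (fun x => P (wd [ia e x.1])) (fun x => Q (wd (ia e x.1 :: b)))
    (A := (1 / 512) ^ (0 + 1) * α) (B := (1 / 512) ^ (b.length + 1) * β)
    (fun _ => hPa _) hL0 (by positivity) (by positivity) t₂ (fun _ => hP _) (fun _ => hQ _)
  have B3 := bound_sum c hs0 g₂ i₂ (fun x => ia e x.1 = i) (cardA _ _ fun _ h => h)
    (fun _ => P 1) (fun x => Q (wd (ia e x.1 :: ib e x.2 :: b)))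
    (B := (1 / 512) ^ (b.length + 1 + 1) * β)
    (fun _ => hPa _) hL0 hα (by positivity) t₂ (fun _ => hP0) (fun _ => hQ _)
  have B4 := bound_sum c hs0 g₂ i₂ (fun x => ib e x.2 = i ∧ b.head? = some (ia e x.1))
    (card1 _ fun x y hx hy => Prod.ext (ia_injective e (Option.some_injective _
      (hx.2.symm.trans hy.2))) (ib_injective e (hx.1.trans hy.1.symm)))
    (fun x => P (wd [ia e x.1])) (fun x => Q (ann (ia e x.1) (wd b)))
    (A := (1 / 512) ^ (0 + 1) * α)
    (fun _ => hPa _) hL0 (by positivity) (by positivity) t₂ (fun _ => hP _)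
    (fun _ => norm_ann_le Q hβ hQ _ b)
  have B5 := bound_sum c hs0 g₂ i₂ (fun x => ia e x.1 = i ∧ b.head? = some (ib e x.2))
    (card1 _ fun x y hx hy => Prod.ext (ia_injective e (hx.1.trans hy.1.symm))
      (ib_injective e (Option.some_injective _ (hx.2.symm.trans hy.2))))
    (fun _ => P 1) (fun x => Q (sT (ia e x.1) (ann (ib e x.2) (wd b))))
    (fun _ => hPa _) hL0 hα (by positivity) t₂ (fun _ => hP0)
    (fun _ => norm_sT_ann_le Q hβ hQ _ _ b)
  have key : (∑ k, ((c k ^ 2 + s : ℝ) : ℂ)⁻¹ • splits (Fx e k) fun x a' z =>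
        if a' = i then P (act (wd z) 1) * vv c s k * Q (act (wd x) (wd b)) else 0) =
      (∑ x, ((c (g₁ x) ^ 2 + s : ℝ) : ℂ)⁻¹ •
        if g₁ x = i then P 1 * vv c s (g₁ x) * Q (wd b) else 0) +
      ((∑ x, ((c (g₂ x) ^ 2 + s : ℝ) : ℂ)⁻¹ •
        if ia e x.1 = i then P (wd [ib e x.2, ia e x.1]) * vv c s (g₂ x) * Q (wd b) else 0) +
      (∑ x, ((c (g₂ x) ^ 2 + s : ℝ) : ℂ)⁻¹ •
        if ib e x.2 = i then P (wd [ia e x.1]) * vv c s (g₂ x) * Q (wd (ia e x.1 :: b)) else 0) +
      (∑ x, ((c (g₂ x) ^ 2 + s : ℝ) : ℂ)⁻¹ •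
        if ia e x.1 = i then P 1 * vv c s (g₂ x) * Q (wd (ia e x.1 :: ib e x.2 :: b)) else 0) +
      (∑ x, ((c (g₂ x) ^ 2 + s : ℝ) : ℂ)⁻¹ •
        if ib e x.2 = i ∧ b.head? = some (ia e x.1) then
          P (wd [ia e x.1]) * vv c s (g₂ x) * Q (ann (ia e x.1) (wd b)) else 0) +
      (∑ x, ((c (g₂ x) ^ 2 + s : ℝ) : ℂ)⁻¹ •
        if ia e x.1 = i ∧ b.head? = some (ib e x.2) then
          P 1 * vv c s (g₂ x) * Q (sT (ia e x.1) (ann (ib e x.2) (wd b))) else 0)) := by
    rw [← Equiv.sum_comp e, Fintype.sum_sum_type]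
    congr 1
    · refine Finset.sum_congr rfl fun x _ => ?_
      simp only [Fx_inl, splits_cons, splits_nil, add_zero, wd_nil, map_one, Module.End.one_apply,
        hg₁]
    · simp only [← Finset.sum_add_distrib, ← smul_add]
      refine Finset.sum_congr rfl fun x _ => ?_
      obtain ⟨p, q⟩ := x
      have e1 : act (wd [ia e p]) 1 = wd [ia e p] := by
        rw [act_wd_cons, act_wd_nil, sT_one]; rfl
      have e2 : act (wd [ia e p]) (wd b) = wd (ia e p :: b) + ann (ia e p) (wd b) := by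
        rw [act_wd_cons, act_wd_nil, sT_apply, ← wd_cons]
      have e3 : act (wd [ia e p, ib e q]) (wd b) =
          wd (ia e p :: ib e q :: b) + sT (ia e p) (ann (ib e q) (wd b)) := by
        rw [act_wd_cons, act_wd_cons, act_wd_nil, sT_apply (ib e q),
          ← wd_cons, map_add, sT_apply (ia e p) (wd _), ann_wd_cons,
          if_neg (ia_ne_ib e p q).symm, add_zero, ← wd_cons]
      simp only [Fx_inr, splits_cons, splits_nil, add_zero, wd_nil, map_one, Module.End.one_apply,
        hg₂, act_ba_one, e1, e2, e3, map_add, mul_add]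
      congr 1
      have f4 : (if ib e q = i ∧ b.head? = some (ia e p) then
          P (wd [ia e p]) * vv c s (e (.inr (p, q))) * Q (ann (ia e p) (wd b)) else 0) =
          if ib e q = i then
            P (wd [ia e p]) * vv c s (e (.inr (p, q))) * Q (ann (ia e p) (wd b)) else 0 := by
        by_cases h : b.head? = some (ia e p)
        · simp only [h, and_true]
        · simp [h, ann_wd_eq_zero h]
      have f5 : (if ia e p = i ∧ b.head? = some (ib e q) then
          P 1 * vv c s (e (.inr (p, q))) * Q (sT (ia e p) (ann (ib e q) (wd b))) else 0) =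
          if ia e p = i then
            P 1 * vv c s (e (.inr (p, q))) * Q (sT (ia e p) (ann (ib e q) (wd b))) else 0 := by
        by_cases h : b.head? = some (ib e q)
        · simp only [h, and_true]
        · simp [h, ann_wd_eq_zero h]
      rw [f4, f5]
      split_ifs <;> abel
  rw [key]
  simp only [map_add]
  refine (norm_add_le _ _).trans ((add_le_add B0 ((norm_add_le _ _).trans (add_le_add
    ((norm_add_le _ _).trans (add_le_add ((norm_add_le _ _).trans (add_le_add
    ((norm_add_le _ _).trans (add_le_add B1 B2)) B3)) B4)) B5))).trans ?_)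
  rw [Real.sqrt_sq (by positivity), Real.sqrt_one]
  simp only [pow_succ, pow_zero]
  have hθ : 0 ≤ (1 / 512 : ℝ) ^ b.length * (α * β) := by positivity
  have hLi : L⁻¹ ≤ 1 / 2 ^ 34 := by
    rw [← one_div]; exact one_div_le_one_div_of_le (by positivity) hL
  have hLL : L * L⁻¹ = 1 := mul_inv_cancel₀ hL0.ne'
  have h6 := mul_le_mul_of_nonneg_right hLi hθ
  generalize (1 / 512 : ℝ) ^ b.length = θ at *
  have e1 : ∀ x y : ℝ, 16 * L * (x * α * L⁻¹ * (θ * y * β)) = 16 * x * y * (θ * (α * β)) := by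
    intro x y
    linear_combination (16 * x * y * θ * α * β) * hLL
  have e2 := e1 (1 / 512 * (1 / 512)) 1
  have e3 := e1 (1 / 512) (1 / 512)
  have e4 := e1 1 (1 / 512 * (1 / 512))
  nlinarith

/-- The weights `Λ D = 8^{-D} Catalan D`. -/
theorem norm_Rp_le {L s : ℝ} (hL : 2 ^ 34 ≤ L) (hm : (m : ℝ) ≤ 256 * L ^ 2) (hs : 2 ^ 30 ≤ s)
    (D : ℕ) (w : List (Fin n)) :
    ‖emb (Rp (Fx e) (cx e L) s D (wd w))‖ ≤ (1 / 512) ^ w.length * ((1 / 8) ^ D * catalan D) := by
  induction D using Nat.strong_induction_on generalizing w with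
  | _ D ih =>
    cases D with
    | zero =>
      rw [Rp_zero]
      cases w with
      | nil => simp [norm_emb_one]
      | cons i b => simp
    | succ D =>
      cases w with
      | nil => simp only [wd_nil, Rp_succ_one, map_zero, norm_zero]; positivity
      | cons i b =>
        rw [Rp_succ_cons, map_sum]
        refine (norm_sum_le _ _).trans ((Finset.sum_le_sum fun a ha => step_bound e hL hm hs _ _
          (Rp_mem_hom _ _ _ a) (by positivity) (by positivity)
          (ih a (Finset.mem_range.1 ha)) (ih (D - a) (by omega)) i b).trans (le_of_eq ?_))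
        rw [← Finset.mul_sum, List.length_cons, catalan_succ,
          Fin.sum_univ_eq_sum_range (fun j => catalan j * catalan (D - j))]
        congr 1
        push_cast
        rw [Finset.mul_sum]
        refine Finset.sum_congr rfl fun a ha => ?_
        have : D + 1 = a + (D - a) + 1 := by have := Finset.mem_range.1 ha; omega
        conv_rhs => rw [this]
        ring

theorem catalan_le (D : ℕ) : (catalan D : ℝ) ≤ 4 ^ D := by
  have h1 : catalan D ≤ Nat.centralBinom D := by
    rw [catalan_eq_centralBinom_div]; exact Nat.div_le_self _ _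
  have h2 : Nat.centralBinom D ≤ 2 ^ (2 * D) := Nat.choose_le_two_pow _ _
  rw [pow_mul] at h2
  exact_mod_cast h1.trans h2

theorem norm_sum_Rp_le {L s : ℝ} (hL : 2 ^ 34 ≤ L) (hm : (m : ℝ) ≤ 256 * L ^ 2) (hs : 2 ^ 30 ≤ s)
    (M : ℕ) (w : List (Fin n)) :
    ‖emb (∑ D ∈ Finset.range M, Rp (Fx e) (cx e L) s D (wd w))‖ ≤ (1 / 512) ^ w.length * 2 := by
  rw [map_sum]
  refine (norm_sum_le _ _).trans ((Finset.sum_le_sum fun D _ => norm_Rp_le e hL hm hs D w).trans ?_)
  rw [← Finset.mul_sum]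
  gcongr
  refine (Finset.sum_le_sum fun D _ => ?_).trans (sum_geometric_two_le M)
  calc (1 / 8 : ℝ) ^ D * catalan D ≤ (1 / 8) ^ D * 4 ^ D := by gcongr; exact catalan_le D
    _ = (1 / 2) ^ D := by rw [← mul_pow]; norm_num

end Crest.Agent.R89
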