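import Crest.Agent.R89.Defs

/-!
# R89: real coordinates of Hermitian matrices
-/

set_option autoImplicit false
open scoped InnerProductSpace BigOperators
open MeasureTheory Filter Topology Crest.OpAlg

namespace Crest.Agent.R89

variable {d : ℕ}

lemma Herm_s_mul : (Real.sqrt 2 : ℂ) * (Real.sqrt 2 : ℂ) = 2 := by
  rw [← Complex.ofReal_mul, Real.mul_self_sqrt (by norm_num)]; simp

lemma Herm_s_ne : (Real.sqrt 2 : ℂ) ≠ 0 := fun h => by
  have := Herm_s_mul
  rw [h] at this
  simp at this

theorem herm_add (a b : EuclideanSpace ℝ (Fin d × Fin d)) :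
    hermitianOfCoords (a + b) = hermitianOfCoords a + hermitianOfCoords b := by
  ext i j
  simp only [hermitianOfCoords, Matrix.add_apply, PiLp.add_apply, Complex.ofReal_add]
  split_ifs <;> ring

theorem herm_smul (r : ℝ) (a : EuclideanSpace ℝ (Fin d × Fin d)) :
    hermitianOfCoords (r • a) = (r : ℂ) • hermitianOfCoords a := by
  ext i j
  simp only [hermitianOfCoords, Matrix.smul_apply, PiLp.smul_apply, smul_eq_mul,
    Complex.ofReal_mul]
  split_ifs <;> ring

theorem herm_sub (a b : EuclideanSpace ℝ (Fin d × Fin d)) :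
    hermitianOfCoords (a - b) = hermitianOfCoords a - hermitianOfCoords b := by
  ext i j
  simp only [hermitianOfCoords, Matrix.sub_apply, PiLp.sub_apply, Complex.ofReal_sub]
  split_ifs <;> ring

theorem herm_isHermitian (a : EuclideanSpace ℝ (Fin d × Fin d)) :
    (hermitianOfCoords a).IsHermitian := by
  ext i j
  simp only [Matrix.conjTranspose_apply, hermitianOfCoords]
  rcases lt_trichotomy i j with h | h | h
  · simp [h.ne, h.ne', h, not_lt.2 h.le]
  · subst h; simp
  · simp [h.ne, h.ne', h, not_lt.2 h.le, sub_eq_add_neg]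

theorem herm_coordsOf {M : Matrix (Fin d) (Fin d) ℂ} (hM : M.IsHermitian) :
    hermitianOfCoords (WithLp.toLp 2 (coordsOf M)) = M := by
  ext i j
  simp only [hermitianOfCoords, coordsOf]
  rcases lt_trichotomy i j with h | h | h
  · simp only [h.ne, h.ne', h, not_lt.2 h.le, if_true, if_false]
    rw [div_eq_iff Herm_s_ne]
    conv_rhs => rw [← Complex.re_add_im (M i j)]
    push_cast
    ring
  · subst h
    simpa using hM.coe_re_apply_self i
  · simp only [h.ne, h.ne', h, not_lt.2 h.le, if_true, if_false]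
    rw [div_eq_iff Herm_s_ne, ← hM.apply i j]
    conv_rhs => rw [← Complex.re_add_im (M j i)]
    simp only [RCLike.star_def, map_add, map_mul, Complex.conj_ofReal, Complex.conj_I]
    push_cast
    ring

/-- `hermitianOfCoords` as a real linear map. -/
noncomputable def Herm_lin (d : ℕ) :
    EuclideanSpace ℝ (Fin d × Fin d) →ₗ[ℝ] Matrix (Fin d) (Fin d) ℂ where
  toFun := hermitianOfCoords
  map_add' := herm_add
  map_smul' r a := by
    rw [herm_smul]
    ext i j
    simp

theorem herm_eq_sum (a : EuclideanSpace ℝ (Fin d × Fin d)) :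
    hermitianOfCoords a = ∑ α, (a α : ℂ) • Eb α := by
  have h : a = ∑ α, a α • (WithLp.toLp 2 (Pi.single α 1) : EuclideanSpace ℝ (Fin d × Fin d)) := by
    ext β
    simp [Pi.single_apply]
  have h2 := congrArg (Herm_lin d) h
  rw [map_sum] at h2
  refine h2.trans (Finset.sum_congr rfl fun α _ => ?_)
  exact herm_smul _ _

/-- Coefficient of the coordinate `(i, j)` in the entry `(i, j)`. -/
noncomputable def Herm_c1 (i j : Fin d) : ℂ :=
  if i = j then 1 else if i < j then (Real.sqrt 2 : ℂ)⁻¹ else -Complex.I * (Real.sqrt 2 : ℂ)⁻¹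

/-- Coefficient of the coordinate `(j, i)` in the entry `(i, j)`. -/
noncomputable def Herm_c2 (i j : Fin d) : ℂ :=
  if i = j then 0 else if i < j then Complex.I * (Real.sqrt 2 : ℂ)⁻¹ else (Real.sqrt 2 : ℂ)⁻¹

lemma Herm_entry (a : EuclideanSpace ℝ (Fin d × Fin d)) (i j : Fin d) :
    hermitianOfCoords a i j = Herm_c1 i j * a (i, j) + Herm_c2 i j * a (j, i) := by
  simp only [hermitianOfCoords, Herm_c1, Herm_c2]
  split_ifs with h1 h2
  · subst h1; simp
  · ring
  · ring

lemma Herm_Eb_entry (α : Fin d × Fin d) (i j : Fin d) :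
    Eb α i j = (if (i, j) = α then Herm_c1 i j else 0) + if (j, i) = α then Herm_c2 i j else 0 := by
  rw [Eb, Herm_entry]
  simp only [Pi.single_apply]
  split_ifs <;> simp

/-- Completeness relation of the orthonormal basis `Eb`. -/
theorem Eb_complete (i j k l : Fin d) :
    ∑ α, Eb α i j * Eb α k l = if i = l ∧ j = k then 1 else 0 := by
  have hs : (Real.sqrt 2 : ℂ)⁻¹ * (Real.sqrt 2 : ℂ)⁻¹ = 1 / 2 := by
    rw [← mul_inv, Herm_s_mul]; simp
  have hI := Complex.I_mul_I
  simp only [Herm_Eb_entry _ i j, add_mul, ite_mul, zero_mul, Finset.sum_add_distrib,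
    Finset.sum_ite_eq, Finset.mem_univ, if_true]
  simp only [Herm_Eb_entry, Prod.mk.injEq]
  by_cases hij : i = j
  · subst hij
    by_cases h1 : k = i
    · subst h1
      by_cases h2 : l = k
      · subst h2; simp [Herm_c1, Herm_c2]
      · simp [h2, Ne.symm h2]
    · simp [h1, Ne.symm h1]
  · by_cases h1 : i = l ∧ j = k
    · obtain ⟨rfl, rfl⟩ := h1
      simp only [hij, Ne.symm hij, and_self, if_true, if_false, zero_add, add_zero, Herm_c1, Herm_c2]
      rcases lt_or_gt_of_ne hij with h | h
      · simp only [h, not_lt.2 h.le, if_true, if_false]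
        linear_combination (1 - Complex.I * Complex.I) * hs - (1 / 2) * hI
      · simp only [h, not_lt.2 h.le, if_true, if_false]
        linear_combination (1 - Complex.I * Complex.I) * hs - (1 / 2) * hI
    · rw [if_neg h1]
      have h1' : ¬ (l = i ∧ k = j) := fun h => h1 ⟨h.1.symm, h.2.symm⟩
      have h1'' : ¬ (k = j ∧ l = i) := fun h => h1 ⟨h.2.symm, h.1.symm⟩
      rw [if_neg h1', if_neg h1'']
      by_cases h2 : k = i ∧ l = j
      · obtain ⟨rfl, rfl⟩ := h2
        simp only [hij, and_self, if_true, if_false, zero_add, add_zero, Herm_c1, Herm_c2]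
        split_ifs
        · linear_combination ((Real.sqrt 2 : ℂ)⁻¹ * (Real.sqrt 2 : ℂ)⁻¹) * hI
        · linear_combination ((Real.sqrt 2 : ℂ)⁻¹ * (Real.sqrt 2 : ℂ)⁻¹) * hI
      · have h2' : ¬ (l = j ∧ k = i) := fun h => h2 ⟨h.2, h.1⟩
        simp [h2, h2']

lemma Herm_mul_entry (a : EuclideanSpace ℝ (Fin d × Fin d)) (i j : Fin d) :
    hermitianOfCoords a i j * hermitianOfCoords a j i =
      (((a (i, j) ^ 2 + a (j, i) ^ 2) / 2 : ℝ) : ℂ) := by
  have hI := Complex.I_mul_I
  simp only [hermitianOfCoords]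
  rcases lt_trichotomy i j with h | h | h
  · simp only [h.ne, h.ne', h, not_lt.2 h.le, if_true, if_false]
    rw [div_mul_div_comm, Herm_s_mul]
    push_cast
    linear_combination (-(a (j, i) : ℂ) ^ 2 / 2) * hI
  · subst h
    simp only [if_true]
    push_cast
    ring
  · simp only [h.ne, h.ne', h, not_lt.2 h.le, if_true, if_false]
    rw [div_mul_div_comm, Herm_s_mul]
    push_cast
    linear_combination (-(a (i, j) : ℂ) ^ 2 / 2) * hI

lemma Herm_sum_sq (a : EuclideanSpace ℝ (Fin d × Fin d)) :
    ∑ i, ∑ j, (a (i, j) ^ 2 + a (j, i) ^ 2) / 2 = ∑ α, a α ^ 2 := by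
  rw [Fintype.sum_prod_type]
  simp only [← Finset.sum_div, Finset.sum_add_distrib]
  rw [Finset.sum_comm (f := fun i j => a (j, i) ^ 2)]
  ring

lemma Herm_norm_sq_entry (a : EuclideanSpace ℝ (Fin d × Fin d)) (i j : Fin d) :
    ‖hermitianOfCoords a i j‖ ^ 2 = (a (i, j) ^ 2 + a (j, i) ^ 2) / 2 := by
  have h := Herm_mul_entry a i j
  rw [← (herm_isHermitian a).apply j i, RCLike.star_def, Complex.mul_conj,
    Complex.normSq_eq_norm_sq] at h
  exact_mod_cast h

/-- The coordinates are orthonormal for the Hilbert–Schmidt inner product. -/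
theorem trace_herm_mul_self (a : EuclideanSpace ℝ (Fin d × Fin d)) :
    Matrix.trace (hermitianOfCoords a * hermitianOfCoords a) = ((∑ α, a α ^ 2 : ℝ) : ℂ) := by
  simp only [Matrix.trace, Matrix.diag_apply, Matrix.mul_apply, Herm_mul_entry]
  rw [← Herm_sum_sq]
  push_cast
  rfl

/-- Operator norm `≤` Hilbert–Schmidt norm. -/
theorem opNorm_herm_le (a : EuclideanSpace ℝ (Fin d × Fin d)) :
    ‖Matrix.toEuclideanCLM (n := Fin d) (𝕜 := ℂ) (hermitianOfCoords a)‖ ≤ ‖a‖ := by
  refine ContinuousLinearMap.opNorm_le_bound _ (norm_nonneg _) fun x => ?_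
  refine le_of_sq_le_sq ?_ (by positivity)
  rw [mul_pow, EuclideanSpace.norm_sq_eq, EuclideanSpace.norm_sq_eq a]
  simp only [Real.norm_eq_abs, sq_abs]
  rw [← Herm_sum_sq, Finset.sum_mul]
  refine Finset.sum_le_sum fun i _ => ?_
  simp only [← Herm_norm_sq_entry]
  rw [Matrix.ofLp_toEuclideanCLM, EuclideanSpace.norm_sq_eq]
  refine le_trans ?_ (Finset.sum_mul_sq_le_sq_mul_sq _ _ _)
  refine pow_le_pow_left₀ (norm_nonneg _) ?_ 2
  simp only [Matrix.mulVec, dotProduct]
  refine (norm_sum_le _ _).trans (le_of_eq ?_)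
  simp only [norm_mul]

theorem continuous_herm :
    Continuous (hermitianOfCoords : EuclideanSpace ℝ (Fin d × Fin d) → Matrix (Fin d) (Fin d) ℂ) := by
  exact (Herm_lin d).continuous_of_finiteDimensional

theorem continuous_coordsOf :
    Continuous (coordsOf : Matrix (Fin d) (Fin d) ℂ → Fin d × Fin d → ℝ) := by
  refine continuous_pi fun p => ?_
  simp only [coordsOf]
  split_ifs <;> fun_prop

/-- A palindromic word in Hermitian matrices is Hermitian. -/
theorem isHermitian_prod {κ : Type*} (G : κ → Matrix (Fin d) (Fin d) ℂ)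
    (hG : ∀ k, (G k).IsHermitian) {u : List κ} (hu : u.reverse = u) :
    (u.map G).prod.IsHermitian := by
  rw [Matrix.IsHermitian, Matrix.conjTranspose_list_prod, List.map_map, ← List.map_reverse, hu]
  congr 1
  exact List.map_congr_left fun k _ => hG k

theorem gue_isHermitian {I : Type} (g : I × (Fin d × Fin d) → ℝ) (i : I) :
    (gue d g i).IsHermitian := by
  refine (herm_isHermitian _).smul ?_
  rw [IsSelfAdjoint, RCLike.star_def, Complex.conj_ofReal]

theorem continuous_gue {I : Type} (i : I) :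
    Continuous fun g : I × (Fin d × Fin d) → ℝ => gue d g i := by
  unfold gue
  have h : Continuous fun g : I × (Fin d × Fin d) → ℝ =>
      (WithLp.toLp 2 fun p => g (i, p) : EuclideanSpace ℝ (Fin d × Fin d)) := by fun_prop
  exact (continuous_herm.comp h).const_smul (((Real.sqrt d)⁻¹ : ℝ) : ℂ)

/-- Microstate sets are Borel (closed ∩ countably many open conditions; `FreeMonoid (Fin n)` is
countable, `a ↦ matrixTuple a l` is continuous, words and traces are continuous). -/
theorem measurableSet_microstates {A : Type*} [Ring A] [Algebra ℂ A] {n : ℕ} (τ : A →ₗ[ℂ] ℂ)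
    (X : Fin n → A) (R : ℝ) (m d : ℕ) (ε : ℝ) : MeasurableSet (microstates τ X R m d ε) := by
  have hc : ∀ l, Continuous fun a : EuclideanSpace ℝ (Fin n × (Fin d × Fin d)) =>
      matrixTuple a l := fun l => by
    unfold matrixTuple
    refine continuous_herm.comp ?_
    fun_prop
  have hw : ∀ w : FreeMonoid (Fin n), Continuous
      fun a : EuclideanSpace ℝ (Fin n × (Fin d × Fin d)) => wordEval (matrixTuple a) w := by
    intro w
    induction w using FreeMonoid.inductionOn' with
    | one => simpa [wordEval] using continuous_const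
    | of_mul b w ih =>
      simp only [wordEval, map_mul, FreeMonoid.lift_eval_of] at ih ⊢
      exact (hc b).mul ih
  have hT : Continuous
      fun M : Matrix (Fin d) (Fin d) ℂ => Matrix.toEuclideanCLM (n := Fin d) (𝕜 := ℂ) M :=
    LinearMap.continuous_of_finiteDimensional
      (Matrix.toEuclideanCLM (n := Fin d) (𝕜 := ℂ)).toAlgEquiv.toLinearMap
  unfold microstates
  simp only [Set.ofPred_and, Set.ofPred_forall]
  refine MeasurableSet.inter (MeasurableSet.iInter fun l => ?_)
    (MeasurableSet.iInter fun w => MeasurableSet.iInter fun _ => ?_)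
  · exact (isClosed_le (hT.comp (hc l)).norm continuous_const).measurableSet
  · refine (isOpen_lt (Continuous.norm ?_) continuous_const).measurableSet
    unfold matrixMoment
    exact (continuous_const.mul (hw w).matrix_trace).sub continuous_const

end Crest.Agent.R89
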