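import Crest.Agent.R89.Herm

/-!
# R89: operator norm of GUE matrices
-/

set_option autoImplicit false
open scoped InnerProductSpace BigOperators
open MeasureTheory Filter Topology Crest.OpAlg

namespace Crest.Agent.R89

/-- Gaussian tail of a linear form (Chernoff: `𝔼 exp (t ∑ w g) = exp (t² ∑ w² / 2)` by
`integral_fintype_prod_eq_prod` and `mgf_id_gaussianReal`; or `HasSubgaussianMGF`). -/
theorem gauss_tail {σ : Type} [Fintype σ] (w : σ → ℝ) {v r : ℝ} (hv : 0 < v) (hr : 0 ≤ r)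
    (hw : ∑ s, w s ^ 2 ≤ v) :
    gauss σ {g | r ≤ ∑ s, w s * g s} ≤ ENNReal.ofReal (Real.exp (-r ^ 2 / (2 * v))) := by
  have hind : ProbabilityTheory.iIndepFun (fun (s : σ) (g : σ → ℝ) => w s * g s) (gauss σ) :=
    ProbabilityTheory.iIndepFun_pi (X := fun s x => w s * x) fun s => by fun_prop
  have h1 : ProbabilityTheory.HasSubgaussianMGF id 1 (ProbabilityTheory.gaussianReal 0 1) := by
    refine ⟨fun t => ProbabilityTheory.integrable_exp_mul_gaussianReal t, fun t => ?_⟩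
    rw [ProbabilityTheory.mgf_id_gaussianReal]
    simp
  have h2 : ∀ s : σ, ProbabilityTheory.HasSubgaussianMGF (fun g : σ → ℝ => g s) 1 (gauss σ) := by
    intro s
    rw [← ProbabilityTheory.HasSubgaussianMGF.id_map_iff (measurable_pi_apply s).aemeasurable,
      (measurePreserving_eval (fun _ : σ => ProbabilityTheory.gaussianReal 0 1) s).map_eq]
    exact h1
  have h3 := ProbabilityTheory.HasSubgaussianMGF.sum_of_iIndepFun hind (s := Finset.univ)
    (c := fun s => ⟨w s ^ 2, sq_nonneg _⟩ * 1) fun s _ => (h2 s).const_mul (w s)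
  have h4 : ProbabilityTheory.HasSubgaussianMGF (fun g : σ → ℝ => ∑ s, w s * g s) ⟨v, hv.le⟩
      (gauss σ) := by
    refine ⟨h3.integrable_exp_mul, fun t => (h3.mgf_le t).trans ?_⟩
    apply Real.exp_le_exp.2
    have : ((∑ s : σ, (⟨w s ^ 2, sq_nonneg _⟩ * 1 : NNReal) : NNReal) : ℝ) ≤ v := by
      rw [NNReal.coe_sum]
      refine le_trans (le_of_eq (Finset.sum_congr rfl fun s _ => ?_)) hw
      exact mul_one (w s ^ 2)
    have ht := sq_nonneg t
    change _ ≤ v * t ^ 2 / 2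
    gcongr
  have h5 := h4.measure_ge_le hr
  rw [← ENNReal.ofReal_toReal (measure_ne_top (gauss σ) _)]
  exact ENNReal.ofReal_le_ofReal h5

/-- `1/2`-nets of the unit ball (a maximal `1/2`-separated subset; cardinality by
`Besicovitch.card_le_of_separated` after scaling by `2`, `finrank ℝ = 2 d`). -/
theorem exists_net (d : ℕ) : ∃ N : Finset (EuclideanSpace ℂ (Fin d)), N.card ≤ 25 ^ d ∧
    (∀ x ∈ N, ‖x‖ ≤ 1) ∧ ∀ y : EuclideanSpace ℂ (Fin d), ‖y‖ ≤ 1 → ∃ x ∈ N, ‖y - x‖ ≤ 1 / 2 := by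
  classical
  let P : Finset (EuclideanSpace ℂ (Fin d)) → Prop := fun N =>
    (∀ x ∈ N, ‖x‖ ≤ 1) ∧ ∀ x ∈ N, ∀ y ∈ N, x ≠ y → 1 / 2 ≤ ‖x - y‖
  have hfr : Module.finrank ℝ (EuclideanSpace ℂ (Fin d)) = 2 * d := by
    rw [finrank_real_of_complex]
    simp
  have hcard : ∀ N, P N → N.card ≤ 25 ^ d := by
    intro N hN
    have hinj : Function.Injective fun x : EuclideanSpace ℂ (Fin d) => (2 : ℝ) • x :=
      smul_right_injective _ (by norm_num)
    have h := Besicovitch.card_le_of_separated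
      (N.image fun x : EuclideanSpace ℂ (Fin d) => (2 : ℝ) • x) (by
        intro c hc
        obtain ⟨x, hx, rfl⟩ := Finset.mem_image.1 hc
        rw [norm_smul]
        have := hN.1 x hx
        simp only [Real.norm_ofNat]
        linarith) (by
        intro c hc e he hce
        obtain ⟨x, hx, rfl⟩ := Finset.mem_image.1 hc
        obtain ⟨y, hy, rfl⟩ := Finset.mem_image.1 he
        have := hN.2 x hx y hy fun h => hce (by rw [h])
        rw [← smul_sub, norm_smul]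
        simp only [Real.norm_ofNat]
        linarith)
    rw [Finset.card_image_of_injective _ hinj, hfr, pow_mul] at h
    simpa using h
  have hex : ∃ N, P N ∧ ∀ M, P M → M.card ≤ N.card := by
    have hne : ∃ k, ∃ N, P N ∧ 25 ^ d - N.card = k :=
      ⟨_, ∅, ⟨by simp, by simp⟩, rfl⟩
    obtain ⟨N, hN, hk⟩ := Nat.find_spec hne
    refine ⟨N, hN, fun M hM => ?_⟩
    have h1 : Nat.find hne ≤ 25 ^ d - M.card := Nat.find_min' hne ⟨M, hM, rfl⟩
    have h2 := hcard M hM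
    have h3 := hcard N hN
    omega
  obtain ⟨N, hN, hmax⟩ := hex
  refine ⟨N, hcard N hN, hN.1, fun y hy => ?_⟩
  by_contra hcon
  push Not at hcon
  have hyN : y ∉ N := fun h => by
    have := hcon y h
    simp only [sub_self, norm_zero] at this
    linarith
  have hP : P (insert y N) := by
    refine ⟨fun x hx => ?_, fun a ha b hb hab => ?_⟩
    · rcases Finset.mem_insert.1 hx with rfl | hx
      · exact hy
      · exact hN.1 x hx
    · rcases Finset.mem_insert.1 ha with rfl | ha'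
      · rcases Finset.mem_insert.1 hb with rfl | hb'
        · exact absurd rfl hab
        · exact (hcon b hb').le
      · rcases Finset.mem_insert.1 hb with rfl | hb'
        · rw [norm_sub_rev]
          exact (hcon a ha').le
        · exact hN.2 a ha' b hb' hab
  have := hmax _ hP
  rw [Finset.card_insert_of_notMem hyN] at this
  omega

/-- The net bound for vectors. -/
theorem NormBd_vec {E : Type*} [NormedAddCommGroup E] [InnerProductSpace ℂ E] (N : Finset E)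
    (hN : ∀ y : E, ‖y‖ ≤ 1 → ∃ x ∈ N, ‖y - x‖ ≤ 1 / 2) {M : ℝ} (hM : 0 ≤ M) (z : E)
    (hz : ∀ y ∈ N, (⟪y, z⟫_ℂ).re ≤ M) : ‖z‖ ≤ 2 * M := by
  rcases eq_or_ne z 0 with rfl | hz0
  · rw [norm_zero]; positivity
  have hpos : 0 < ‖z‖ := norm_pos_iff.2 hz0
  let u : E := ((‖z‖⁻¹ : ℝ) : ℂ) • z
  have hu : ‖u‖ = 1 := by
    simp only [u, norm_smul, Complex.norm_real, norm_inv, norm_norm]
    exact inv_mul_cancel₀ hpos.ne'
  obtain ⟨y, hy, hyu⟩ := hN u hu.le
  have h1 : (⟪u, z⟫_ℂ).re = ‖z‖ := by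
    simp only [u, inner_smul_left, Complex.conj_ofReal, inner_self_eq_norm_sq_to_K]
    have : ((‖z‖⁻¹ : ℝ) : ℂ) * ((‖z‖ : ℂ)) ^ 2 = ((‖z‖ : ℝ) : ℂ) := by
      have h0 : ((‖z‖ : ℝ) : ℂ) ≠ 0 := by exact_mod_cast hpos.ne'
      push_cast
      field_simp
    erw [this]
    simp
  have h2 : (⟪u - y, z⟫_ℂ).re ≤ 1 / 2 * ‖z‖ :=
    calc (⟪u - y, z⟫_ℂ).re ≤ ‖⟪u - y, z⟫_ℂ‖ := Complex.re_le_norm _
      _ ≤ ‖u - y‖ * ‖z‖ := norm_inner_le_norm _ _
      _ ≤ 1 / 2 * ‖z‖ := by gcongr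
  rw [inner_sub_left, Complex.sub_re, h1] at h2
  have := hz y hy
  linarith

/-- The net bound for operators. -/
theorem NormBd_op {E : Type*} [NormedAddCommGroup E] [InnerProductSpace ℂ E] (N : Finset E)
    (hN : ∀ y : E, ‖y‖ ≤ 1 → ∃ x ∈ N, ‖y - x‖ ≤ 1 / 2) {M : ℝ} (hM : 0 ≤ M) (G : E →L[ℂ] E)
    (hG : ∀ x ∈ N, ∀ y ∈ N, (⟪y, G x⟫_ℂ).re ≤ M) : ‖G‖ ≤ 4 * M := by
  have h1 : ‖G‖ ≤ 2 * M + ‖G‖ / 2 := by
    refine ContinuousLinearMap.opNorm_le_of_unit_norm (by positivity) fun x hx => ?_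
    obtain ⟨y, hy, hxy⟩ := hN x hx.le
    have h2 := NormBd_vec N hN hM (G y) (hG y hy)
    have h3 : ‖G (x - y)‖ ≤ ‖G‖ * (1 / 2) :=
      (G.le_opNorm _).trans (by gcongr)
    have h4 : G x = G y + G (x - y) := by rw [map_sub]; abel
    rw [h4]
    refine (norm_add_le _ _).trans ?_
    linarith
  linarith

/-- The matrix coefficient of `hermitianOfCoords a` as a linear form in `a`. -/
theorem NormBd_coef {d : ℕ} (x y : EuclideanSpace ℂ (Fin d))
    (a : EuclideanSpace ℝ (Fin d × Fin d)) :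
    (⟪y, Matrix.toEuclideanCLM (n := Fin d) (𝕜 := ℂ) (hermitianOfCoords a) x⟫_ℂ).re =
      ∑ α, (⟪y, Matrix.toEuclideanCLM (n := Fin d) (𝕜 := ℂ) (Eb α) x⟫_ℂ).re * a α := by
  rw [herm_eq_sum, map_sum, sum_apply, inner_sum, Complex.re_sum]
  refine Finset.sum_congr rfl fun α _ => ?_
  rw [map_smul, smul_apply, inner_smul_right, Complex.re_ofReal_mul, mul_comm]

theorem NormBd_sq {d : ℕ} {x y : EuclideanSpace ℂ (Fin d)} (hx : ‖x‖ ≤ 1) (hy : ‖y‖ ≤ 1) :
    ∑ α, (⟪y, Matrix.toEuclideanCLM (n := Fin d) (𝕜 := ℂ) (Eb α) x⟫_ℂ).re ^ 2 ≤ 1 := by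
  let u : EuclideanSpace ℝ (Fin d × Fin d) := WithLp.toLp 2 fun α =>
    (⟪y, Matrix.toEuclideanCLM (n := Fin d) (𝕜 := ℂ) (Eb α) x⟫_ℂ).re
  have h1 : ‖u‖ ^ 2 =
      ∑ α, (⟪y, Matrix.toEuclideanCLM (n := Fin d) (𝕜 := ℂ) (Eb α) x⟫_ℂ).re ^ 2 := by
    rw [EuclideanSpace.real_norm_sq_eq]
  have h2 := NormBd_coef x y u
  have h3 : ∑ α, (⟪y, Matrix.toEuclideanCLM (n := Fin d) (𝕜 := ℂ) (Eb α) x⟫_ℂ).re * u α =
      ‖u‖ ^ 2 := by
    rw [h1]
    refine Finset.sum_congr rfl fun α _ => ?_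
    rw [sq]
  have h4 : (⟪y, Matrix.toEuclideanCLM (n := Fin d) (𝕜 := ℂ) (hermitianOfCoords u) x⟫_ℂ).re
      ≤ ‖u‖ := by
    refine (Complex.re_le_norm _).trans ((norm_inner_le_norm _ _).trans ?_)
    have h5 := (Matrix.toEuclideanCLM (n := Fin d) (𝕜 := ℂ) (hermitianOfCoords u)).le_opNorm x
    have h6 := opNorm_herm_le u
    have h7 := norm_nonneg u
    calc ‖y‖ * ‖Matrix.toEuclideanCLM (n := Fin d) (𝕜 := ℂ) (hermitianOfCoords u) x‖
        ≤ 1 * (‖u‖ * 1) := by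
          gcongr
          exact h5.trans (by gcongr)
      _ = ‖u‖ := by ring
  rw [h2, h3] at h4
  rw [← h1]
  have h7 := norm_nonneg u
  have h8 : ‖u‖ ≤ 1 := by
    by_contra hcon
    push Not at hcon
    nlinarith
  nlinarith

theorem NormBd_bound {I : Type} [Fintype I] (i : I) {d : ℕ} (hd : 0 < d) :
    gauss (I × (Fin d × Fin d))
      {g | 16 < ‖Matrix.toEuclideanCLM (n := Fin d) (𝕜 := ℂ) (gue d g i)‖} ≤
      ENNReal.ofReal ((625 * Real.exp (-8)) ^ d) := by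
  classical
  obtain ⟨N, hcard, hN1, hN⟩ := exists_net d
  have hdpos : (0 : ℝ) < d := by exact_mod_cast hd
  let w : EuclideanSpace ℂ (Fin d) × EuclideanSpace ℂ (Fin d) → I × (Fin d × Fin d) → ℝ :=
    fun p s => if s.1 = i then (Real.sqrt d)⁻¹ *
      (⟪p.2, Matrix.toEuclideanCLM (n := Fin d) (𝕜 := ℂ) (Eb s.2) p.1⟫_ℂ).re else 0
  have hw : ∀ (p : EuclideanSpace ℂ (Fin d) × EuclideanSpace ℂ (Fin d))
      (g : I × (Fin d × Fin d) → ℝ),
      (⟪p.2, Matrix.toEuclideanCLM (n := Fin d) (𝕜 := ℂ) (gue d g i) p.1⟫_ℂ).re =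
        ∑ s, w p s * g s := by
    intro p g
    rw [gue, map_smul, smul_apply, inner_smul_right, Complex.re_ofReal_mul,
      NormBd_coef, Fintype.sum_prod_type (α₁ := I), Finset.sum_eq_single i, Finset.mul_sum]
    · refine Finset.sum_congr rfl fun α _ => ?_
      simp only [w, if_true]
      ring
    · intro j _ hj
      simp [w, hj]
    · simp
  have hw2 : ∀ p ∈ N ×ˢ N, ∑ s, w p s ^ 2 ≤ 1 / (d : ℝ) := by
    intro p hp
    obtain ⟨hp1, hp2⟩ := Finset.mem_product.1 hp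
    rw [Fintype.sum_prod_type, Finset.sum_eq_single i]
    · have h := NormBd_sq (hN1 _ hp1) (hN1 _ hp2)
      simp only [w, if_true, mul_pow, ← Finset.mul_sum, inv_pow, Real.sq_sqrt hdpos.le]
      rw [one_div]
      exact mul_le_of_le_one_right (by positivity) h
    · intro j _ hj
      simp [w, hj]
    · simp
  have hsub : {g : I × (Fin d × Fin d) → ℝ |
      16 < ‖Matrix.toEuclideanCLM (n := Fin d) (𝕜 := ℂ) (gue d g i)‖} ⊆
      ⋃ p ∈ N ×ˢ N, {g | (4 : ℝ) ≤ ∑ s, w p s * g s} := by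
    intro g hg
    by_contra hcon
    simp only [Set.mem_iUnion, Set.mem_ofPred_eq, not_exists, not_le] at hcon
    have := NormBd_op N hN (M := 4) (by norm_num)
      (Matrix.toEuclideanCLM (n := Fin d) (𝕜 := ℂ) (gue d g i)) fun x hx y hy => by
        rw [hw (x, y) g]
        exact (hcon (x, y) (Finset.mem_product.2 ⟨hx, hy⟩)).le
    simp only [Set.mem_ofPred_eq] at hg
    linarith
  refine (measure_mono hsub).trans ((measure_biUnion_finset_le _ _).trans ?_)
  have hb : ∀ p ∈ N ×ˢ N, gauss (I × (Fin d × Fin d)) {g | (4 : ℝ) ≤ ∑ s, w p s * g s} ≤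
      ENNReal.ofReal (Real.exp (-8) ^ d) := by
    intro p hp
    refine (gauss_tail (w p) (by positivity) (by norm_num) (hw2 p hp)).trans (le_of_eq ?_)
    congr 1
    rw [← Real.exp_nat_mul]
    congr 1
    field_simp
    ring
  refine (Finset.sum_le_card_nsmul _ _ _ hb).trans ?_
  rw [nsmul_eq_mul, Finset.card_product, mul_pow, ENNReal.ofReal_mul (by positivity)]
  gcongr
  rw [← ENNReal.ofReal_natCast]
  apply ENNReal.ofReal_le_ofReal
  have : N.card * N.card ≤ 625 ^ d :=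
    calc N.card * N.card ≤ 25 ^ d * 25 ^ d := Nat.mul_le_mul hcard hcard
      _ = 625 ^ d := by rw [← mul_pow]; norm_num
  exact_mod_cast this

/-- With high probability GUE matrices have bounded operator norm.

Proof.  For an operator `G` and a net `N`: `‖G‖ ≤ 4 max_{x, y ∈ N} Re ⟪y, G x⟫` (apply the
standard argument `sup ≤ max_N + sup/2` twice).  For `x, y ∈ N`,
`Re ⟪y, gue d g i x⟫ = ∑_s w s * g s` with `w (j, α) = if j = i then (√d)⁻¹ Re ⟪y, Eb α x⟫ else 0`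
(`herm_eq_sum`), and `∑_α (Re ⟪y, Eb α x⟫)² ≤ 1`: with `u α = Re ⟪y, Eb α x⟫`,
`‖u‖² = Re ⟪y, hermitianOfCoords u x⟫ ≤ ‖u‖` by `opNorm_herm_le`.  Union bound with
`gauss_tail` (`v = 1/d`, `r = 4`): probability of `16 < ‖G‖` is at most `625^d exp (-8 d) → 0`
(`625 < e^8`). -/
theorem gue_norm {I : Type} [Fintype I] (i : I) :
    Tendsto (fun d : ℕ => gauss (I × (Fin d × Fin d))
      {g | 16 < ‖Matrix.toEuclideanCLM (n := Fin d) (𝕜 := ℂ) (gue d g i)‖}) atTop (𝓝 0) := by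
  have hlt : 625 * Real.exp (-8) < 1 := by
    have h1 : (2.7 : ℝ) < Real.exp 1 := lt_trans (by norm_num) Real.exp_one_gt_d9
    have h2 : (625 : ℝ) < Real.exp 8 := by
      have : Real.exp 8 = Real.exp 1 ^ 8 := by rw [← Real.exp_nat_mul]; norm_num
      rw [this]
      calc (625 : ℝ) < 2.7 ^ 8 := by norm_num
        _ < Real.exp 1 ^ 8 := by gcongr
    rw [Real.exp_neg, ← div_eq_mul_inv, div_lt_one (Real.exp_pos _)]
    exact h2
  have h0 : Tendsto (fun d : ℕ => ENNReal.ofReal ((625 * Real.exp (-8)) ^ d)) atTop (𝓝 0) := by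
    have := ENNReal.tendsto_ofReal
      (tendsto_pow_atTop_nhds_zero_of_lt_one (by positivity) hlt)
    simpa using this
  refine tendsto_of_tendsto_of_tendsto_of_le_of_le' tendsto_const_nhds h0
    (Eventually.of_forall fun _ => zero_le) ?_
  filter_upwards [eventually_gt_atTop 0] with d hd
  exact NormBd_bound i hd

end Crest.Agent.R89
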