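import Crest.Agent.R89.Conv
import Crest.Agent.R89.NormBd

/-!
# R89: `χ > -∞`
-/

set_option autoImplicit false
open scoped InnerProductSpace BigOperators
open MeasureTheory Filter Topology Crest.OpAlg

namespace Crest.Agent.R89

/-- A finite union of events of vanishing probability has vanishing probability. -/
theorem lower_union {Ω : ℕ → Type*} [∀ d, MeasurableSpace (Ω d)] (μ : ∀ d, Measure (Ω d))
    {ι : Type*} (s : Finset ι) (A : ι → ∀ d, Set (Ω d))
    (h : ∀ i ∈ s, Tendsto (fun d => μ d (A i d)) atTop (𝓝 0)) :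
    Tendsto (fun d => μ d (⋃ i ∈ s, A i d)) atTop (𝓝 0) := by
  have h1 := tendsto_finsetSum s h
  rw [Finset.sum_const_zero] at h1
  exact tendsto_of_tendsto_of_tendsto_of_le_of_le tendsto_const_nhds h1 (fun _ => zero_le)
    fun d => measure_biUnion_finset_le s _

theorem lower_limsup {x : EReal} {u : ℕ → EReal} (h : ∀ᶠ d in atTop, x ≤ u d) :
    x ≤ limsup u atTop := le_limsup_of_frequently_le' h.frequently

theorem lower_iSup (f : ℝ → EReal) {R : ℝ} (h : 0 < R) : f R ≤ ⨆ (R : ℝ) (_ : 0 < R), f R :=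
  le_iSup₂ (f := fun (R : ℝ) (_ : 0 < R) => f R) R h

theorem lower_le_chi {A : Type*} [Ring A] [Algebra ℂ A] {n : ℕ} (τ : A →ₗ[ℂ] ℂ) (X : Fin n → A)
    {R : ℝ} (h : 0 < R) : chiCutoff τ X R ≤ chi τ X := by
  have := lower_iSup (chiCutoff τ X) h
  unfold chi
  with_reducible exact this

theorem lower_evA_wordEval {I A : Type} [Ring A] [Algebra ℂ A] {n : ℕ} (G : I → A)
    (X : Fin n → T I) (w : FreeMonoid (Fin n)) :
    evA G (wordEval X w) = wordEval (fun k => evA G (X k)) w := by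
  simp only [wordEval, FreeMonoid.lift_apply, map_list_prod, List.map_map]
  rfl

theorem lower_norm_prod {d : ℕ} {κ : Type*} (G : κ → Matrix (Fin d) (Fin d) ℂ) {r : ℝ}
    (hr : 0 ≤ r) (hG : ∀ k, ‖Matrix.toEuclideanCLM (n := Fin d) (𝕜 := ℂ) (G k)‖ ≤ r)
    (u : List κ) :
    ‖Matrix.toEuclideanCLM (n := Fin d) (𝕜 := ℂ) (u.map G).prod‖ ≤ r ^ u.length := by
  induction u with
  | nil =>
    simp only [List.map_nil, List.prod_nil, map_one, List.length_nil, pow_zero]
    exact ContinuousLinearMap.norm_id_le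
  | cons k u ih =>
    rw [List.map_cons, List.prod_cons, map_mul, List.length_cons, pow_succ']
    exact (norm_mul_le _ _).trans (mul_le_mul (hG k) ih (norm_nonneg _) hr)

section
variable {n : ℕ} (F : Fin n → List (Fin n)) (c : Fin n → ℝ) (d : ℕ)

/-- The part of the coordinates given by the hidden letters. -/
noncomputable def lowerH (b : (Fin n ⊕ Fin n) × (Fin d × Fin d) → ℝ)
    (a : Fin n × (Fin d × Fin d)) : ℝ :=
  coordsOf ((F a.1).map fun l => gue d b (.inl l)).prod a.2

/-- The coordinates of the random matrix model of `Xt F c`. -/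
noncomputable def lowerY (g : Lt n × (Fin d × Fin d) → ℝ) (a : Fin n × (Fin d × Fin d)) : ℝ :=
  c a.1 * (Real.sqrt d)⁻¹ * g (nz a.1, a.2) + lowerH F d (fun b => g (.inr b.1, b.2)) a

theorem lowerH_measurable : Measurable (lowerH F d) := by
  refine Continuous.measurable (continuous_pi fun a => ?_)
  have h1 : Continuous fun b : (Fin n ⊕ Fin n) × (Fin d × Fin d) → ℝ =>
      ((F a.1).map fun l => gue d b (.inl l)).prod :=
    continuous_list_prod (f := fun (l : Fin n) (b : (Fin n ⊕ Fin n) × (Fin d × Fin d) → ℝ) =>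
      gue d b (.inl l)) (F a.1) fun l _ => continuous_gue _
  have h2 := (continuous_apply a.2).comp (continuous_coordsOf.comp h1)
  exact h2

theorem lowerY_tuple (hF : ∀ k, (F k).reverse = F k) (g : Lt n × (Fin d × Fin d) → ℝ)
    (k : Fin n) :
    matrixTuple (WithLp.toLp 2 (lowerY F c d g)) k = evA (gue d g) (Xt F c k) := by
  have e : (WithLp.toLp 2 fun p => lowerY F c d g (k, p) : EuclideanSpace ℝ (Fin d × Fin d)) =
      (c k * (Real.sqrt d)⁻¹) • (WithLp.toLp 2 fun p => g (nz k, p)) +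
        WithLp.toLp 2 (coordsOf ((F k).map fun l => gue d g (hd l)).prod) := rfl
  change hermitianOfCoords (WithLp.toLp 2 fun p => lowerY F c d g (k, p)) = _
  rw [e, herm_add, herm_smul,
    herm_coordsOf (isHermitian_prod _ (fun l => gue_isHermitian g (hd l)) (hF k)), Xt, map_add,
    map_smul, evA_lt, evA_wd, List.map_map, add_comm, gue, smul_smul]
  push_cast
  rfl

theorem lower_shift (hc : ∀ k, 0 < c k) (hd0 : 0 < d)
    {S : Set (EuclideanSpace ℝ (Fin n × (Fin d × Fin d)))} (hS : MeasurableSet S) :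
    gauss (Lt n × (Fin d × Fin d)) {g | WithLp.toLp 2 (lowerY F c d g) ∈ S} ≤
      ENNReal.ofReal (∏ a : Fin n × (Fin d × Fin d), (c a.1 * (Real.sqrt d)⁻¹)⁻¹) * volume S := by
  have hv := PiLp.volume_preserving_toLp (Fin n × (Fin d × Fin d))
  have hd' : 0 < Real.sqrt d := Real.sqrt_pos.2 (Nat.cast_pos.2 hd0)
  have h1 := gauss_shift_le (fun a : Fin n × (Fin d × Fin d) => c a.1 * (Real.sqrt d)⁻¹)
    (fun a => mul_pos (hc _) (inv_pos.2 hd')) (lowerH F d) (lowerH_measurable F d)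
    (WithLp.toLp 2 ⁻¹' S) (hv.measurable hS)
  rw [hv.measure_preimage hS.nullMeasurableSet] at h1
  have h2 := measurePreserving_arrowCongr' (fun _ => ProbabilityTheory.gaussianReal 0 1)
    (fun _ => ProbabilityTheory.gaussianReal 0 1)
    (Equiv.sumProdDistrib (Fin n) (Fin n ⊕ Fin n) (Fin d × Fin d)) (MeasurableEquiv.refl ℝ)
    (fun _ => MeasurePreserving.id _)
  refine le_trans (le_of_eq ?_) h1
  rw [← h2.measure_preimage_equiv]
  rfl

/-- With probability at least `1/2` the matrix model is a microstate. -/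
theorem lower_prob (hF : ∀ k, (F k).reverse = F k) (hc : ∀ k, 0 < c k) (m : ℕ) {ε : ℝ}
    (hε : 0 < ε) : ∀ᶠ d : ℕ in atTop, 1 / 2 ≤ gauss (Lt n × (Fin d × Fin d))
      {g | WithLp.toLp 2 (lowerY F c d g) ∈
        microstates tau0 (Xt F c) (∑ k, (16 ^ (F k).length + c k * 16) + 1) m d ε} := by
  classical
  have h1 := lower_union (fun d => gauss (Lt n × (Fin d × Fin d))) Finset.univ
    (fun i d => {g | 16 < ‖Matrix.toEuclideanCLM (n := Fin d) (𝕜 := ℂ) (gue d g i)‖})
    fun i _ => gue_norm i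
  have h2 := lower_union (fun d => gauss (Lt n × (Fin d × Fin d)))
    (List.finite_length_le (Fin n) m).toFinset
    (fun l d => {g | ε ≤ ‖(d : ℂ)⁻¹ * Matrix.trace (evA (gue d g)
      (wordEval (Xt F c) (FreeMonoid.ofList l))) - tau0 (wordEval (Xt F c) (FreeMonoid.ofList l))‖})
    fun l _ => gue_conv _ hε
  have h3 := h1.add h2
  rw [add_zero] at h3
  filter_upwards [h3.eventually (ge_mem_nhds (show (0 : ENNReal) < 1 / 2 by norm_num))] with d hd
  set S := {g : Lt n × (Fin d × Fin d) → ℝ | WithLp.toLp 2 (lowerY F c d g) ∈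
    microstates tau0 (Xt F c) (∑ k, (16 ^ (F k).length + c k * 16) + 1) m d ε} with hS
  have h4 : gauss (Lt n × (Fin d × Fin d)) Sᶜ ≤ 1 / 2 := by
    refine le_trans ((measure_mono ?_).trans (measure_union_le _ _)) hd
    intro g hg
    by_contra hg'
    simp only [Set.mem_union, Set.mem_iUnion, Set.mem_ofPred_eq, not_or, not_exists, not_lt,
      not_le, Finset.mem_univ, Set.Finite.mem_toFinset, forall_const] at hg'
    obtain ⟨hn, hw⟩ := hg'
    refine hg ⟨fun k => ?_, fun w hw' => ?_⟩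
    · rw [lowerY_tuple F c d hF, Xt, map_add, map_smul, evA_lt, evA_wd, map_add, map_smul]
      refine (norm_add_le _ _).trans ?_
      have a1 := lower_norm_prod (gue d g) (by norm_num) hn ((F k).map R89.hd)
      rw [List.length_map] at a1
      have a2 : ‖(c k : ℂ) • Matrix.toEuclideanCLM (n := Fin d) (𝕜 := ℂ) (gue d g (nz k))‖ ≤
          c k * 16 := by
        rw [norm_smul, Complex.norm_real, Real.norm_of_nonneg (hc k).le]
        exact mul_le_mul_of_nonneg_left (hn _) (hc k).le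
      have a3 : (16 : ℝ) ^ (F k).length + c k * 16 ≤ ∑ k, (16 ^ (F k).length + c k * 16) :=
        Finset.single_le_sum (f := fun k => (16 : ℝ) ^ (F k).length + c k * 16)
          (fun k _ => by have := hc k; positivity) (Finset.mem_univ k)
      linarith
    · have := hw (FreeMonoid.toList w) hw'
      rw [FreeMonoid.ofList_toList, lower_evA_wordEval] at this
      rw [matrixMoment, funext (lowerY_tuple F c d hF g)]
      exact this
  have h5 : (1 : ENNReal) ≤ gauss (Lt n × (Fin d × Fin d)) S + 1 / 2 := by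
    calc (1 : ENNReal) = gauss (Lt n × (Fin d × Fin d)) (S ∪ Sᶜ) := by
          rw [Set.union_compl_self, measure_univ]
      _ ≤ _ := (measure_union_le _ _).trans (by gcongr)
  nth_rewrite 1 [← ENNReal.add_halves 1] at h5
  exact (ENNReal.add_le_add_iff_right (by norm_num)).1 h5

theorem lower_real (hc : ∀ k, 0 < c k) (hd0 : 0 < d) :
    ∑ k, Real.log (c k) - Real.log 2 ≤ ((d : ℝ) ^ 2)⁻¹ *
      Real.log (1 / 2 / ∏ a : Fin n × (Fin d × Fin d), (c a.1 * (Real.sqrt d)⁻¹)⁻¹) +
      (n : ℝ) / 2 * Real.log d := by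
  have hd1 : (1 : ℝ) ≤ d := by exact_mod_cast hd0
  have hd' : 0 < Real.sqrt d := Real.sqrt_pos.2 (by linarith)
  have hne : ∀ a : Fin n × (Fin d × Fin d), (c a.1 * (Real.sqrt d)⁻¹)⁻¹ ≠ 0 := fun a =>
    (inv_pos.2 (mul_pos (hc _) (inv_pos.2 hd'))).ne'
  have e : ∀ a : Fin n × (Fin d × Fin d), Real.log (c a.1 * (Real.sqrt d)⁻¹)⁻¹ =
      Real.log d / 2 - Real.log (c a.1) := fun a => by
    rw [Real.log_inv, Real.log_mul (hc _).ne' (inv_pos.2 hd').ne', Real.log_inv,
      Real.log_sqrt (by linarith)]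
    ring
  rw [Real.log_div (by norm_num) (Finset.prod_ne_zero_iff.2 fun a _ => hne a),
    Real.log_prod (fun a _ => hne a)]
  simp only [e, Fintype.sum_prod_type, Finset.sum_const, Finset.card_univ, Fintype.card_fin,
    nsmul_eq_mul, Finset.sum_sub_distrib, ← Finset.mul_sum, one_div, Real.log_inv,
    Fintype.card_prod, Nat.cast_mul]
  have h2 : 0 < Real.log 2 := Real.log_pos (by norm_num)
  have h3 : ((d : ℝ) ^ 2)⁻¹ ≤ 1 := inv_le_one_of_one_le₀ (one_le_pow₀ hd1)
  have h4 : ((d : ℝ) ^ 2)⁻¹ * (-Real.log 2 - (n * (d * d) * (Real.log d / 2) -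
      d * d * ∑ k, Real.log (c k))) + (n : ℝ) / 2 * Real.log d =
      ∑ k, Real.log (c k) - ((d : ℝ) ^ 2)⁻¹ * Real.log 2 := by
    field_simp
    ring
  rw [h4]
  nlinarith

theorem lower_log (hc : ∀ k, 0 < c k) (hd0 : 0 < d) {V : ENNReal}
    (h2 : 1 / 2 ≤
      ENNReal.ofReal (∏ a : Fin n × (Fin d × Fin d), (c a.1 * (Real.sqrt d)⁻¹)⁻¹) * V) :
    ((∑ k, Real.log (c k) - Real.log 2 : ℝ) : EReal) ≤
      ((((d : ℝ) ^ 2)⁻¹ : ℝ) : EReal) * V.log + (((n : ℝ) / 2 * Real.log d : ℝ) : EReal) := by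
  have hd' : 0 < Real.sqrt d := Real.sqrt_pos.2 (Nat.cast_pos.2 hd0)
  have h3 := lower_real c d hc hd0
  have hP0 : 0 < ∏ a : Fin n × (Fin d × Fin d), (c a.1 * (Real.sqrt d)⁻¹)⁻¹ :=
    Finset.prod_pos fun a _ => inv_pos.2 (mul_pos (hc _) (inv_pos.2 hd'))
  generalize ∏ a : Fin n × (Fin d × Fin d), (c a.1 * (Real.sqrt d)⁻¹)⁻¹ = P at h2 h3 hP0
  have h4 : ENNReal.ofReal (1 / 2 / P) ≤ V := by
    rw [ENNReal.ofReal_div_of_pos hP0, ENNReal.ofReal_div_of_pos (by norm_num)]
    refine ENNReal.div_le_of_le_mul' ?_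
    simpa using h2
  have h5 := ENNReal.log_monotone h4
  rw [ENNReal.log_ofReal_of_pos (by positivity)] at h5
  refine le_trans (EReal.coe_le_coe_iff.2 h3) ?_
  rw [EReal.coe_add, EReal.coe_mul]
  exact add_le_add (mul_le_mul_of_nonneg_left h5 (EReal.coe_nonneg.2 (by positivity))) le_rfl

end

/-- The microstates free entropy of `Xt F c` is finite.

Proof.  Take `R = ∑_k (16 ^ (F k).length + 16 c k) + 1`.  Fix `m, ε`.  For
`g : Lt n × (Fin d × Fin d) → ℝ` let `G = gue d g` and
`Y g (k, α) = (c k (√d)⁻¹) g (nz k, α) + coordsOf (((F k).map (G ∘ hd)).prod) α`; then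
`matrixTuple (toLp 2 (Y g)) k = evA G (Xt F c k)` (`herm_add`, `herm_smul`, `herm_coordsOf`,
`isHermitian_prod`), so `matrixMoment _ w = d⁻¹ Tr (evA G (wordEval (Xt F c) w))`.  By `gue_norm`
(finitely many letters) and `gue_conv` (finitely many words of length `≤ m`,
`List.finite_length_le`), for large `d` the event `toLp 2 (Y g) ∈ microstates …` has probability
`≥ 1/2` (`toEuclideanCLM` is a ⋆-algebra homomorphism, the norm is submultiplicative).
Transport along `Equiv.sumProdDistrib` (`measurePreserving_piCongrLeft`) and apply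
`gauss_shift_le` (`measurableSet_microstates`, `PiLp.volume_preserving_toLp`):
`1/2 ≤ ∏_k (√d / c k)^{d²} · vol`, i.e.
`d⁻² log vol + (n/2) log d ≥ ∑ log (c k) - log 2` for large `d`.  So
`chiCutoff R ≥ ∑ log (c k) - log 2 > ⊥` (`le_limsup_of_frequently_le`). -/
theorem bot_lt_chi {n : ℕ} (F : Fin n → List (Fin n)) (hF : ∀ k, (F k).reverse = F k)
    (c : Fin n → ℝ) (hc : ∀ k, 0 < c k) : ⊥ < chi tau0 (Xt F c) := by
  obtain ⟨R, hR⟩ : ∃ R : ℝ, R = ∑ k, (16 ^ (F k).length + c k * 16) + 1 := ⟨_, rfl⟩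
  have hR0 : 0 < R := by
    have : (0 : ℝ) ≤ ∑ k, (16 ^ (F k).length + c k * 16) :=
      Finset.sum_nonneg fun k _ => by have := hc k; positivity
    linarith
  have key : ((∑ k, Real.log (c k) - Real.log 2 : ℝ) : EReal) ≤ chiCutoff tau0 (Xt F c) R := by
    unfold chiCutoff
    refine le_iInf fun m => le_iInf fun ε => le_iInf fun hε => ?_
    refine lower_limsup ?_
    filter_upwards [lower_prob F c hF hc m hε, eventually_gt_atTop 0] with d h1 hd0
    rw [← hR] at h1
    have h2 := h1.trans (lower_shift F c d hc hd0 (measurableSet_microstates _ _ _ _ _ _))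
    exact lower_log c d hc hd0 h2
  exact (EReal.bot_lt_coe _).trans_le (key.trans (lower_le_chi _ _ hR0))

end Crest.Agent.R89
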