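import Crest.Agent.R89.Inner

/-!
# R89: the C⋆-algebra of a free semicircular system
-/

set_option autoImplicit false
open scoped InnerProductSpace BigOperators
open MeasureTheory Filter Topology Crest.OpAlg

namespace Crest.Agent.R89

section Model
variable {I : Type} [DecidableEq I]

omit [DecidableEq I] in
theorem Model_mem (i : I) (f : Hil I) : Memℓp (fun w : List I => f (i :: w)) 2 := by
  have h := lp.memℓp f
  rw [memℓp_gen_iff (by norm_num)] at h ⊢
  exact h.comp_injective (List.cons_injective (a := i))

/-- The annihilation operator on `ℓ²`, as a linear map. -/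
noncomputable def Model_annL (i : I) : Hil I →ₗ[ℂ] Hil I where
  toFun f := ⟨fun w => f (i :: w), Model_mem i f⟩
  map_add' f g := by ext w; rfl
  map_smul' c f := by ext w; rfl

omit [DecidableEq I] in
theorem Model_annL_apply (i : I) (f : Hil I) (w : List I) : Model_annL i f w = f (i :: w) := rfl

theorem Model_norm_annL_le (i : I) (f : Hil I) : ‖Model_annL i f‖ ≤ 1 * ‖f‖ := by
  rw [one_mul]
  refine lp.norm_le_of_forall_sum_le (by norm_num) (norm_nonneg _) fun s => ?_
  have h := lp.sum_rpow_le_norm_rpow (p := 2) (by norm_num) f (s.image (List.cons i))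
  rw [Finset.sum_image fun x _ y _ hxy => List.cons_injective hxy] at h
  exact h

/-- The annihilation operator on `ℓ²`. -/
noncomputable def Model_an (i : I) : Hil I →L[ℂ] Hil I :=
  (Model_annL i).mkContinuous 1 (Model_norm_annL_le i)

theorem Model_an_apply (i : I) (f : Hil I) (w : List I) : Model_an i f w = f (i :: w) := rfl

theorem Model_dense : Dense (Set.range (emb (I := I))) := by
  intro f
  have h := lp.hasSum_single (p := 2) (by norm_num) f
  refine mem_closure_of_tendsto h (Filter.Eventually.of_forall fun s => ?_)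
  refine ⟨∑ w ∈ s, f w • wd w, ?_⟩
  rw [map_sum]
  refine Finset.sum_congr rfl fun w _ => ?_
  rw [map_smul, emb_wd, ← lp.single_smul, smul_eq_mul, mul_one]

theorem Model_an_emb (i : I) (ξ : T I) : Model_an i (emb ξ) = emb (ann i ξ) := by
  have : (Model_an i : Hil I →ₗ[ℂ] Hil I) ∘ₗ emb = emb ∘ₗ ann i := by
    refine lin_ext fun w => ?_
    change Model_an i (emb (wd w)) = emb (ann i (wd w))
    ext v
    rw [Model_an_apply, emb_wd, lp.single_apply]
    cases w with
    | nil => simp
    | cons j w =>
      rw [ann_wd_cons]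
      by_cases h : j = i
      · subst h
        rw [if_pos rfl, emb_wd, lp.single_apply]
        by_cases hv : v = w
        · subst hv; simp
        · simp [hv]
      · simp [h, Ne.symm h]
  exact LinearMap.congr_fun this ξ

theorem Model_adj_emb (i : I) (ξ : T I) :
    ContinuousLinearMap.adjoint (Model_an i) (emb ξ) = emb (lt i * ξ) := by
  refine Model_dense.eq_of_inner_left ℂ ?_
  rintro _ ⟨η, rfl⟩
  rw [ContinuousLinearMap.adjoint_inner_left, Model_an_emb, inner_lt_mul]

/-- The semicircular operator on `ℓ²`. -/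
noncomputable def Model_S (i : I) : Hil I →L[ℂ] Hil I := Model_an i + star (Model_an i)

theorem Model_S_sa (i : I) : IsSelfAdjoint (Model_S i) := IsSelfAdjoint.add_star_self _

theorem Model_S_emb (i : I) (ξ : T I) : Model_S i (emb ξ) = emb (sT i ξ) := by
  rw [Model_S, add_apply, ContinuousLinearMap.star_eq_adjoint, Model_adj_emb,
    Model_an_emb, sT_apply, map_add, add_comm]

theorem Model_ev_emb (Q ξ : T I) : evA Model_S Q (emb ξ) = emb (act Q ξ) := by
  induction Q using T_ind with
  | zero => simp
  | add a b ha hb => simp only [map_add, add_apply, LinearMap.add_apply, ha, hb]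
  | smul c a ha => simp only [map_smul, smul_apply, LinearMap.smul_apply, ha]
  | word w =>
    induction w with
    | nil => simp
    | cons i w ih =>
      rw [act_wd_cons, wd_cons, map_mul, evA_lt, mul_apply_eq_comp, ih, Model_S_emb]

theorem Model_star_ev (Q : T I) : ∃ Q' : T I, evA Model_S Q' = star (evA (Model_S (I := I)) Q) := by
  induction Q using T_ind with
  | zero => exact ⟨0, by simp⟩
  | add a b ha hb =>
    obtain ⟨a', ha⟩ := ha
    obtain ⟨b', hb⟩ := hb
    exact ⟨a' + b', by rw [map_add, map_add, star_add, ha, hb]⟩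
  | smul c a ha =>
    obtain ⟨a', ha⟩ := ha
    exact ⟨star c • a', by rw [map_smul, map_smul, star_smul, ha]⟩
  | word w =>
    induction w with
    | nil => exact ⟨1, by simp⟩
    | cons i w ih =>
      obtain ⟨a, ha⟩ := ih
      refine ⟨a * lt i, ?_⟩
      rw [wd_cons, map_mul, map_mul, star_mul, ha, evA_lt, (Model_S_sa i).star_eq]

/-- The polynomial algebra in the semicircular operators. -/
noncomputable def Model_B (I : Type) [DecidableEq I] : StarSubalgebra ℂ (Hil I →L[ℂ] Hil I) where
  toSubalgebra := (evA (Model_S (I := I))).range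
  star_mem' := by
    rintro _ ⟨Q, rfl⟩
    exact Model_star_ev Q

/-- The vacuum state on all bounded operators. -/
noncomputable def Model_tau (a : Hil I →L[ℂ] Hil I) : ℂ := ⟪emb (1 : T I), a (emb 1)⟫_ℂ

theorem Model_tau_cont : Continuous (Model_tau (I := I)) := by
  unfold Model_tau
  fun_prop

theorem Model_tau_ev (Q : T I) : Model_tau (evA Model_S Q) = tau0 Q := by
  rw [Model_tau, Model_ev_emb, inner_emb_one, tau0_apply]

theorem Model_tau_star_mul (a : Hil I →L[ℂ] Hil I) :
    Model_tau (star a * a) = ((‖a (emb 1)‖ ^ 2 : ℝ) : ℂ) := by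
  rw [Model_tau, mul_apply_eq_comp, ContinuousLinearMap.star_eq_adjoint,
    ContinuousLinearMap.adjoint_inner_right, inner_self_eq_norm_sq_to_K]
  simp

theorem Model_tau_comm {a b : Hil I →L[ℂ] Hil I} (ha : a ∈ (Model_B I).topologicalClosure)
    (hb : b ∈ (Model_B I).topologicalClosure) : Model_tau (a * b) = Model_tau (b * a) := by
  have h1 : ∀ Q : T I, Model_tau (a * evA Model_S Q) = Model_tau (evA Model_S Q * a) := by
    intro Q
    refine Set.EqOn.closure (s := (Model_B I : Set (Hil I →L[ℂ] Hil I)))
      (f := fun a => Model_tau (a * evA Model_S Q)) (g := fun a => Model_tau (evA Model_S Q * a))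
      ?_ (Model_tau_cont.comp (continuous_mul_const _))
      (Model_tau_cont.comp (continuous_const_mul _)) ha
    rintro _ ⟨P, rfl⟩
    change Model_tau (evA Model_S P * evA Model_S Q) = Model_tau (evA Model_S Q * evA Model_S P)
    rw [← map_mul, ← map_mul, Model_tau_ev, Model_tau_ev, tau0_comm]
  refine Set.EqOn.closure (s := (Model_B I : Set (Hil I →L[ℂ] Hil I)))
    (f := fun b => Model_tau (a * b)) (g := fun b => Model_tau (b * a))
    ?_ (Model_tau_cont.comp (continuous_const_mul _))
    (Model_tau_cont.comp (continuous_mul_const _)) hb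
  rintro _ ⟨Q, rfl⟩
  exact h1 Q

theorem Model_star_vac {a : Hil I →L[ℂ] Hil I} (ha : a ∈ (Model_B I).topologicalClosure)
    (h : a (emb 1) = 0) : star a (emb 1) = 0 := by
  have h1 := Model_tau_star_mul (star a)
  rw [star_star, Model_tau_comm ha (star_mem ha), Model_tau_star_mul, h] at h1
  have h2 : ‖star a (emb (1 : T I))‖ ^ 2 = 0 := by
    have := Complex.ofReal_injective h1
    rw [← this]; simp
  simpa using h2

theorem Model_faithful {a : Hil I →L[ℂ] Hil I} (ha : a ∈ (Model_B I).topologicalClosure)
    (h : a (emb 1) = 0) : a = 0 := by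
  have h1 := Model_star_vac ha h
  have h2 : ∀ ξ : T I, a (emb ξ) = 0 := by
    intro ξ
    obtain ⟨Q, rfl⟩ := act_one_surjective ξ
    have hb : evA Model_S Q ∈ (Model_B I).topologicalClosure :=
      (Model_B I).le_topologicalClosure ⟨Q, rfl⟩
    have h3 : star (a * evA Model_S Q) (emb 1) = 0 := by
      rw [star_mul, mul_apply_eq_comp, h1, map_zero]
    have h4 := Model_star_vac (star_mem (mul_mem ha hb)) h3
    rwa [star_star, mul_apply_eq_comp, Model_ev_emb] at h4
  ext1 f
  refine Set.EqOn.closure (s := Set.range (emb (I := I))) (f := a) (g := fun _ => 0) ?_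
    a.continuous continuous_const (Model_dense f)
  rintro _ ⟨ξ, rfl⟩
  exact h2 ξ

end Model

/-- The C⋆-algebra generated by the semicircular operators on the full Fock space.

Proof.  `H = Hil I = ℓ²(List I)`.  For a letter `i` the annihilation operator
`a_i f = fun w => f (i :: w)` is a contraction of `H` (summability via
`Summable.comp_injective`, or `memℓp_gen'` + `lp.norm_le_of_forall_sum_le` with
`Finset.sum_map`/`sum_image`).  Put `S i = a_i + adjoint a_i : H →L[ℂ] H` (self-adjoint).
* `emb` has dense range (`lp.hasSum_single`, `lp.single 2 w c = c • emb (wd w)`).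
* `a_i (emb ξ) = emb (ann i ξ)` (check on words, `lin_ext`), hence
  `adjoint a_i (emb ξ) = emb (lt i * ξ)` (test against the dense range, `inner_lt_mul`), so
  `S i (emb ξ) = emb (sT i ξ)` and `evA S Q (emb ξ) = emb (act Q ξ)` (`T_ind`, `act_wd_cons`).
* `A = (StarAlgebra.adjoin ℂ (Set.range S)).topologicalClosure` (a closed `StarSubalgebra` of
  `H →L[ℂ] H`, so a `CStarAlgebra`), `ev = (evA S).codRestrict`, `τ a = ⟪Ω, a Ω⟫`, `Ω = emb 1`;
  `τ (ev Q) = tau0 Q` by `inner_emb_one`.  The range of `ev` is dense in `A`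
  (`StarAlgebra.adjoin_induction`: the range of `evA S` is star-closed because
  `star (evA S (wd w)) = evA S (wd w.reverse)`).
* trace property: `tau0_comm` on the dense range, then continuity in each variable.
* `τ (a* a) = ‖a Ω‖²`.  Faithfulness: if `a Ω = 0`, then for `b ∈ A`
  `‖a b Ω‖² = τ(b* a* a b) = τ(a b b* a*) = ‖b* a* Ω‖² ≤ ‖b‖² ‖a* Ω‖² = ‖b‖² τ(a a*) = ‖b‖² τ(a* a) = 0`,
  and `{b Ω}` contains the range of `emb` (`act_one_surjective`), which is dense. -/
theorem exists_model (I : Type) [DecidableEq I] :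
    ∃ (A : Type) (_ : CStarAlgebra A) (τ : A →ₗ[ℂ] ℂ) (ev : T I →ₐ[ℂ] A),
      IsFaithfulTracialState τ ∧ (∀ i, IsSelfAdjoint (ev (lt i))) ∧ ∀ Q, τ (ev Q) = tau0 Q := by
  have : IsClosed ((Model_B I).topologicalClosure : Set (Hil I →L[ℂ] Hil I)) :=
    (Model_B I).isClosed_topologicalClosure
  refine ⟨(Model_B I).topologicalClosure, inferInstance,
    { toFun := fun a => Model_tau (a : Hil I →L[ℂ] Hil I)
      map_add' := fun a b => by simp [Model_tau]
      map_smul' := fun c a => by simp [Model_tau] },
    (evA (Model_S (I := I))).codRestrict (Model_B I).topologicalClosure.toSubalgebra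
      fun Q => (Model_B I).le_topologicalClosure ⟨Q, rfl⟩, ⟨?_, fun a => ?_, fun a ha => ?_,
      fun a b => ?_⟩, fun i => ?_, fun Q => Model_tau_ev Q⟩
  · change Model_tau 1 = 1
    rw [← map_one (evA (Model_S (I := I))), Model_tau_ev, tau0_one]
  · have h := Model_tau_star_mul a.1
    have h2 : (Model_tau (star a.1 * a.1)).im = 0 ∧ 0 ≤ (Model_tau (star a.1 * a.1)).re := by
      rw [h, Complex.ofReal_im, Complex.ofReal_re]
      exact ⟨rfl, by positivity⟩
    exact h2
  · have ha' : Model_tau (star a.1 * a.1) = 0 := ha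
    rw [Model_tau_star_mul, Complex.ofReal_eq_zero] at ha'
    exact Subtype.ext (Model_faithful a.2 (by simpa using ha'))
  · exact Model_tau_comm a.2 b.2
  · refine Subtype.ext ?_
    change star (evA (Model_S (I := I)) (lt i)) = evA (Model_S (I := I)) (lt i)
    rw [evA_lt, (Model_S_sa i).star_eq]

end Crest.Agent.R89
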