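import Crest.Agent.R89.Herm

/-!
# R89: upper bound for `χ`
-/

set_option autoImplicit false
open scoped InnerProductSpace BigOperators
open MeasureTheory Filter Topology Crest.OpAlg

namespace Crest.Agent.R89

theorem upper_shear {σ : Type} [Fintype σ] (p : σ → Prop) [DecidablePred p]
    (c : (σ → ℝ) → σ → ℝ) (hc : Measurable c)
    (hc0 : ∀ a s, p s → c a s = 0) (hc1 : ∀ a b, (∀ s, p s → a s = b s) → c a = c b) :
    MeasurePreserving (fun a : σ → ℝ => a - c a) := by
  let e := MeasurableEquiv.piEquivPiSubtypeProd (fun _ : σ => ℝ) p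
  have he : MeasurePreserving e := volume_preserving_piEquivPiSubtypeProd _ p
  let c' : (Subtype p → ℝ) → ({s // ¬ p s} → ℝ) := fun x s => c (e.symm (x, 0)) s
  have hc' : Measurable c' := measurable_pi_lambda _ fun s =>
    (measurable_pi_apply s.1).comp (hc.comp (e.symm.measurable.comp measurable_prodMk_right))
  have h1 := (MeasurePreserving.id (volume : Measure (Subtype p → ℝ))).skew_product
    (μc := (volume : Measure ({s // ¬ p s} → ℝ))) (μd := volume) (g := fun x y => y - c' x)
    (measurable_snd.sub (hc'.comp measurable_fst))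
    (Eventually.of_forall fun x => (measurePreserving_sub_right volume (c' x)).map_eq)
  have h2 := (he.symm e).comp (h1.comp he)
  convert h2 using 1
  funext a s
  have e1 : c (e.symm ((e a).1, 0)) = c a := hc1 _ _ fun s hs => dif_pos hs
  by_cases hs : p s
  · refine Eq.trans ?_ (dif_pos hs).symm
    rw [Pi.sub_apply, hc0 a s hs, sub_zero]
    rfl
  · refine Eq.trans ?_ (dif_neg hs).symm
    rw [Pi.sub_apply, ← e1]
    rfl

/-- A sheared Gaussian integral: split the coordinates along `p`
(`MeasurableEquiv.piEquivPiSubtypeProd`, `volume_preserving_piEquivPiSubtypeProd`), integrate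
first over the coordinates with `¬ p` (translation invariance, `lintegral_add_right_eq_self` or
coordinate-wise), then over the others; `∫ exp (-l x²) = √(π/l)` (`integral_gaussian`), products
via `integral_fintype_prod_eq_prod` / `lintegral` versions. -/
theorem lintegral_gauss_shear {σ : Type} [Fintype σ] (p : σ → Prop) [DecidablePred p]
    (l : σ → ℝ) (hl : ∀ s, 0 < l s) (c : (σ → ℝ) → σ → ℝ) (hc : Measurable c)
    (hc0 : ∀ a s, p s → c a s = 0) (hc1 : ∀ a b, (∀ s, p s → a s = b s) → c a = c b) :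
    ∫⁻ a : σ → ℝ, ENNReal.ofReal (Real.exp (-∑ s, l s * (a s - c a s) ^ 2)) =
      ENNReal.ofReal (∏ s, √(Real.pi / l s)) := by
  have h1 := (upper_shear p c hc hc0 hc1).lintegral_comp
    (f := fun a : σ → ℝ => ENNReal.ofReal (Real.exp (-∑ s, l s * a s ^ 2))) (by fun_prop)
  refine h1.trans ?_
  have e : ∀ a : σ → ℝ, Real.exp (-∑ s, l s * a s ^ 2) = ∏ s, Real.exp (-l s * a s ^ 2) := by
    intro a
    rw [← Real.exp_sum, ← Finset.sum_neg_distrib]
    simp only [neg_mul]
  simp only [e]
  have hi : Integrable (fun a : σ → ℝ => ∏ s, Real.exp (-l s * a s ^ 2)) volume :=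
    Integrable.fintype_prod (f := fun s x => Real.exp (-l s * x ^ 2))
      fun s => integrable_exp_neg_mul_sq (hl s)
  rw [← ofReal_integral_eq_lintegral_ofReal hi
    (Eventually.of_forall fun a => Finset.prod_nonneg fun s _ => (Real.exp_pos _).le)]
  congr 1
  exact (integral_fintype_prod_volume_eq_prod (fun s x => Real.exp (-l s * x ^ 2))).trans
    (Finset.prod_congr rfl fun s _ => integral_gaussian _)

theorem upper_word {A : Type*} [Ring A] [Algebra ℂ A] {n : ℕ} (X : Fin n → A) (w : List (Fin n)) :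
    wordEval X (FreeMonoid.ofList w) = (w.map X).prod := FreeMonoid.lift_ofList _ _

theorem upper_moment {A : Type*} [Ring A] [Algebra ℂ A] {n : ℕ} {τ : A →ₗ[ℂ] ℂ} {X : Fin n → A}
    {R ε : ℝ} {m d : ℕ} {a : EuclideanSpace ℝ (Fin n × (Fin d × Fin d))}
    (ha : a ∈ microstates τ X R m d ε) {w : List (Fin n)} (hw : w.length ≤ m) :
    |((d : ℂ)⁻¹ * Matrix.trace (w.map (matrixTuple a)).prod).re - (τ (w.map X).prod).re| < ε := by
  have h := ha.2 (FreeMonoid.ofList w) hw
  rw [matrixMoment, upper_word, upper_word] at h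
  rw [← Complex.sub_re]
  exact (Complex.abs_re_le_norm _).trans_lt h

/-- the centre of the sheared Gaussian -/
noncomputable def upper_c {n d : ℕ} (B : Fin n → Prop) [DecidablePred B]
    (G : Fin n → List (Fin n)) (a : Fin n × (Fin d × Fin d) → ℝ) : Fin n × (Fin d × Fin d) → ℝ :=
  fun s => if B s.1 then 0 else
    coordsOf ((G s.1).map fun l => hermitianOfCoords (WithLp.toLp 2 fun p => a (l, p))).prod s.2

theorem upper_c_cont {n d : ℕ} (B : Fin n → Prop) [DecidablePred B] (G : Fin n → List (Fin n)) :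
    Continuous (upper_c (d := d) B G) := by
  refine continuous_pi fun s => ?_
  unfold upper_c
  split_ifs
  · exact continuous_const
  · refine (continuous_apply s.2).comp (continuous_coordsOf.comp
      (continuous_list_prod _ fun l _ => continuous_herm.comp ?_))
    fun_prop

theorem upper_sq_le {A : Type*} [Ring A] [Algebra ℂ A] {n : ℕ} {τ : A →ₗ[ℂ] ℂ} {X : Fin n → A}
    {B : Fin n → Prop} [DecidablePred B] {G : Fin n → List (Fin n)}
    (hG : ∀ k, ¬ B k → (G k).reverse = G k ∧ ∀ l ∈ G k, B l) {v : Fin n → ℝ} {R ε : ℝ}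
    (hε : 0 < ε) (hv1 : ∀ k, B k → (τ (X k * X k)).re + 4 * ε < v k)
    (hv2 : ∀ k, ¬ B k →
      (τ ((X k - ((G k).map X).prod) * (X k - ((G k).map X).prod))).re + 4 * ε < v k)
    {m d : ℕ} (hd : 0 < d) (hm : ∀ k, 2 + 2 * (G k).length ≤ m)
    {a : EuclideanSpace ℝ (Fin n × (Fin d × Fin d))} (ha : a ∈ microstates τ X R m d ε)
    (k : Fin n) : ∑ α, (a (k, α) - upper_c B G a.ofLp (k, α)) ^ 2 ≤ d * v k := by
  have hd' : (0 : ℝ) < d := by exact_mod_cast hd
  have hre : ∀ x : ℝ, ((d : ℂ)⁻¹ * (x : ℂ)).re = (d : ℝ)⁻¹ * x := fun x => by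
    rw [← Complex.ofReal_natCast, ← Complex.ofReal_inv, ← Complex.ofReal_mul, Complex.ofReal_re]
  have hmk := hm k
  have h1 := abs_lt.1 (upper_moment ha (w := [k, k]) (by simp; omega))
  simp only [List.map_cons, List.map_nil, List.prod_cons, List.prod_nil, mul_one] at h1
  rw [← inv_mul_le_iff₀ hd']
  by_cases hk : B k
  · have h2 := hv1 k hk
    rw [matrixTuple, trace_herm_mul_self, hre] at h1
    simp only [upper_c, if_pos hk, sub_zero]
    linarith [h1.2]
  · have h2 := hv2 k hk
    have h3 := abs_lt.1 (upper_moment ha (w := k :: G k) (by simp; omega))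
    have h4 := abs_lt.1 (upper_moment ha (w := G k ++ [k]) (by simp; omega))
    have h5 := abs_lt.1 (upper_moment ha (w := G k ++ G k) (by simp; omega))
    simp only [List.map_cons, List.map_nil, List.prod_cons, List.prod_nil, mul_one,
      List.map_append, List.prod_append] at h3 h4 h5
    have hW : ((G k).map (matrixTuple a)).prod.IsHermitian :=
      isHermitian_prod _ (fun l => herm_isHermitian _) (hG k hk).1
    have h6 := trace_herm_mul_self ((WithLp.toLp 2 fun p => a (k, p)) -
      WithLp.toLp 2 (coordsOf ((G k).map (matrixTuple a)).prod))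
    rw [herm_sub, herm_coordsOf hW] at h6
    have h7 := congrArg (fun z : ℂ => ((d : ℂ)⁻¹ * z).re) h6
    simp only [hre] at h7
    change ((d : ℂ)⁻¹ * ((matrixTuple a k - _) * (matrixTuple a k - _)).trace).re = _ at h7
    simp only [mul_sub, sub_mul, Matrix.trace_sub, map_sub, Complex.sub_re] at h7 h2
    have e : ∑ α, (a (k, α) - upper_c B G a.ofLp (k, α)) ^ 2 =
        ∑ α, ((WithLp.toLp 2 fun p => a (k, p)) -
          WithLp.toLp 2 (coordsOf ((G k).map (matrixTuple a)).prod) :
            EuclideanSpace ℝ (Fin d × Fin d)) α ^ 2 := by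
      refine Finset.sum_congr rfl fun α _ => ?_
      simp only [upper_c, if_neg hk]
      rfl
    rw [e, ← h7]
    linarith [h1.2, h3.1, h4.1, h5.2]

/-- Upper bound for the microstates free entropy of a tuple whose non-base coordinates are close
to palindromic words in the base coordinates.

Proof.  Fix `R`.  Take `m` at least `2 + 2 · max (G k).length` and `ε > 0` so small that
`4 ε` is at most every gap in `hv1`, `hv2`.  For `d ≥ 1` and `a ∈ microstates τ X R m d ε` put
`Y = matrixTuple a`, `c a (k, α) = 0` for base `k`, `coordsOf (((G k).map Y).prod) α` otherwise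
(a continuous function of the base coordinates).  Expanding
`(Y k - W)(Y k - W)` into the four words `kk`, `kG`, `Gk`, `GG` and using `herm_coordsOf`,
`isHermitian_prod`, `herm_sub`, `trace_herm_mul_self` gives
`∑_α (a (k, α) - c a (k, α))² ≤ d · v k`.  With `l (k, α) = d / (2 v k)` the indicator of the
microstate set is at most `exp (n d²/2) · exp (-∑ l (a - c a)²)`, so by `lintegral_gauss_shear`
(and `PiLp.volume_preserving_toLp`/`ofLp`) its volume is at most
`exp (n d²/2) ∏_k (2π v k / d)^{d²/2}`; hence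
`d⁻² log vol + (n/2) log d ≤ ∑_k ½ log (2πe v k)` for all `d ≥ 1` (`limsup_le_of_le`). -/
theorem chi_le {A : Type*} [Ring A] [Algebra ℂ A] {n : ℕ} (τ : A →ₗ[ℂ] ℂ) (X : Fin n → A)
    (B : Fin n → Prop) (G : Fin n → List (Fin n))
    (hG : ∀ k, ¬ B k → (G k).reverse = G k ∧ ∀ l ∈ G k, B l) (v : Fin n → ℝ) (hv : ∀ k, 0 < v k)
    (hv1 : ∀ k, B k → (τ (X k * X k)).re < v k)
    (hv2 : ∀ k, ¬ B k →
      (τ ((X k - ((G k).map X).prod) * (X k - ((G k).map X).prod))).re < v k) :
    chi τ X ≤ ((∑ k, 1 / 2 * Real.log (2 * Real.pi * Real.exp 1 * v k) : ℝ) : EReal) := by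
  classical
  obtain ⟨ε, hε, hε1, hε2⟩ : ∃ ε : ℝ, 0 < ε ∧ (∀ k, B k → (τ (X k * X k)).re + 4 * ε < v k) ∧
      ∀ k, ¬ B k →
        (τ ((X k - ((G k).map X).prod) * (X k - ((G k).map X).prod))).re + 4 * ε < v k := by
    have key : ∀ (P : Prop) (x y : ℝ), (P → x < y) → ∀ᶠ ε in 𝓝[>] (0 : ℝ), P → x + 4 * ε < y := by
      intro P x y h
      by_cases hP : P
      · filter_upwards [Ioo_mem_nhdsGT (show (0 : ℝ) < (y - x) / 4 by linarith [h hP])]
          with ε hε _
        linarith [hε.2]
      · exact Eventually.of_forall fun _ h => (hP h).elim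
    exact (eventually_mem_nhdsWithin.and ((eventually_all.2 fun k => key _ _ _ (hv1 k)).and
      (eventually_all.2 fun k => key _ _ _ (hv2 k)))).exists
  refine iSup₂_le fun R _ => iInf_le_of_le (2 + 2 * ∑ k, (G k).length)
    (iInf₂_le_of_le ε hε (limsup_le_of_le (h := ?_)))
  filter_upwards [eventually_gt_atTop 0] with d hd
  have hd' : (0 : ℝ) < d := by exact_mod_cast hd
  have hm : ∀ k, 2 + 2 * (G k).length ≤ 2 + 2 * ∑ k, (G k).length := fun k => by
    have := Finset.single_le_sum (f := fun k => (G k).length) (fun _ _ => Nat.zero_le _)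
      (Finset.mem_univ k)
    omega
  have hl : ∀ s : Fin n × (Fin d × Fin d), 0 < (d : ℝ) / (2 * v s.1) := fun s => by
    have := hv s.1
    positivity
  have hcm := (upper_c_cont (d := d) B G).measurable
  have hint := lintegral_gauss_shear (fun s : Fin n × (Fin d × Fin d) => B s.1)
    (fun s => (d : ℝ) / (2 * v s.1)) hl (upper_c B G) hcm (fun a s hs => if_pos hs)
    (fun a b hab => by
      funext s
      unfold upper_c
      split_ifs with hs
      · rfl
      · congr 2
        refine List.map_congr_left fun l hl => ?_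
        congr 2
        funext p
        exact hab (l, p) ((hG _ hs).2 l hl))
  have hF : Measurable fun a : Fin n × (Fin d × Fin d) → ℝ => ENNReal.ofReal
      (Real.exp (-∑ s, (d : ℝ) / (2 * v s.1) * (a s - upper_c B G a s) ^ 2)) := by
    fun_prop
  have hvol : volume (microstates τ X R (2 + 2 * ∑ k, (G k).length) d ε) ≤
      ENNReal.ofReal (Real.exp (n * d ^ 2 / 2) *
        ∏ s : Fin n × (Fin d × Fin d), √(Real.pi / (d / (2 * v s.1)))) := by
    rw [ENNReal.ofReal_mul (Real.exp_pos _).le, ← hint,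
      ← (PiLp.volume_preserving_ofLp _).lintegral_comp hF,
      ← lintegral_const_mul' _ _ ENNReal.ofReal_ne_top]
    refine meas_le_lintegral₀ ((hF.comp
      (PiLp.volume_preserving_ofLp _).measurable).const_mul _).aemeasurable fun a ha => ?_
    rw [Function.comp_apply, ← ENNReal.ofReal_mul (Real.exp_pos _).le, ← Real.exp_add,
      ENNReal.one_le_ofReal, Real.one_le_exp_iff, Fintype.sum_prod_type]
    have h1 : ∀ k : Fin n, ∑ α : Fin d × Fin d, (d : ℝ) / (2 * v k) *
        (a.ofLp (k, α) - upper_c B G a.ofLp (k, α)) ^ 2 ≤ (d : ℝ) ^ 2 / 2 := fun k => by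
      rw [← Finset.mul_sum]
      have h2 := mul_le_mul_of_nonneg_left (upper_sq_le hG hε hε1 hε2 hd hm ha k)
        (hl (k, ⟨0, hd⟩, ⟨0, hd⟩)).le
      refine h2.trans (le_of_eq ?_)
      have := hv k
      field_simp
    have h3 := Finset.sum_le_card_nsmul Finset.univ _ _ fun k _ => h1 k
    simp only [Finset.card_univ, Fintype.card_fin, nsmul_eq_mul] at h3
    linarith
  have hpos : ∀ s : Fin n × (Fin d × Fin d), 0 < √(Real.pi / (d / (2 * v s.1))) := fun s =>
    Real.sqrt_pos.2 (div_pos Real.pi_pos (hl s))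
  have hlog := ENNReal.log_le_log hvol
  rw [ENNReal.log_ofReal_of_pos (mul_pos (Real.exp_pos _) (Finset.prod_pos fun s _ => hpos s))]
    at hlog
  refine (add_le_add_left (mul_le_mul_of_nonneg_left hlog
    (EReal.coe_nonneg.2 (by positivity))) _).trans (le_of_eq ?_)
  rw [← EReal.coe_mul, ← EReal.coe_add, EReal.coe_eq_coe_iff,
    Real.log_mul (Real.exp_pos _).ne' (Finset.prod_pos fun s _ => hpos s).ne', Real.log_exp,
    Real.log_prod fun s _ => (hpos s).ne', Fintype.sum_prod_type]
  have e1 : ∀ k : Fin n, ∑ _α : Fin d × Fin d, Real.log √(Real.pi / (d / (2 * v k))) =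
      d ^ 2 * (1 / 2 * Real.log (2 * Real.pi * Real.exp 1 * v k) - (1 + Real.log d) / 2) := by
    intro k
    have hvk := hv k
    have e2 : Real.pi / (d / (2 * v k)) = 2 * Real.pi * Real.exp 1 * v k / (Real.exp 1 * d) := by
      field_simp
    rw [Finset.sum_const, Finset.card_univ, Fintype.card_prod, Fintype.card_fin, nsmul_eq_mul,
      Real.log_sqrt (by positivity), e2, Real.log_div (by positivity) (by positivity),
      Real.log_mul (x := Real.exp 1) (by positivity) hd'.ne', Real.log_exp]
    push_cast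
    ring
  simp only [e1, ← Finset.mul_sum, Finset.sum_sub_distrib, Finset.sum_const, Finset.card_univ,
    Fintype.card_fin, nsmul_eq_mul]
  field_simp
  ring

end Crest.Agent.R89
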