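import Crest.Agent.R89.Mom
import Crest.Agent.R89.Model
import Crest.Agent.R89.Free
import Crest.Agent.R89.Upper
import Crest.Agent.R89.Lower

/-!
# R89: the gap between the two free entropies
-/

set_option autoImplicit false
open scoped InnerProductSpace BigOperators
open MeasureTheory Crest.OpAlg

namespace Crest.Agent.R89

variable {m n : ℕ} (e : Kx m ≃ Fin n)

theorem cx_pos {L : ℝ} (hL : 0 < L) (k : Fin n) : 0 < cx e L k := by
  obtain ⟨j, rfl⟩ := e.surjective k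
  rcases j with b | x <;> simp [hL]

theorem cx_le {L : ℝ} (hL : 1 ≤ L) (k : Fin n) : cx e L k ≤ L := by
  obtain ⟨j, rfl⟩ := e.surjective k
  rcases j with b | x
  · rw [cx_inl]; linarith
  · rw [cx_inr]

theorem chi_example (L : ℝ) :
    chi tau0 (Xt (Fx e) (cx e L)) ≤ ((m * Real.log (2 * Real.pi * Real.exp 1 * 2) +
      (m : ℝ) ^ 2 / 2 * Real.log (2 * Real.pi * Real.exp 1 * (L ^ 2 + 1 / 20)) : ℝ) : EReal) := by
  refine (chi_le tau0 (Xt (Fx e) (cx e L)) (fun k => (e.symm k).isLeft) (Fx e) (fun k hk => ?_)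
    (fun k => if (e.symm k).isLeft then 2 else L ^ 2 + 1 / 20) (fun k => ?_) (fun k hk => ?_)
    (fun k hk => ?_)).trans (le_of_eq ?_)
  · refine ⟨Fx_reverse e k, ?_⟩
    obtain ⟨j, rfl⟩ := e.surjective k
    rcases j with b | ⟨p, q⟩
    · simp at hk
    · simp [ia, ib]
  · split_ifs <;> positivity
  · have := tau0_heat_sq e (cx e L) le_rfl k
    rw [heat_zero] at this
    rw [this, if_pos hk]
    obtain ⟨j, rfl⟩ := e.surjective k
    rcases j with b | x
    · rw [cx_inl]; norm_num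
    · simp at hk
  · rw [if_neg hk]
    obtain ⟨j, rfl⟩ := e.surjective k
    rcases j with b | ⟨p, q⟩
    · simp at hk
    · exact tau0_residual e L p q
  · congr 1
    rw [sum_Kx e]
    simp
    ring

theorem gap_example {L : ℝ} (hL : 2 ^ 34 ≤ L) (hm : (m : ℝ) = 256 * L ^ 2) :
    IntegrableOn (fun s : ℝ => (n : ℝ) / (1 + s) -
        (freeFisher tau0 (heatTuple (Xt (Fx e) (cx e L)) St s)).toReal) (Set.Ioi 0) ∧
      chi tau0 (Xt (Fx e) (cx e L)) ≤
        ((chiStar tau0 (Xt (Fx e) (cx e L)) St - 1 / 2 : ℝ) : EReal) := by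
  have hL0 : 0 < L := lt_of_lt_of_le (by positivity) hL
  have hL1 : 1 ≤ L := le_trans (by norm_num) hL
  obtain ⟨h1, h2⟩ := chiStar_ge tau0 tau0_one (Xt (Fx e) (cx e L)) St (fun k => cx e L k ^ 2)
    (fun k => pow_pos (cx_pos e hL0 k) 2) (N := (m : ℝ) ^ 2 / 4) (σ := L ^ 2) (s₁ := 2 ^ 30)
    (V := 1 + L ^ 2) (by positivity) (by positivity) (by positivity)
    (fun s hs k => by
      rw [tau0_heat_sq e _ hs.le]
      have := pow_le_pow_left₀ (cx_pos e hL0 k).le (cx_le e hL1 k) 2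
      linarith)
    (fun s hs => (freeFisher_example e hL hm.le hs).1)
    (fun s hs => (freeFisher_example e hL hm.le hs).2)
  refine ⟨h1, (chi_example e L).trans ?_⟩
  rw [EReal.coe_le_coe_iff]
  refine le_trans ?_ (sub_le_sub_right h2 _)
  have hn : (n : ℝ) = 2 * m + (m : ℝ) ^ 2 := by
    have := Fintype.card_congr e
    simp only [Fintype.card_sum, Fintype.card_fin, Fintype.card_prod] at this
    rw [← this]
    push_cast
    ring
  have hsum : ∑ k, Real.log (cx e L k ^ 2) =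
      2 * m * (-(8 * Real.log 2)) + (m : ℝ) ^ 2 * Real.log (L ^ 2) := by
    have : Real.log ((1 / 16 : ℝ) ^ 2) = -(8 * Real.log 2) := by
      rw [show ((1 / 16 : ℝ) ^ 2) = (2 ^ 8)⁻¹ by norm_num, Real.log_inv, Real.log_pow]
      norm_num
    rw [sum_Kx e]
    simp only [cx_inl, cx_inr, this, Finset.sum_const, Finset.card_univ, Fintype.card_sum,
      Fintype.card_fin, Fintype.card_prod, nsmul_eq_mul]
    push_cast
    ring
  have hc : 0 < 2 * Real.pi * Real.exp 1 := by positivity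
  have hL2 : 0 < L ^ 2 := by positivity
  have hlog : Real.log (L ^ 2 + 1 / 20) ≤ Real.log (L ^ 2) + 1 / (20 * L ^ 2) := by
    have e1 : L ^ 2 + 1 / 20 = L ^ 2 * (1 + 1 / (20 * L ^ 2)) := by field_simp
    rw [e1, Real.log_mul hL2.ne' (by positivity)]
    have := Real.log_le_sub_one_of_pos (by positivity : 0 < 1 + 1 / (20 * L ^ 2))
    linarith
  have hm1 : (1 : ℝ) ≤ m := by nlinarith
  have h3 : (m : ℝ) ^ 2 / 2 * (1 / (20 * L ^ 2)) = 32 / 5 * m := by
    rw [sq (m : ℝ)]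
    nth_rewrite 2 [hm]
    field_simp
    ring
  have h4 : 32 * (m : ℝ) ≤ (m : ℝ) ^ 2 / 4 / (L ^ 2 + 2 ^ 30) := by
    rw [le_div_iff₀ (by positivity), sq (m : ℝ)]
    nth_rewrite 3 [hm]
    have : (2 : ℝ) ^ 30 ≤ L ^ 2 := by nlinarith
    nlinarith
  have h5 := mul_le_mul_of_nonneg_left hlog (by positivity : 0 ≤ (m : ℝ) ^ 2 / 2)
  have h6 : Real.log 2 ≤ 7 / 10 := by linarith [Real.log_two_lt_d9]
  have h7 := mul_le_mul_of_nonneg_left h6 (by positivity : 0 ≤ (m : ℝ))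
  rw [hsum, hn, Real.log_mul hc.ne' two_ne_zero, Real.log_mul hc.ne' (by positivity)]
  nlinarith

theorem star_ev_wd {I A : Type} [Ring A] [StarRing A] [Algebra ℂ A] (ev : T I →ₐ[ℂ] A)
    (h : ∀ i, IsSelfAdjoint (ev (lt i))) (w : List I) : star (ev (wd w)) = ev (wd w.reverse) := by
  induction w with
  | nil => simp
  | cons i w ih =>
    rw [wd_cons, map_mul, star_mul, ih, (h i).star_eq, List.reverse_cons, wd_append, map_mul]
    rfl

theorem main :
    ∃ (A : Type) (_ : CStarAlgebra A) (τ : A →ₗ[ℂ] ℂ) (n : ℕ) (X S : Fin n → A),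
      IsFaithfulTracialState τ ∧ 2 ≤ n ∧ (∀ i, IsSelfAdjoint (X i)) ∧
      IsStandardSemicircular τ S ∧ IsFreeFamily τ (withNoise X S) ∧
      (∀ s : ℝ, 0 < s → freeFisher τ (heatTuple X S s) < ⊤) ∧
      IntegrableOn (fun s : ℝ => (n : ℝ) / (1 + s) - (freeFisher τ (heatTuple X S s)).toReal)
        (Set.Ioi 0) ∧
      ⊥ < chi τ X ∧ chi τ X ≤ ((chiStar τ X S - 1 / 2 : ℝ) : EReal) := by
  obtain ⟨L, hL⟩ : ∃ L : ℕ, 2 ^ 34 ≤ L := ⟨_, le_rfl⟩
  obtain ⟨m, hm⟩ : ∃ m : ℕ, m = 256 * L ^ 2 := ⟨_, rfl⟩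
  obtain ⟨n, ⟨e⟩⟩ : ∃ n : ℕ, Nonempty (Kx m ≃ Fin n) := ⟨_, ⟨Fintype.equivFin _⟩⟩
  have hL' : (2 : ℝ) ^ 34 ≤ L := by exact_mod_cast hL
  have hm' : (m : ℝ) = 256 * (L : ℝ) ^ 2 := by exact_mod_cast hm
  have hL0 : (0 : ℝ) < L := lt_of_lt_of_le (by positivity) hL'
  obtain ⟨A, inst, τ, ev, htr, hsa, hev⟩ := exists_model (Lt n)
  obtain ⟨h1, h2⟩ := gap_example e hL' hm'
  refine ⟨A, inst, τ, n, fun k => ev (Xt (Fx e) (cx e L) k), fun k => ev (St k), htr, ?_,
    fun k => ?_, ⟨fun k => hsa _, fun k j => ?_⟩, isFreeFamily_comp ev hev (isFree_Xt _ _),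
    fun s hs => ?_, ?_, ?_, ?_⟩
  · have := Fintype.card_congr e
    simp only [Fintype.card_sum, Fintype.card_fin, Fintype.card_prod] at this
    have hm1 : 1 ≤ m := by
      rw [hm]
      have : 0 < L := by exact_mod_cast hL0
      exact Nat.one_le_iff_ne_zero.2 (by positivity)
    omega
  · simp only [Xt, map_add, map_smul]
    refine IsSelfAdjoint.add ?_ (IsSelfAdjoint.smul (Complex.conj_ofReal _) (hsa _))
    rw [IsSelfAdjoint, star_ev_wd ev hsa, ← List.map_reverse, Fx_reverse]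
  · simp only [← map_pow, hev]
    exact tau0_lt_pow _ j
  · rw [freeFisher_comp ev hev]
    exact (freeFisher_example e hL' hm'.le hs).2.trans_lt ENNReal.ofReal_lt_top
  · simp only [freeFisher_comp ev hev]
    exact h1
  · rw [chi_comp ev hev]
    exact bot_lt_chi _ (Fx_reverse e) _ (cx_pos e hL0)
  · rw [chi_comp ev hev, chiStar_comp ev hev]
    exact h2

end Crest.Agent.R89
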