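import Crest.Agent.R89.Hard
import Crest.Agent.R89.Fisher

/-!
# R89: second moments and the Fisher information of the example
-/

set_option autoImplicit false
open scoped InnerProductSpace BigOperators
open Crest.OpAlg

namespace Crest.Agent.R89

variable {m n : ℕ}

theorem isSym_vv (c : Fin n → ℝ) (s : ℝ) (k : Fin n) : IsSym (act (vv c s k)) := by
  simp only [vv, map_add, map_smul, act_lt]
  exact ((isSym_sT _).smul _).add ((isSym_sT _).smul _)

theorem isSym_heat {F : Fin n → List (Fin n)} (hF : ∀ k, (F k).reverse = F k) (c : Fin n → ℝ)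
    (s : ℝ) (k : Fin n) : IsSym (act (heatTuple (Xt F c) St s k)) := by
  rw [heatTuple_Xt, map_add]
  exact (isSym_act_wd (by rw [← List.map_reverse, hF])).add (isSym_vv c s k)

theorem heat_zero (F : Fin n → List (Fin n)) (c : Fin n → ℝ) :
    heatTuple (Xt F c) St 0 = Xt F c := by
  ext1 k
  simp [heatTuple]

theorem phi_vv (F : Fin n → List (Fin n)) (c : Fin n → ℝ) {s : ℝ} (hs : 0 < s) (k : Fin n)
    (u : List (Fin n)) :
    (splits u fun x a z => if a = k then tau0 (x.map (heatTuple (Xt F c) St s)).prod *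
      tau0 (z.map (heatTuple (Xt F c) St s)).prod else 0) =
      phi F c s u (((c k ^ 2 + s : ℝ) : ℂ)⁻¹ • vv c s k) := by
  have ht : ((c k ^ 2 + s : ℝ) : ℂ) ≠ 0 := by
    have : 0 < c k ^ 2 + s := by positivity
    exact_mod_cast this.ne'
  have h := phi_noise F c hs.le u k 1 1
  rw [one_mul, mul_one] at h
  rw [map_smul, h, smul_eq_mul, mul_splits]
  refine splits_congr _ fun x a z _ => ?_
  split_ifs
  · rw [← mul_assoc, inv_mul_cancel₀ ht, one_mul, phi_one, phi_one, mul_comm]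
  · simp

theorem norm_inv_vv (c : Fin n → ℝ) {s : ℝ} (hs : 0 < s) (k : Fin n) :
    ‖emb (((c k ^ 2 + s : ℝ) : ℂ)⁻¹ • vv c s k)‖ ^ 2 = 1 / (c k ^ 2 + s) := by
  have hp : 0 < c k ^ 2 + s := by positivity
  rw [map_smul, norm_smul, norm_inv, Complex.norm_real, Real.norm_of_nonneg hp.le,
    norm_vv c hs.le, mul_pow, Real.sq_sqrt hp.le]
  field_simp

variable (e : Kx m ≃ Fin n)

theorem Fx_reverse (k : Fin n) : (Fx e k).reverse = Fx e k := by
  obtain ⟨j, rfl⟩ := e.surjective k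
  rcases j with b | ⟨p, q⟩ <;> simp

theorem act_Fx_one (k : Fin n) : act (wd (Fx e k)) 1 = wd (Fx e k) := by
  obtain ⟨j, rfl⟩ := e.surjective k
  rcases j with b | ⟨p, q⟩
  · rw [Fx_inl, act_wd_cons, act_wd_nil, sT_one]; rfl
  · rw [Fx_inr, act_aba_one]

theorem act_Fx_map_one (k : Fin n) :
    act (wd ((Fx e k).map hd)) 1 = wd ((Fx e k).map hd) := by
  have := act_wd_map_hm hd_injective (Fx e k) 1
  rwa [map_one (hm hd), act_Fx_one, hm_wd] at this

theorem inner_Fx_vv (c : Fin n → ℝ) (s : ℝ) (k l : Fin n) :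
    ⟪emb (wd ((Fx e k).map hd)), emb (vv c s l)⟫_ℂ = 0 := by
  obtain ⟨j, rfl⟩ := e.surjective k
  simp only [vv, map_add, map_smul, inner_add_right, inner_smul_right, lt, inner_emb_wd]
  rcases j with b | ⟨p, q⟩ <;> simp

theorem act_heat_one (c : Fin n → ℝ) (s : ℝ) (k : Fin n) :
    act (heatTuple (Xt (Fx e) c) St s k) 1 = wd ((Fx e k).map hd) + vv c s k := by
  rw [heatTuple_Xt, map_add, LinearMap.add_apply, act_Fx_map_one, act_vv_one]

theorem tau0_heat_sq (c : Fin n → ℝ) {s : ℝ} (hs : 0 ≤ s) (k : Fin n) :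
    (tau0 (heatTuple (Xt (Fx e) c) St s k * heatTuple (Xt (Fx e) c) St s k)).re =
      1 + (c k ^ 2 + s) := by
  rw [tau0_mul_self (isSym_heat (Fx_reverse e) c s k), Complex.ofReal_re, act_heat_one, map_add,
    norm_add_sq (𝕜 := ℂ), inner_Fx_vv, norm_emb_wd, norm_vv c hs, Real.sq_sqrt (by positivity)]
  simp

/-- The improved conjugate vector. -/
theorem exists_conj {L s : ℝ} (hL : 2 ^ 34 ≤ L) (hm : (m : ℝ) ≤ 256 * L ^ 2) (hs : 2 ^ 30 ≤ s)
    (M : ℕ) (x : Fin m × Fin m) :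
    ∃ ξ : T (Lt n), ‖emb ξ‖ ^ 2 ≤ 1 / (L ^ 2 + s) - 1 / 4 / (L ^ 2 + s) ^ 2 ∧
      ∀ u : List (Fin n), u.length ≤ M → phi (Fx e) (cx e L) s u ξ =
        phi (Fx e) (cx e L) s u
          (((cx e L (e (.inr x)) ^ 2 + s : ℝ) : ℂ)⁻¹ • vv (cx e L) s (e (.inr x))) := by
  have hs0 : 0 < s := lt_of_lt_of_le (by positivity) hs
  set k := e (.inr x) with hk
  set c := cx e L with hc
  have hck : c k = L := cx_inr e L x
  set t := L ^ 2 + s with ht
  have ht0 : 0 < t := by positivity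
  set f : T (Lt n) := wd ((Fx e k).map hd) with hf
  set ρ : T (Lt n) := ∑ D ∈ Finset.range (M + 1 + 1), Rp (Fx e) c s D (wd (Fx e k)) with hρ
  have hperp : ∀ u : List (Fin n), u.length ≤ M + 1 → phi (Fx e) c s u (f - ρ) = 0 := by
    intro u hu
    rw [map_sub, hf, ← hm_wd, phi_hm (Fx e) hs0 u hu, hρ, map_sum, sub_self]
  have hρn : ‖emb ρ‖ ≤ 1 / 4 := by
    refine (norm_sum_Rp_le e hL hm hs _ _).trans ?_
    obtain ⟨p, q⟩ := x
    rw [hk, Fx_inr]
    norm_num
  have hfn : ‖emb f‖ = 1 := norm_emb_wd _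
  refine ⟨((c k ^ 2 + s : ℝ) : ℂ)⁻¹ • vv c s k + ((1 / (2 * t) : ℝ) : ℂ) • (f - ρ), ?_,
    fun u hu => ?_⟩
  · have h1 : ⟪emb (f + vv c s k), emb (f - ρ)⟫_ℂ = 0 := by
      have := hperp [k] (by simp)
      rw [phi_apply, List.map_singleton, List.prod_singleton, Yop,
        (isSym_heat (Fx_reverse e) c s k).eps_apply, act_heat_one] at this
      exact this
    have h2 : (⟪emb (vv c s k), emb (f - ρ)⟫_ℂ).re ≤ -(3 / 4) := by
      rw [map_add, inner_add_left, map_sub emb f ρ, inner_sub_right] at h1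
      have h3 := congrArg Complex.re h1
      have h4 : (⟪emb f, emb f⟫_ℂ).re = 1 := by
        have := inner_self_eq_norm_sq (𝕜 := ℂ) (emb f)
        rw [hfn] at this
        simpa using this
      have h5 : (⟪emb f, emb ρ⟫_ℂ).re ≤ 1 / 4 := by
        refine (Complex.re_le_norm _).trans ((norm_inner_le_norm _ _).trans ?_)
        rw [hfn, one_mul]
        exact hρn
      rw [map_sub emb f ρ]
      simp only [Complex.add_re, Complex.sub_re, Complex.zero_re] at h3
      linarith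
    have h6 : ‖emb (f - ρ)‖ ≤ 5 / 4 := by
      rw [map_sub]
      refine (norm_sub_le _ _).trans ?_
      linarith
    rw [map_add, norm_add_sq (𝕜 := ℂ), norm_inv_vv c hs0, hck, ← ht, map_smul, map_smul,
      inner_smul_left, inner_smul_right, norm_smul, Complex.norm_real,
      Real.norm_of_nonneg (by positivity), ← Complex.ofReal_inv, Complex.conj_ofReal, ← mul_assoc,
      ← Complex.ofReal_mul, RCLike.re_to_complex, Complex.re_ofReal_mul]
    have h7 : (1 / (2 * t) * ‖emb (f - ρ)‖) ^ 2 ≤ (1 / (2 * t) * (5 / 4)) ^ 2 := by gcongr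
    have h8 := mul_le_mul_of_nonneg_left h2 (by positivity : 0 ≤ t⁻¹ * (1 / (2 * t)))
    have e1 : (1 / (2 * t) * (5 / 4)) ^ 2 = 25 / 64 * (1 / t ^ 2) := by field_simp; ring
    have e2 : t⁻¹ * (1 / (2 * t)) * -(3 / 4) = -(3 / 8) * (1 / t ^ 2) := by field_simp; ring
    have e3 : 1 / 4 / t ^ 2 = 1 / 4 * (1 / t ^ 2) := by ring
    have : 0 < 1 / t ^ 2 := by positivity
    linarith
  · rw [map_add, map_smul _ _ (f - ρ), hperp u (by omega), smul_zero, add_zero]

theorem sum_Kx (f : Fin n → ℝ) :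
    ∑ k, f k = ∑ b, f (e (.inl b)) + ∑ x, f (e (.inr x)) := by
  rw [← Equiv.sum_comp e, Fintype.sum_sum_type]

theorem freeFisher_example {L : ℝ} (hL : 2 ^ 34 ≤ L) (hm : (m : ℝ) ≤ 256 * L ^ 2) {s : ℝ}
    (hs : 0 < s) :
    0 ≤ (∑ k, 1 / (cx e L k ^ 2 + s) -
        if 2 ^ 30 ≤ s then (m : ℝ) ^ 2 / 4 / (L ^ 2 + s) ^ 2 else 0) ∧
      freeFisher tau0 (heatTuple (Xt (Fx e) (cx e L)) St s) ≤ ENNReal.ofReal
        (∑ k, 1 / (cx e L k ^ 2 + s) -
          if 2 ^ 30 ≤ s then (m : ℝ) ^ 2 / 4 / (L ^ 2 + s) ^ 2 else 0) := by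
  set β : Fin n → ℝ := fun k => 1 / (cx e L k ^ 2 + s) -
    if 2 ^ 30 ≤ s ∧ (e.symm k).isRight then 1 / 4 / (L ^ 2 + s) ^ 2 else 0 with hβ
  have hsum : ∑ k, β k = ∑ k, 1 / (cx e L k ^ 2 + s) -
      if 2 ^ 30 ≤ s then (m : ℝ) ^ 2 / 4 / (L ^ 2 + s) ^ 2 else 0 := by
    rw [Finset.sum_sub_distrib]
    congr 1
    rw [sum_Kx e]
    split_ifs with h
    · simp [h]
      ring
    · simp [h]
  have hex : ∀ (M : ℕ) (k : Fin n), ∃ ξ : T (Lt n), ‖emb ξ‖ ^ 2 ≤ β k ∧
      ∀ u : List (Fin n), u.length ≤ M → phi (Fx e) (cx e L) s u ξ =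
        phi (Fx e) (cx e L) s u (((cx e L k ^ 2 + s : ℝ) : ℂ)⁻¹ • vv (cx e L) s k) := by
    intro M k
    by_cases h : 2 ^ 30 ≤ s ∧ (e.symm k).isRight
    · obtain ⟨j, rfl⟩ := e.surjective k
      obtain ⟨h1, h2⟩ := h
      rcases j with b | x
      · simp at h2
      · obtain ⟨ξ, h3, h4⟩ := exists_conj e hL hm h1 M x
        refine ⟨ξ, ?_, h4⟩
        simpa [hβ, h1] using h3
    · refine ⟨_, ?_, fun _ _ => rfl⟩
      rw [norm_inv_vv _ hs]
      simp only [hβ, if_neg h, sub_zero, le_refl]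
  rw [← hsum]
  refine ⟨Finset.sum_nonneg fun k _ => ?_, freeFisher_le _ (isSym_heat (Fx_reverse e) _ s) β
    fun M k => ?_⟩
  · obtain ⟨ξ, h, -⟩ := hex 0 k
    exact (sq_nonneg _).trans h
  · obtain ⟨ξ, h1, h2⟩ := hex M k
    refine ⟨ξ, h1, fun u hu => ?_⟩
    rw [phi_vv _ _ hs, ← h2 u hu, act_prod, phi_apply]

/-! ### The residual of the non-base coordinates -/

theorem Xt_base (L : ℝ) (b : Fin m ⊕ Fin m) :
    Xt (Fx e) (cx e L) (e (.inl b)) =
      lt (hd (e (.inl b))) + ((1 / 16 : ℝ) : ℂ) • lt (nz (e (.inl b))) := by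
  simp only [Xt, Fx_inl, cx_inl]
  rfl

theorem tau0_residual (L : ℝ) (p q : Fin m) :
    (tau0 ((Xt (Fx e) (cx e L) (ic e p q) - ((Fx e (ic e p q)).map (Xt (Fx e) (cx e L))).prod) *
      (Xt (Fx e) (cx e L) (ic e p q) - ((Fx e (ic e p q)).map (Xt (Fx e) (cx e L))).prod))).re <
      L ^ 2 + 1 / 20 := by
  set X := Xt (Fx e) (cx e L) with hX
  have hsym : ∀ k, IsSym (act (X k)) := fun k => by
    have := isSym_heat (Fx_reverse e) (cx e L) 0 k
    rwa [heat_zero] at this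
  have hsym2 : IsSym (act (X (ic e p q) - ((Fx e (ic e p q)).map X).prod)) := by
    rw [map_sub, map_list_prod, List.map_map]
    exact (hsym _).sub (isSym_prod _ hsym (Fx_reverse e _))
  set y : Fin n → T (Lt n) := fun j => lt (hd j) + ((1 / 16 : ℝ) : ℂ) • lt (nz j) with hy
  have hy1 : ∀ j, y j ∈ hom (Lt n) 1 := fun j =>
    add_mem (lt_mem_hom _) (Submodule.smul_mem _ _ (lt_mem_hom _))
  have hyn : ∀ j, ‖emb (y j - lt (hd j))‖ = 1 / 16 := fun j => by
    simp only [hy, add_sub_cancel_left, map_smul, norm_smul, norm_emb_lt, Complex.norm_real]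
    norm_num
  have hyn' : ∀ j, ‖emb (y j)‖ ≤ 17 / 16 := fun j => by
    have : y j = lt (hd j) + (y j - lt (hd j)) := by abel
    rw [this, map_add]
    refine (norm_add_le _ _).trans (le_of_eq ?_)
    rw [hyn, norm_emb_lt]
    norm_num
  have hact : ∀ j l, j ≠ l → ∀ η, act (y j) (y l * η) = y j * (y l * η) := by
    intro j l hjl η
    simp only [hy, map_add, map_smul, act_lt, LinearMap.add_apply, LinearMap.smul_apply, sT_apply,
      add_mul, smul_mul_assoc, ann_lt_mul, hd_inj, nz_inj, hd_ne_nz, nz_ne_hd, hjl.symm, if_false,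
      add_zero, mul_add, mul_smul_comm, smul_add]
  have hact1 : ∀ j, act (y j) 1 = y j := fun j => by
    simp only [hy, map_add, map_smul, act_lt, LinearMap.add_apply, LinearMap.smul_apply, sT_one]
  have ha : X (ia e p) = y (ia e p) := Xt_base e L _
  have hb : X (ib e q) = y (ib e q) := Xt_base e L _
  have hF : Fx e (ic e p q) = [ia e p, ib e q, ia e p] := Fx_inr e p q
  have h1 : act (X (ic e p q)) 1 =
      lt (hd (ia e p)) * (lt (hd (ib e q)) * lt (hd (ia e p))) + (L : ℂ) • lt (nz (ic e p q)) := by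
    have := act_heat_one e (cx e L) 0 (ic e p q)
    rw [heat_zero] at this
    rw [this, hF]
    simp only [List.map_cons, List.map_nil, wd_cons, wd_nil, mul_one, vv, Real.sqrt_zero,
      Complex.ofReal_zero, zero_smul, add_zero, ic, cx_inr]
  have h2 : act ((Fx e (ic e p q)).map X).prod 1 = y (ia e p) * (y (ib e q) * y (ia e p)) := by
    have := hact _ _ (ia_ne_ib e p q).symm 1
    rw [mul_one] at this
    rw [hF]
    simp only [List.map_cons, List.map_nil, List.prod_cons, List.prod_nil, mul_one, map_mul,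
      Module.End.mul_apply, ha, hb, hact1, this, hact _ _ (ia_ne_ib e p q)]
  set δ : T (Lt n) := y (ia e p) * (y (ib e q) * y (ia e p)) -
    lt (hd (ia e p)) * (lt (hd (ib e q)) * lt (hd (ia e p))) with hδ
  have h3 : act (X (ic e p q) - ((Fx e (ic e p q)).map X).prod) 1 =
      (L : ℂ) • lt (nz (ic e p q)) - δ := by
    rw [map_sub, LinearMap.sub_apply, h1, h2, hδ]
    abel
  have hδ3 : δ ∈ hom (Lt n) (1 + (1 + 1)) :=
    sub_mem (mul_mem_hom (hy1 _) (mul_mem_hom (hy1 _) (hy1 _)))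
      (mul_mem_hom (lt_mem_hom _) (mul_mem_hom (lt_mem_hom _) (lt_mem_hom _)))
  have hδn : ‖emb δ‖ ≤ 1 / 5 := by
    have e1 : δ = (y (ia e p) - lt (hd (ia e p))) * (y (ib e q) * y (ia e p)) +
        lt (hd (ia e p)) * ((y (ib e q) - lt (hd (ib e q))) * y (ia e p)) +
        lt (hd (ia e p)) * (lt (hd (ib e q)) * (y (ia e p) - lt (hd (ia e p)))) := by
      rw [hδ]
      noncomm_ring
    have hs1 : ∀ j, y j - lt (hd j) ∈ hom (Lt n) 1 := fun j => sub_mem (hy1 j) (lt_mem_hom _)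
    rw [e1, map_add, map_add]
    refine (norm_add₃_le).trans ?_
    rw [norm_mul_of_hom (hs1 _), norm_mul_of_hom (hy1 _), norm_mul_of_hom (lt_mem_hom _),
      norm_mul_of_hom (hs1 _), norm_mul_of_hom (lt_mem_hom _), norm_mul_of_hom (lt_mem_hom _),
      hyn, hyn, norm_emb_lt, norm_emb_lt]
    have i1 := hyn' (ia e p)
    have i2 := hyn' (ib e q)
    have i3 : ‖emb (y (ib e q))‖ * ‖emb (y (ia e p))‖ ≤ 17 / 16 * (17 / 16) := by gcongr
    linarith
  rw [tau0_mul_self hsym2, Complex.ofReal_re, h3, map_sub, norm_sub_sq (𝕜 := ℂ),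
    inner_eq_zero_of_hom (by norm_num) (Submodule.smul_mem _ _ (lt_mem_hom _)) hδ3, map_smul,
    norm_smul, norm_emb_lt, Complex.norm_real, Real.norm_eq_abs, mul_one, sq_abs]
  have : ‖emb δ‖ ^ 2 ≤ (1 / 5) ^ 2 := by gcongr
  simp only [map_zero, mul_zero, sub_zero]
  linarith

end Crest.Agent.R89
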