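import Crest.Agent.R89.Inner

/-!
# R89: representing hidden vectors by noise vectors

For the tuple `Z k = F_k(hidden) + v_k` we construct, for each hidden vector `ξ`, vectors
`Rp D ξ` (homogeneous of degree `D`, built from the noise vectors `v_k`) such that `ξ` and
`∑_{D ≤ M} Rp D ξ` have the same pairing with all words of length `≤ M` in the `Z k`.
-/

set_option autoImplicit false
open scoped InnerProductSpace BigOperators
open Crest.OpAlg

namespace Crest.Agent.R89

theorem splits_comm {α β M : Type*} [AddCommMonoid M] (u : List α) (w : List β)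
    (f : List α → α → List α → List β → β → List β → M) :
    (splits u fun x a z => splits w (f x a z)) =
      splits w fun x' a' z' => splits u fun x a z => f x a z x' a' z' := by
  induction u generalizing f with
  | nil => simp
  | cons c u ih => rw [splits_cons, ih, ← splits_add]; rfl

theorem mul_splits {α : Type*} (r : ℂ) (w : List α) (f : List α → α → List α → ℂ) :
    r * splits w f = splits w fun x a z => r * f x a z :=
  map_splits (AddMonoidHom.mulLeft r) w f

theorem sum_conv {f g : ℕ → ℂ} {p q M : ℕ} (h : p + q < M) (hf : ∀ a, p < a → f a = 0)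
    (hg : ∀ a, q < a → g a = 0) :
    ∑ D ∈ Finset.range M, ∑ a ∈ Finset.range (D + 1), f a * g (D - a) =
      (∑ a ∈ Finset.range (p + 1), f a) * ∑ a ∈ Finset.range (q + 1), g a := by
  rw [Finset.sum_range_diag_flip M fun a b => f a * g b, Finset.sum_mul]
  symm
  rw [Finset.sum_subset (Finset.range_subset_range.2 (by omega : p + 1 ≤ M))
    fun a _ ha => by rw [hf a (by simpa using ha), zero_mul]]
  refine Finset.sum_congr rfl fun a _ => ?_
  by_cases ha : p < a
  · simp [hf a ha]
  · rw [Finset.mul_sum]
    exact Finset.sum_subset (Finset.range_subset_range.2 (by omega))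
      fun b _ hb => by rw [hg b (by simpa using hb), mul_zero]

variable {n : ℕ}

theorem hd_injective : Function.Injective (hd : Fin n → Lt n) := fun _ _ h => by
  simpa [hd] using h

@[simp] theorem nz_inj {k l : Fin n} : nz k = nz l ↔ k = l := by simp [nz]
@[simp] theorem sv_inj {k l : Fin n} : sv k = sv l ↔ k = l := by simp [sv]
@[simp] theorem hd_inj {k l : Fin n} : hd k = hd l ↔ k = l := by simp [hd]
@[simp] theorem nz_ne_hd (k l : Fin n) : nz k ≠ hd l := by simp [nz, hd]
@[simp] theorem hd_ne_nz (k l : Fin n) : hd k ≠ nz l := by simp [nz, hd]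
@[simp] theorem sv_ne_hd (k l : Fin n) : sv k ≠ hd l := by simp [sv, hd]
@[simp] theorem hd_ne_sv (k l : Fin n) : hd k ≠ sv l := by simp [sv, hd]
@[simp] theorem nz_ne_sv (k l : Fin n) : nz k ≠ sv l := by simp [nz, sv]
@[simp] theorem sv_ne_nz (k l : Fin n) : sv k ≠ nz l := by simp [nz, sv]

variable (F : Fin n → List (Fin n)) (c : Fin n → ℝ) (s : ℝ)

theorem eps_vv (k : Fin n) : eps (vv c s k) = 0 := by simp [vv]

theorem vv_mem_hom (k : Fin n) : vv c s k ∈ hom (Lt n) 1 :=
  add_mem (Submodule.smul_mem _ _ (lt_mem_hom _)) (Submodule.smul_mem _ _ (lt_mem_hom _))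

theorem ann_vv_mul (i : Lt n) (k : Fin n) (ζ : T (Lt n)) :
    ann i (vv c s k * ζ) = (c k : ℂ) • (if nz k = i then ζ else 0) +
      (Real.sqrt s : ℂ) • (if sv k = i then ζ else 0) := by
  simp only [vv, add_mul, smul_mul_assoc, map_add, map_smul, ann_lt_mul]

theorem act_vv (k : Fin n) (ξ : T (Lt n)) :
    act (vv c s k) ξ = (c k : ℂ) • sT (nz k) ξ + (Real.sqrt s : ℂ) • sT (sv k) ξ := by
  simp only [vv, map_add, map_smul, act_lt, LinearMap.add_apply, LinearMap.smul_apply]

theorem act_vv_one (k : Fin n) : act (vv c s k) 1 = vv c s k := by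
  rw [act_vv, sT_one, sT_one, vv]

theorem inner_vv {s : ℝ} (hs : 0 ≤ s) (k l : Fin n) :
    ⟪emb (vv c s k), emb (vv c s l)⟫_ℂ = if k = l then ((c k ^ 2 + s : ℝ) : ℂ) else 0 := by
  simp only [vv, map_add, map_smul, inner_add_left, inner_add_right, inner_smul_left,
    inner_smul_right, inner_emb_lt, nz_inj, sv_inj, nz_ne_sv, sv_ne_nz, if_false,
    Complex.conj_ofReal]
  split_ifs with h
  · subst h
    have : ((√s : ℝ) : ℂ) * (√s : ℝ) = s := by exact_mod_cast Real.mul_self_sqrt hs
    push_cast
    linear_combination this
  · simp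

theorem norm_vv {s : ℝ} (hs : 0 ≤ s) (k : Fin n) : ‖emb (vv c s k)‖ = √(c k ^ 2 + s) := by
  have h := inner_vv c hs k k
  rw [if_pos rfl, inner_self_eq_norm_sq_to_K] at h
  have h2 : ‖emb (vv c s k)‖ ^ 2 = c k ^ 2 + s := by
    apply Complex.ofReal_injective
    rw [← h]
    simp
  rw [← h2, Real.sqrt_sq (norm_nonneg _)]

/-- The operator of the `k`-th coordinate at time `s`. -/
noncomputable def Yop (k : Fin n) : Module.End ℂ (T (Lt n)) := act (heatTuple (Xt F c) St s k)

theorem Yop_apply (k : Fin n) (ξ : T (Lt n)) :
    Yop F c s k ξ = act (wd ((F k).map hd)) ξ + act (vv c s k) ξ := by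
  rw [Yop, heatTuple_Xt, map_add, LinearMap.add_apply]

theorem Yop_noise {s : ℝ} (hs : 0 ≤ s) (l k : Fin n) (ξ ζ : T (Lt n)) :
    Yop F c s l (ξ * vv c s k * ζ) = Yop F c s l ξ * vv c s k * ζ +
      if l = k then (((c k ^ 2 + s : ℝ) : ℂ) * eps ξ) • ζ else 0 := by
  rw [mul_assoc, mul_assoc, Yop_apply, Yop_apply, act_wd_mul_of_ann, act_vv, act_vv, sT_mul,
    sT_mul, ann_vv_mul, ann_vv_mul]
  · simp only [nz_inj, sv_inj, nz_ne_sv, sv_ne_nz, if_false, smul_zero, add_zero, zero_add,
      add_mul, smul_mul_assoc, smul_add]
    by_cases h : l = k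
    · subst h
      have : ((√s : ℝ) : ℂ) * (√s : ℝ) = s := by exact_mod_cast Real.mul_self_sqrt hs
      simp only [if_true, smul_smul]
      have e : ((c l ^ 2 + s : ℝ) : ℂ) * eps ξ =
          (c l : ℂ) * (eps ξ * c l) + (√s : ℝ) * (eps ξ * (√s : ℝ)) := by
        push_cast
        linear_combination (-eps ξ) * this
      rw [e, add_smul]
      abel
    · simp only [h, Ne.symm h, if_false, smul_zero, add_zero]
  · intro i hi
    obtain ⟨j, -, rfl⟩ := List.mem_map.1 hi
    simp [ann_vv_mul]

theorem Yop_hid (l i : Fin n) (ξ ζ : T (Lt n)) :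
    Yop F c s l (ξ * lt (hd i) * ζ) = Yop F c s l ξ * lt (hd i) * ζ +
      splits (F l) fun x a z =>
        if a = i then eps (act (wd (z.map hd)) ξ) • act (wd (x.map hd)) ζ else 0 := by
  rw [Yop_apply, Yop_apply, act_wd_mul_lt, splits_map, mul_assoc ξ, act_vv, act_vv, sT_mul, sT_mul,
    ann_lt_mul, ann_lt_mul]
  simp only [hd_inj, hd_ne_nz, hd_ne_sv, if_false, smul_zero, add_zero, add_mul, smul_mul_assoc,
    mul_assoc]
  abel

/-- The pairing with a word in the coordinates. -/
noncomputable def phi (u : List (Fin n)) : T (Lt n) →ₗ[ℂ] ℂ := eps ∘ₗ (u.map (Yop F c s)).prod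

theorem phi_apply (u : List (Fin n)) (ξ : T (Lt n)) :
    phi F c s u ξ = eps ((u.map (Yop F c s)).prod ξ) := rfl

theorem act_prod (u : List (Fin n)) :
    act (u.map (heatTuple (Xt F c) St s)).prod = (u.map (Yop F c s)).prod := by
  rw [map_list_prod, List.map_map]
  rfl

theorem phi_one (u : List (Fin n)) :
    phi F c s u 1 = tau0 (u.map (heatTuple (Xt F c) St s)).prod := by
  rw [tau0_apply, act_prod, phi_apply]

theorem phi_noise {s : ℝ} (hs : 0 ≤ s) (u : List (Fin n)) (k : Fin n) (ξ ζ : T (Lt n)) :
    phi F c s u (ξ * vv c s k * ζ) = splits u fun x a z =>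
      if a = k then ((c k ^ 2 + s : ℝ) : ℂ) * (phi F c s z ξ * phi F c s x ζ) else 0 := by
  rw [phi_apply, prod_apply_mul _ _ _ (fun l => Yop_noise F c hs l k), map_add, eps_mul, eps_mul,
    eps_vv, mul_zero, zero_mul, zero_add, map_splits]
  refine splits_congr _ fun x a z _ => ?_
  split_ifs
  · simp only [map_smul, smul_eq_mul, phi_apply, mul_assoc]
  · simp

theorem phi_hid (u : List (Fin n)) (i : Fin n) (ζ : T (Fin n)) :
    phi F c s u (lt (hd i) * hm hd ζ) = splits u fun x k z => splits (F k) fun x' a z' =>
      if a = i then phi F c s z (hm hd (act (wd z') 1)) * phi F c s x (hm hd (act (wd x') ζ))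
      else 0 := by
  have h := prod_apply_mul _ _ _ (fun l => Yop_hid F c s l i) u 1 (hm hd ζ)
  rw [one_mul] at h
  rw [phi_apply, h, map_add, eps_mul, eps_mul, eps_lt, mul_zero, zero_mul, zero_add, map_splits]
  refine splits_congr _ fun x k z _ => ?_
  rw [map_splits, map_splits]
  refine splits_congr _ fun x' a z' _ => ?_
  split_ifs
  · rw [map_smul, map_smul, smul_eq_mul, act_wd_map_hm hd_injective, phi_apply, phi_apply,
      ← act_wd_map_hm hd_injective z' 1, map_one (hm hd), ← act_prod F c s z, eps_act_comm]
  · simp

/-- The degree `D` part of the representing vector. -/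
noncomputable def Rp : ℕ → (T (Fin n) →ₗ[ℂ] T (Lt n))
  | 0 => eps.smulRight 1
  | D + 1 => linW fun w => match w with
    | [] => 0
    | i :: b => ∑ a : Fin (D + 1), ∑ k, ((c k ^ 2 + s : ℝ) : ℂ)⁻¹ • splits (F k) fun x a' z =>
        if a' = i then Rp a (act (wd z) 1) * vv c s k * Rp (D - a) (act (wd x) (wd b)) else 0
  decreasing_by all_goals omega

theorem Rp_zero (ξ : T (Fin n)) : Rp F c s 0 ξ = eps ξ • 1 := by
  rw [Rp]; rfl

theorem Rp_succ_one (D : ℕ) : Rp F c s (D + 1) 1 = 0 := by
  rw [Rp, ← wd_nil, linW_wd]

theorem Rp_succ_cons (D : ℕ) (i : Fin n) (b : List (Fin n)) :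
    Rp F c s (D + 1) (wd (i :: b)) = ∑ a ∈ Finset.range (D + 1), ∑ k,
      ((c k ^ 2 + s : ℝ) : ℂ)⁻¹ • splits (F k) fun x a' z =>
        if a' = i then Rp F c s a (act (wd z) 1) * vv c s k * Rp F c s (D - a) (act (wd x) (wd b))
        else 0 := by
  rw [Rp, linW_wd, Finset.sum_range]

theorem splits_eq_zero {α M : Type*} [AddCommMonoid M] (w : List α) {f : List α → α → List α → M}
    (h : ∀ x a z, w = x ++ a :: z → f x a z = 0) : splits w f = 0 := by
  rw [splits_congr w h, splits_zero]

theorem splits_mem {α M : Type*} [AddCommGroup M] [Module ℂ M] (V : Submodule ℂ M) (w : List α)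
    (f : List α → α → List α → M) (h : ∀ x a z, f x a z ∈ V) : splits w f ∈ V := by
  induction w generalizing f with
  | nil => simp
  | cons c w ih => exact add_mem (h _ _ _) (ih _ fun x a z => h _ _ _)

theorem Rp_mem_hom (D : ℕ) (ξ : T (Fin n)) : Rp F c s D ξ ∈ hom (Lt n) D := by
  induction D using Nat.strong_induction_on generalizing ξ with
  | _ D ih =>
    cases D with
    | zero => rw [Rp_zero]; exact Submodule.smul_mem _ _ one_mem_hom
    | succ D =>
      induction ξ using T_ind with
      | zero => simp
      | add a b ha hb => rw [map_add]; exact add_mem ha hb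
      | smul r a ha => rw [map_smul]; exact Submodule.smul_mem _ _ ha
      | word w =>
        cases w with
        | nil => simp [Rp_succ_one]
        | cons i b =>
          rw [Rp_succ_cons]
          refine sum_mem fun a ha => sum_mem fun k _ => Submodule.smul_mem _ _ ?_
          refine splits_mem _ _ _ fun x a' z => ?_
          have ha' := Finset.mem_range.1 ha
          split_ifs
          · have := mul_mem_hom (mul_mem_hom (ih a ha' (act (wd z) 1)) (vv_mem_hom c s k))
              (ih (D - a) (by omega) (act (wd x) (wd b)))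
            rwa [show a + 1 + (D - a) = D + 1 by omega] at this
          · simp

variable {c s}

theorem phi_Rp_succ (hs : 0 < s) (u : List (Fin n)) (D : ℕ) (i : Fin n) (b : List (Fin n)) :
    phi F c s u (Rp F c s (D + 1) (wd (i :: b))) =
      splits u fun x k z => splits (F k) fun x' a' z' => if a' = i then
        ∑ a ∈ Finset.range (D + 1), phi F c s z (Rp F c s a (act (wd z') 1)) *
          phi F c s x (Rp F c s (D - a) (act (wd x') (wd b))) else 0 := by
  have key : ∀ (a : ℕ) (k : Fin n), phi F c s u (((c k ^ 2 + s : ℝ) : ℂ)⁻¹ • splits (F k)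
      fun x a' z => if a' = i then
        Rp F c s a (act (wd z) 1) * vv c s k * Rp F c s (D - a) (act (wd x) (wd b)) else 0) =
      splits u fun x k' z => if k' = k then splits (F k') fun x' a' z' => if a' = i then
        phi F c s z (Rp F c s a (act (wd z') 1)) *
          phi F c s x (Rp F c s (D - a) (act (wd x') (wd b))) else 0 else 0 := by
    intro a k
    have ht : ((c k ^ 2 + s : ℝ) : ℂ) ≠ 0 := by
      have : 0 < c k ^ 2 + s := by positivity
      exact_mod_cast this.ne'
    rw [map_smul, map_splits, smul_eq_mul, mul_splits]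
    have e : (splits u fun x k' z => if k' = k then splits (F k') fun x' a' z' => if a' = i then
        phi F c s z (Rp F c s a (act (wd z') 1)) *
          phi F c s x (Rp F c s (D - a) (act (wd x') (wd b))) else 0 else 0) =
        splits u fun x k' z => splits (F k) fun x' a' z' => if k' = k then if a' = i then
          phi F c s z (Rp F c s a (act (wd z') 1)) *
            phi F c s x (Rp F c s (D - a) (act (wd x') (wd b))) else 0 else 0 := by
      refine splits_congr _ fun x k' z _ => ?_
      by_cases h : k' = k
      · simp only [h, if_true]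
      · simp only [h, if_false, splits_zero]
    rw [e, splits_comm]
    refine splits_congr _ fun x' a' z' _ => ?_
    by_cases h : a' = i
    · simp only [h, if_true]
      rw [phi_noise F c hs.le, mul_splits]
      refine splits_congr _ fun x k' z _ => ?_
      split_ifs
      · rw [← mul_assoc, inv_mul_cancel₀ ht, one_mul]
      · simp
    · simp [h]
  rw [Rp_succ_cons, map_sum]
  simp only [map_sum, key, ← splits_sum, Finset.sum_ite_eq, Finset.mem_univ, if_true]
  refine splits_congr _ fun x k z _ => splits_congr _ fun x' a' z' _ => ?_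
  split_ifs <;> simp

theorem phi_Rp_eq_zero (hs : 0 < s) (D : ℕ) (u : List (Fin n)) (hu : u.length < D)
    (ξ : T (Fin n)) : phi F c s u (Rp F c s D ξ) = 0 := by
  induction D using Nat.strong_induction_on generalizing u ξ with
  | _ D ih =>
    cases D with
    | zero => omega
    | succ D =>
      induction ξ using T_ind with
      | zero => simp
      | add a b ha hb => rw [map_add, map_add, ha, hb, add_zero]
      | smul r a ha => rw [map_smul, map_smul, ha, smul_zero]
      | word w =>
        cases w with
        | nil => simp [Rp_succ_one]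
        | cons i b =>
          rw [phi_Rp_succ F hs]
          refine splits_eq_zero _ fun x k z hxz => splits_eq_zero _ fun x' a' z' _ => ?_
          split_ifs
          · refine Finset.sum_eq_zero fun a ha => ?_
            have ha' := Finset.mem_range.1 ha
            have hl : x.length + z.length < D := by
              rw [hxz] at hu
              simp only [List.length_append, List.length_cons] at hu
              omega
            by_cases h : z.length < a
            · rw [ih a ha' z h, zero_mul]
            · rw [ih (D - a) (by omega) x (by omega), mul_zero]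
          · rfl

/-- The representation theorem. -/
theorem phi_hm (hs : 0 < s) (u : List (Fin n)) {M : ℕ} (hM : u.length ≤ M) (ξ : T (Fin n)) :
    phi F c s u (hm hd ξ) = ∑ D ∈ Finset.range (M + 1), phi F c s u (Rp F c s D ξ) := by
  induction hn : u.length using Nat.strong_induction_on generalizing u M ξ with
  | _ N ih =>
    induction ξ using T_ind with
    | zero => simp
    | add a b ha hb => simp only [map_add, ha, hb, Finset.sum_add_distrib]
    | smul r a ha => simp only [map_smul, ha, Finset.smul_sum]
    | word w =>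
      rw [Finset.sum_range_succ', Rp_zero]
      cases w with
      | nil => simp [Rp_succ_one]
      | cons i b =>
        rw [eps_wd_cons, zero_smul, map_zero, add_zero, hm_wd, List.map_cons, wd_cons, ← hm_wd,
          phi_hid]
        simp only [phi_Rp_succ F hs, ← splits_sum]
        refine splits_congr _ fun x k z hxz => splits_congr _ fun x' a' z' _ => ?_
        have hl : x.length + z.length < N := by
          rw [← hn, hxz]
          simp only [List.length_append, List.length_cons]
          omega
        split_ifs
        · rw [ih z.length (by omega) z le_rfl _ rfl, ih x.length (by omega) x le_rfl _ rfl]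
          exact (sum_conv (by omega) (fun a ha => phi_Rp_eq_zero F hs a z ha _)
            (fun a ha => phi_Rp_eq_zero F hs a x ha _)).symm
        · simp

end Crest.Agent.R89
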